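import Vale.Agent.P122A.Stm

open MeasureTheory Set FourierTransform
open scoped ENNReal

namespace Vale.Agent.P122A

namespace Cake

theorem val {s B : ℝ} (hs : 0 < s) (hB : 0 ≤ B) :
    ∫⁻ t in Ioc (0 : ℝ) 1, ENNReal.ofReal (B * t ^ (s - 1)) = ENNReal.ofReal (B / s) := by
  have hi : IntervalIntegrable (fun t : ℝ => B * t ^ (s - 1)) volume 0 1 :=
    (intervalIntegral.intervalIntegrable_rpow' (by linarith)).const_mul B
  rw [← ofReal_integral_eq_lintegral_ofReal hi.1
    ((ae_restrict_iff' measurableSet_Ioc).2 (ae_of_all _ fun t ht =>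
      mul_nonneg hB (Real.rpow_nonneg ht.1.le _))),
    ← intervalIntegral.integral_of_le zero_le_one, intervalIntegral.integral_const_mul,
    integral_rpow (Or.inl (by linarith))]
  congr 1
  rw [sub_add_cancel, Real.one_rpow, Real.zero_rpow hs.ne']
  ring

end Cake

theorem r_cake : R_cake := by
  intro μ u a r B hu h01 ha har hB hl
  have hr : 0 < r := ha.trans har
  have hs : 0 < r - a := sub_pos.2 har
  rw [lintegral_rpow_eq_lintegral_meas_lt_mul μ (ae_of_all _ fun z => (h01 z).1)
    hu.aemeasurable hr]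
  have h1 : ∫⁻ t in Ioi (0 : ℝ), μ {z | t < u z} * ENNReal.ofReal (t ^ (r - 1)) ≤
      ∫⁻ t in Ioc (0 : ℝ) 1, ENNReal.ofReal (B * t ^ (r - a - 1)) := by
    rw [← lintegral_indicator measurableSet_Ioi, ← lintegral_indicator measurableSet_Ioc]
    refine lintegral_mono fun t => ?_
    by_cases h0 : t ∈ Ioi (0 : ℝ)
    · rw [indicator_of_mem h0]
      have t0 : 0 < t := h0
      by_cases h2 : t ≤ 1
      · rw [indicator_of_mem (show t ∈ Ioc (0 : ℝ) 1 from ⟨t0, h2⟩)]
        refine (mul_le_mul_left (hl t t0) _).trans (le_of_eq ?_)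
        rw [← ENNReal.ofReal_mul (mul_nonneg hB (Real.rpow_nonneg t0.le _)), mul_assoc,
          ← Real.rpow_add t0]
        congr 3
        ring
      · have : {z | t < u z} = ∅ := by
          ext z
          simp only [mem_setOf_eq, mem_empty_iff_false, iff_false, not_lt]
          linarith [(h01 z).2, not_le.1 h2]
        rw [this, measure_empty, zero_mul]
        exact zero_le
    · rw [indicator_of_notMem h0]
      exact zero_le
  rw [Cake.val hs hB] at h1
  refine (mul_le_mul_right h1 _).trans (le_of_eq ?_)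
  rw [← ENNReal.ofReal_mul hr.le]
  congr 1
  ring

end Vale.Agent.P122A
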