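import Vale.Agent.P122A.Stm

open MeasureTheory Set FourierTransform
open scoped ENNReal

namespace Vale.Agent.P122A

theorem r_cs2 : R_cs := by
  intro p u m hp hu hm
  have h1 : ∀ t, (∫⁻ x, u x t ^ p) ^ 2 ≤ m * ∫⁻ x, u x t ^ (2 * p - 2) := by
    intro t
    have hx : Measurable fun x => u x t := hu.comp (measurable_prodMk_right (y := t))
    have h2 := ENNReal.lintegral_mul_le_Lp_mul_Lq volume Real.HolderConjugate.two_two
      hx.aemeasurable (hx.pow_const (p - 1)).aemeasurable
    have h3 : ∀ x, u x t ^ p = u x t * u x t ^ (p - 1) := fun x => by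
      conv_lhs => rw [show p = 1 + (p - 1) by ring]
      rw [ENNReal.rpow_add_of_nonneg _ _ zero_le_one (by linarith), ENNReal.rpow_one]
    have h4 : ∀ x, (u x t ^ (p - 1)) ^ (2 : ℝ) = u x t ^ (2 * p - 2) := fun x => by
      rw [← ENNReal.rpow_mul]
      congr 1
      ring
    simp only [Pi.mul_apply, ← h3, h4] at h2
    refine (pow_le_pow_left₀ zero_le h2 2).trans ?_
    rw [mul_pow, ← ENNReal.rpow_two, ← ENNReal.rpow_two, ← ENNReal.rpow_mul, ← ENNReal.rpow_mul]
    simp only [one_div, ne_eq, OfNat.ofNat_ne_zero, not_false_eq_true, inv_mul_cancel₀,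
      ENNReal.rpow_one, ENNReal.rpow_two]
    exact mul_le_mul_left (hm t) _
  refine (lintegral_mono h1).trans (le_of_eq ?_)
  rw [lintegral_const_mul _ (hu.pow_const (2 * p - 2)).lintegral_prod_left',
    Measure.volume_eq_prod, lintegral_prod_symm _ (hu.pow_const (2 * p - 2)).aemeasurable]

end Vale.Agent.P122A
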