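import Vale.Agent.P122A.Stm2

/-! The abstract mixed norm estimate. -/

open MeasureTheory Set FourierTransform
open scoped ENNReal

namespace Vale.Agent.P122A

theorem d_abs : D_mink → D_abs := by
  intro hm p u w n hp hu hw hn
  have p0 : 0 < p := by linarith
  have ma : Measurable fun z : ℝ × ℝ => (∫⁻ x, u x z.1 z.2 ^ p) ^ (2 / p) := by
    have h1 : Measurable fun q : (ℝ × ℝ) × ℝ => u q.2 q.1.1 q.1.2 ^ p :=
      (hu.comp (measurable_snd.prodMk measurable_fst)).pow_const p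
    exact h1.lintegral_prod_right'.pow_const _
  have mb : Measurable fun t : ℝ => ∫⁻ y, (∫⁻ x, u x t y ^ p) ^ (2 / p) :=
    ma.lintegral_prod_right'
  have s1 : ∀ t, ∫⁻ x, (∫⁻ y, u x t y ^ 2) ^ (p / 2) ≤
      (∫⁻ y, (∫⁻ x, u x t y ^ p) ^ (2 / p)) ^ (p / 2) := fun t => by
    have h1 : Measurable (Function.uncurry fun x y => u x t y ^ 2) :=
      (hu.comp (measurable_fst.prodMk (measurable_const.prodMk measurable_snd))).pow_const 2
    have h2 := hm (p / 2) (fun x y => u x t y ^ 2) (by linarith) h1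
    have h3 : ∀ a : ℝ≥0∞, (a ^ 2) ^ (p / 2) = a ^ p := fun a => by
      rw [← ENNReal.rpow_two, ← ENNReal.rpow_mul]
      congr 1
      ring
    simpa only [h3, one_div_div] using h2
  have s2 := ENNReal.lintegral_mul_le_Lp_mul_Lq volume Real.HolderConjugate.two_two
    hw.aemeasurable (mb.pow_const (p / 2)).aemeasurable
  have s3 := hm p (fun t y => (∫⁻ x, u x t y ^ p) ^ (2 / p)) (by linarith) ma
  have h4 : ∀ a : ℝ≥0∞, (a ^ (2 / p)) ^ p = a ^ 2 := fun a => by
    rw [← ENNReal.rpow_mul, div_mul_cancel₀ _ p0.ne', ENNReal.rpow_two]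
  have h5 : ∀ a : ℝ≥0∞, (a ^ (p / 2)) ^ (2 : ℝ) = a ^ p := fun a => by
    rw [← ENNReal.rpow_mul, div_mul_cancel₀ _ two_ne_zero]
  have s4 : ∫⁻ y, (∫⁻ t, ((∫⁻ x, u x t y ^ p) ^ (2 / p)) ^ p) ^ (1 / p) ≤
      ∫⁻ y, n y ^ (2 / p) := by
    refine lintegral_mono fun y => ?_
    simp only [h4]
    refine (ENNReal.rpow_le_rpow (hn y) (by positivity)).trans (le_of_eq ?_)
    rw [← ENNReal.rpow_two, ← ENNReal.rpow_mul, mul_one_div]
  have s5 := ENNReal.rpow_le_rpow (s3.trans (ENNReal.rpow_le_rpow s4 p0.le))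
    (show (0 : ℝ) ≤ 1 / 2 by norm_num)
  rw [← ENNReal.rpow_mul _ p, mul_one_div] at s5
  simp only [Pi.mul_apply, h5] at s2
  simp only [ENNReal.rpow_two] at s2
  exact (lintegral_mono fun t => mul_le_mul_right (s1 t) _).trans
    (s2.trans (mul_le_mul_right s5 _))

end Vale.Agent.P122A
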