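import Vale.Agent.P122A.Stm2

open MeasureTheory Set FourierTransform
open scoped ENNReal

namespace Vale.Agent.P122A

theorem d_first : D_first := by
  intro θ θ' θ'' a b l hab hl h1 h2 hc hp hlo
  have hU : uIcc a b = Icc a b := uIcc_of_le hab
  have c1 : Continuous θ := continuous_iff_continuousAt.2 fun x => (h1 x).continuousAt
  have c2 : Continuous θ' := continuous_iff_continuousAt.2 fun x => (h2 x).continuousAt
  have hne : ∀ x ∈ Icc a b, θ' x ≠ 0 := fun x hx h => by
    have := hlo x hx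
    rw [h, abs_zero] at this
    linarith
  have hu : ∀ x ∈ Icc a b, HasDerivAt (fun y => (θ' y)⁻¹) (-θ'' x / θ' x ^ 2) x :=
    fun x hx => (h2 x).fun_inv (hne x hx)
  have hub : ∀ x ∈ Icc a b, |(θ' x)⁻¹| ≤ 1 / l := fun x hx => by
    rw [abs_inv, one_div]
    exact inv_anti₀ hl (hlo x hx)
  have cu : ContinuousOn (fun x => -θ'' x / θ' x ^ 2) (Icc a b) :=
    hc.neg.continuousOn.div (c2.pow 2).continuousOn fun x hx => pow_ne_zero 2 (hne x hx)
  have ce : Continuous fun x => ee (θ x) := cont_ee.comp c1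
  have he : ∀ x, HasDerivAt (fun y => ee (θ y))
      (ee (θ x) * (2 * Real.pi * Complex.I * (θ' x : ℂ))) x := fun x =>
    ((h1 x).ofReal_comp.const_mul (2 * Real.pi * Complex.I)).cexp
  have hP : ∀ x ∈ uIcc a b, HasDerivAt (fun y => ee (θ y) * (((θ' y)⁻¹ : ℝ) : ℂ))
      (2 * Real.pi * Complex.I * ee (θ x) + ee (θ x) * ((-θ'' x / θ' x ^ 2 : ℝ) : ℂ)) x := by
    intro x hx
    rw [hU] at hx
    have h3 := (he x).fun_mul (hu x hx).ofReal_comp
    have h4 : (θ' x : ℂ) ≠ 0 := Complex.ofReal_ne_zero.2 (hne x hx)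
    have h5 : ee (θ x) * (2 * Real.pi * Complex.I * (θ' x : ℂ)) * (((θ' x)⁻¹ : ℝ) : ℂ) =
        2 * Real.pi * Complex.I * ee (θ x) := by
      rw [Complex.ofReal_inv]
      field_simp
    rw [h5] at h3
    exact h3
  have i1 : IntervalIntegrable (fun x => 2 * Real.pi * Complex.I * ee (θ x)) volume a b :=
    (continuous_const.mul ce).intervalIntegrable a b
  have i2 : IntervalIntegrable (fun x => ee (θ x) * ((-θ'' x / θ' x ^ 2 : ℝ) : ℂ)) volume a b := by
    refine ContinuousOn.intervalIntegrable ?_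
    rw [hU]
    exact ce.continuousOn.mul (Complex.continuous_ofReal.comp_continuousOn cu)
  have i3 : IntervalIntegrable (fun x => -θ'' x / θ' x ^ 2) volume a b := by
    refine ContinuousOn.intervalIntegrable ?_
    rwa [hU]
  have e1 := intervalIntegral.integral_eq_sub_of_hasDerivAt hP (i1.add i2)
  rw [intervalIntegral.integral_add i1 i2, intervalIntegral.integral_const_mul] at e1
  have e2 := intervalIntegral.integral_eq_sub_of_hasDerivAt (fun x hx => hu x (hU ▸ hx)) i3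
  have e3 : ‖∫ x in a..b, ee (θ x) * ((-θ'' x / θ' x ^ 2 : ℝ) : ℂ)‖ ≤ (θ' a)⁻¹ - (θ' b)⁻¹ := by
    refine (intervalIntegral.norm_integral_le_integral_norm hab).trans_eq ?_
    rw [← neg_sub, ← e2, ← intervalIntegral.integral_neg]
    refine intervalIntegral.integral_congr fun x hx => ?_
    rw [hU] at hx
    have h6 : -θ'' x / θ' x ^ 2 ≤ 0 :=
      div_nonpos_of_nonpos_of_nonneg (neg_nonpos.2 (hp x hx)) (sq_nonneg _)
    rw [norm_mul, norm_ee, one_mul, Complex.norm_real, Real.norm_eq_abs, abs_of_nonpos h6]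
  have nP : ∀ x ∈ Icc a b, ‖ee (θ x) * (((θ' x)⁻¹ : ℝ) : ℂ)‖ ≤ 1 / l := fun x hx => by
    rw [norm_mul, norm_ee, one_mul, Complex.norm_real, Real.norm_eq_abs]
    exact hub x hx
  have ha : a ∈ Icc a b := left_mem_Icc.2 hab
  have hb : b ∈ Icc a b := right_mem_Icc.2 hab
  have e4 : ‖2 * Real.pi * Complex.I * ∫ x in a..b, ee (θ x)‖ ≤ 4 * (1 / l) := by
    rw [eq_sub_of_add_eq e1]
    refine (norm_sub_le _ _).trans ?_
    have k1 := norm_sub_le (ee (θ b) * (((θ' b)⁻¹ : ℝ) : ℂ)) (ee (θ a) * (((θ' a)⁻¹ : ℝ) : ℂ))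
    have k2 := nP a ha
    have k3 := nP b hb
    have k4 := (abs_le.1 (hub a ha)).2
    have k5 := (abs_le.1 (hub b hb)).1
    linarith
  have e5 : ‖(2 * Real.pi * Complex.I : ℂ)‖ = 2 * Real.pi := by
    rw [norm_mul, norm_mul, Complex.norm_I, mul_one, Complex.norm_real, Real.norm_eq_abs,
      abs_of_pos Real.pi_pos]
    simp
  rw [norm_mul, e5] at e4
  have p3 := Real.pi_gt_three
  have n0 := norm_nonneg (∫ x in a..b, ee (θ x))
  nlinarith

end Vale.Agent.P122A
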