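import Vale.Agent.P122A.Stm2

/-! Iterated integrals and measurability of the extension operator. -/

open MeasureTheory Set FourierTransform
open scoped ENNReal

namespace Vale.Agent.P122A

theorem d_fub : D_fub ∧ D_me := by
  constructor
  · intro F hF
    have h1 : ∀ x : ℝ, ∫⁻ w : ℝ × ℝ, F (x, w) = ∫⁻ t, ∫⁻ y, F (x, y, t) := fun x => by
      have m : Measurable fun w : ℝ × ℝ => F (x, w) := hF.comp measurable_prodMk_left
      rw [Measure.volume_eq_prod, lintegral_prod_symm _ m.aemeasurable]
    have m0 : Measurable fun q : (ℝ × ℝ) × ℝ => F (q.1.1, q.2, q.1.2) := hF.comp (by fun_prop)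
    have m1 : Measurable fun q : ℝ × ℝ => ∫⁻ y, F (q.1, y, q.2) := m0.lintegral_prod_right'
    rw [Measure.volume_eq_prod, lintegral_prod _ hF.aemeasurable]
    simp only [h1]
    exact lintegral_lintegral_swap m1.aemeasurable
  · intro φ ψ F hφ hψ hF
    have a := hφ.measurable
    have b := hψ.measurable
    have m0 : Measurable fun w : (ℝ × ℝ × ℝ) × (ℝ × ℝ) => F w.2 *
        ee (w.1.1 * w.2.1 + w.1.2.1 * w.2.2 + w.1.2.2 * (φ w.2.1 + ψ w.2.2)) :=
      (hF.comp measurable_snd).mul (cont_ee.measurable.comp (by fun_prop))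
    exact (m0.stronglyMeasurable.integral_prod_right' (ν := volume.restrict sq1)).measurable

end Vale.Agent.P122A
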