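import Vale.Agent.P122A.Stm2

/-! The `L²` bound for the convolution with the kernel. -/

open MeasureTheory Set FourierTransform
open scoped ENNReal

namespace Vale.Agent.P122A

namespace DL2

theorem cont {G : ℝ → ℂ} (hG : Integrable G) : Continuous fun η : ℝ => ∫ y, G y * ee (η * y) := by
  refine continuous_of_dominated (bound := fun y => ‖G y‖) (fun η => ?_) (fun η => ?_) hG.norm ?_
  · exact hG.1.mul (cont_ee.comp (by fun_prop)).aestronglyMeasurable
  · exact Filter.Eventually.of_forall fun y => by rw [norm_mul, norm_ee, mul_one]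
  · exact Filter.Eventually.of_forall fun y =>
      continuous_const.mul (cont_ee.comp (by fun_prop))

theorem swap {ψ : ℝ → ℝ} {G : ℝ → ℂ} (hψ : Continuous ψ) (hG : Integrable G) (t x : ℝ) :
    ∫ y, G y * kk ψ (x + y) t = ∫ η, (Icc (0 : ℝ) 1).indicator
      (fun η => (∫ y, G y * ee (η * y)) * ee (t * ψ η)) η * ee (x * η) := by
  have hI : Integrable (fun q : ℝ × ℝ => G q.1 * ee ((x + q.1) * q.2 + t * ψ q.2))
      (volume.prod (volume.restrict (Icc (0 : ℝ) 1))) :=
    (hG.comp_fst _).mul_bdd (c := 1) (cont_ee.comp (by fun_prop)).aestronglyMeasurable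
      (Filter.Eventually.of_forall fun q => (norm_ee _).le)
  simp only [kk, ← integral_const_mul]
  rw [integral_integral_swap (f := fun y η => G y * ee ((x + y) * η + t * ψ η)) hI,
    ← integral_indicator measurableSet_Icc]
  refine integral_congr_ae (Filter.Eventually.of_forall fun η => ?_)
  by_cases h : η ∈ Icc (0 : ℝ) 1
  · simp only [indicator_of_mem h, ← integral_mul_const]
    refine integral_congr_ae (Filter.Eventually.of_forall fun y => ?_)
    have e : (x + y) * η + t * ψ η = η * y + t * ψ η + x * η := by ring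
    simp only [e, ee_add, mul_assoc]
  · simp only [indicator_of_notMem h, zero_mul]

end DL2

theorem d_l2 : D_l2 := by
  intro ψ G t hψ hG
  have hc : Continuous fun η : ℝ => (∫ y, G y * ee (η * y)) * ee (t * ψ η) :=
    (DL2.cont hG).mul (cont_ee.comp (by fun_prop))
  simp only [DL2.swap hψ hG]
  refine (bes _ (hc.integrableOn_Icc.integrable_indicator measurableSet_Icc)).trans
    (le_trans (lintegral_mono fun η => ?_) (bes G hG))
  refine pow_le_pow_left' ((enorm_indicator_le_enorm_self _ _).trans (le_of_eq ?_)) 2
  rw [enorm_mul, ← ofReal_norm_eq_enorm (ee _), norm_ee, ENNReal.ofReal_one, mul_one]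

end Vale.Agent.P122A
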