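import Vale.Agent.P122A.Stm2

/-! Interpolation between a sup bound and a square bound. -/

open MeasureTheory Set FourierTransform
open scoped ENNReal

namespace Vale.Agent.P122A

namespace DLp

theorem l1 (G : ℝ → ℂ) (Y : Set ℝ) (hG : Measurable G) (hY : MeasurableSet Y)
    (h0 : ∀ y, y ∉ Y → G y = 0) :
    ∫⁻ y, ‖G y‖ₑ ≤ volume Y ^ (1 / 2 : ℝ) * (∫⁻ y, ‖G y‖ₑ ^ 2) ^ (1 / 2 : ℝ) := by
  have h := ENNReal.lintegral_mul_norm_pow_le (μ := volume.restrict Y) (f := fun _ => 1)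
    (g := fun t => ‖G t‖ₑ ^ 2) aemeasurable_const (hG.enorm.pow_const 2).aemeasurable
    (p := 1 / 2) (q := 1 / 2) (by norm_num) (by norm_num) (by norm_num)
  have e : ∀ t, (1 : ℝ≥0∞) ^ (1 / 2 : ℝ) * (‖G t‖ₑ ^ 2) ^ (1 / 2 : ℝ) = ‖G t‖ₑ := fun t => by
    rw [ENNReal.one_rpow, one_mul, ← ENNReal.rpow_two, ← ENNReal.rpow_mul]
    norm_num
  simp only [e, lintegral_const, one_mul, Measure.restrict_apply_univ] at h
  have e2 : ∫⁻ y, ‖G y‖ₑ = ∫⁻ y in Y, ‖G y‖ₑ := by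
    rw [← lintegral_indicator hY]
    refine lintegral_congr fun y => ?_
    by_cases hy : y ∈ Y
    · rw [indicator_of_mem hy]
    · rw [indicator_of_notMem hy, h0 y hy, enorm_zero]
  rw [e2]
  refine h.trans ?_
  gcongr
  exact Measure.restrict_le_self

theorem sup (κ : ℝ) (k G : ℝ → ℂ) (hk : ∀ x, ‖k x‖ ≤ κ) (x : ℝ) :
    ‖∫ y, G y * k (x + y)‖ₑ ≤ ENNReal.ofReal κ * ∫⁻ y, ‖G y‖ₑ := by
  refine (enorm_integral_le_lintegral_enorm _).trans ?_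
  rw [← lintegral_const_mul' _ _ ENNReal.ofReal_ne_top]
  refine lintegral_mono fun y => ?_
  rw [enorm_mul, mul_comm]
  gcongr
  rw [← ofReal_norm]
  exact ENNReal.ofReal_le_ofReal (hk _)

end DLp

theorem d_lp : D_lp := by
  intro p κ k G Y hp hκ hG hY h0 hk h2
  have hp2 : 0 < p - 2 := by linarith
  have hB : ∀ x, ‖∫ y, G y * k (x + y)‖ₑ ≤ ENNReal.ofReal κ *
      (volume Y ^ (1 / 2 : ℝ) * (∫⁻ y, ‖G y‖ₑ ^ 2) ^ (1 / 2 : ℝ)) := fun x =>
    (DLp.sup κ k G hk x).trans (mul_le_mul' le_rfl (DLp.l1 G Y hG hY h0))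
  generalize ∫⁻ y, ‖G y‖ₑ ^ 2 = M at h2 hB
  have e : ENNReal.ofReal κ ^ (p - 2) * volume Y ^ (p / 2 - 1) * M ^ (p / 2) =
      (ENNReal.ofReal κ * (volume Y ^ (1 / 2 : ℝ) * M ^ (1 / 2 : ℝ))) ^ (p - 2) * M := by
    have e1 : M ^ (p / 2) = M ^ (1 / 2 * (p - 2)) * M := by
      have := ENNReal.rpow_add_of_nonneg (x := M) (1 / 2 * (p - 2)) 1 (by positivity) zero_le_one
      rw [ENNReal.rpow_one, show 1 / 2 * (p - 2) + 1 = p / 2 by ring] at this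
      exact this
    rw [ENNReal.mul_rpow_of_nonneg _ _ hp2.le, ENNReal.mul_rpow_of_nonneg _ _ hp2.le,
      ← ENNReal.rpow_mul, ← ENNReal.rpow_mul, e1, show p / 2 - 1 = 1 / 2 * (p - 2) by ring]
    ring
  rw [e]
  by_cases hc : (ENNReal.ofReal κ * (volume Y ^ (1 / 2 : ℝ) * M ^ (1 / 2 : ℝ))) ^ (p - 2) = ⊤
  · have hM : M ≠ 0 := by
      rintro rfl
      rw [ENNReal.zero_rpow_of_pos (by norm_num), mul_zero, mul_zero,
        ENNReal.zero_rpow_of_pos hp2] at hc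
      exact ENNReal.zero_ne_top hc
    rw [hc, ENNReal.top_mul hM]
    exact le_top
  refine le_trans ?_ (mul_le_mul' le_rfl h2)
  rw [← lintegral_const_mul' _ _ hc]
  refine lintegral_mono fun x => ?_
  have e3 := ENNReal.rpow_add_of_nonneg (x := ‖∫ y, G y * k (x + y)‖ₑ) (p - 2) 2 hp2.le
    (by norm_num)
  rw [sub_add_cancel, ENNReal.rpow_two] at e3
  rw [e3]
  exact mul_le_mul' (ENNReal.rpow_le_rpow (hB x) hp2.le) le_rfl

end Vale.Agent.P122A
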