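import Vale.Agent.P122A.Stm2

/-! The integral form of the inequality of Minkowski. -/

open MeasureTheory Set FourierTransform
open scoped ENNReal

namespace Vale.Agent.P122A

namespace DMink

theorem dual {r q : ℝ} (hrq : r.HolderConjugate q) (h : ℝ → ℝ → ℝ≥0∞)
    (hh : Measurable (Function.uncurry h)) (φ : ℝ → ℝ≥0∞) (hφ : Measurable φ) :
    ∫⁻ x, (∫⁻ y, h x y) * φ x ≤
      (∫⁻ y, (∫⁻ x, h x y ^ r) ^ (1 / r)) * (∫⁻ x, φ x ^ q) ^ (1 / q) := by
  have m1 : ∀ x, Measurable (h x) := fun x => hh.comp (measurable_const.prodMk measurable_id)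
  have m2 : ∀ y, Measurable (fun x => h x y) := fun y =>
    hh.comp (measurable_id.prodMk measurable_const)
  have m3 : Measurable (fun y => (∫⁻ x, h x y ^ r) ^ (1 / r)) :=
    (Measurable.lintegral_prod_left' (μ := volume) (hh.pow_const r)).pow_const _
  have m4 : Measurable (Function.uncurry fun x y => h x y * φ x) :=
    hh.mul (hφ.comp measurable_fst)
  calc ∫⁻ x, (∫⁻ y, h x y) * φ x = ∫⁻ x, ∫⁻ y, h x y * φ x :=
        lintegral_congr fun x => (lintegral_mul_const _ (m1 x)).symm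
    _ = ∫⁻ y, ∫⁻ x, h x y * φ x := lintegral_lintegral_swap m4.aemeasurable
    _ ≤ ∫⁻ y, (∫⁻ x, h x y ^ r) ^ (1 / r) * (∫⁻ x, φ x ^ q) ^ (1 / q) :=
        lintegral_mono fun y =>
          ENNReal.lintegral_mul_le_Lp_mul_Lq volume hrq (m2 y).aemeasurable hφ.aemeasurable
    _ = _ := lintegral_mul_const _ m3

theorem fin {r : ℝ} (hr : 1 < r) (h : ℝ → ℝ → ℝ≥0∞) (hh : Measurable (Function.uncurry h))
    (G : ℝ → ℝ≥0∞) (hG : Measurable G) (hle : ∀ x, G x ≤ ∫⁻ y, h x y)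
    (hf : ∫⁻ x, G x ^ r ≠ ⊤) :
    ∫⁻ x, G x ^ r ≤ (∫⁻ y, (∫⁻ x, h x y ^ r) ^ (1 / r)) ^ r := by
  have r0 : 0 < r := by linarith
  have r1 : 0 < r - 1 := by linarith
  have hrq : r.HolderConjugate (r / (r - 1)) := Real.HolderConjugate.conjExponent hr
  have q0 : 0 ≤ 1 / (r / (r - 1)) := by positivity
  have k := dual hrq h hh (fun x => G x ^ (r - 1)) (hG.pow_const _)
  have e1 : ∀ x, (G x ^ (r - 1)) ^ (r / (r - 1)) = G x ^ r := fun x => by
    rw [← ENNReal.rpow_mul, show (r - 1) * (r / (r - 1)) = r by field_simp]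
  simp only [e1] at k
  have k2 : ∫⁻ x, G x ^ r ≤ ∫⁻ x, (∫⁻ y, h x y) * G x ^ (r - 1) := by
    refine lintegral_mono fun x => ?_
    have : G x ^ r = G x * G x ^ (r - 1) := by
      rw [show G x ^ r = G x ^ (1 + (r - 1)) by congr 1; ring,
        ENNReal.rpow_add_of_nonneg _ _ zero_le_one r1.le, ENNReal.rpow_one]
    rw [this]
    exact mul_le_mul_left (hle x) _
  have k3 := k2.trans k
  generalize (∫⁻ x, G x ^ r) = I at k3 hf ⊢
  generalize (∫⁻ y, (∫⁻ x, h x y ^ r) ^ (1 / r)) = W at k3 ⊢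
  rcases eq_or_ne I 0 with h0 | h0
  · rw [h0]
    exact zero_le
  have e2 : I = I ^ (1 / r) * I ^ (1 / (r / (r - 1))) := by
    rw [← ENNReal.rpow_add_of_nonneg _ _ (by positivity) q0,
      show 1 / r + 1 / (r / (r - 1)) = 1 by field_simp; ring, ENNReal.rpow_one]
  have n0 : I ^ (1 / (r / (r - 1))) ≠ 0 := (ENNReal.rpow_pos (pos_iff_ne_zero.2 h0) hf).ne'
  have n1 : I ^ (1 / (r / (r - 1))) ≠ ⊤ := ENNReal.rpow_ne_top_of_nonneg q0 hf
  have k4 : I ^ (1 / r) ≤ W := (ENNReal.mul_le_mul_iff_left n0 n1).1 (e2.symm.le.trans k3)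
  calc I = (I ^ (1 / r)) ^ r := by
        rw [← ENNReal.rpow_mul, one_div_mul_cancel r0.ne', ENNReal.rpow_one]
    _ ≤ W ^ r := ENNReal.rpow_le_rpow k4 r0.le

noncomputable def cut (H : ℝ → ℝ≥0∞) (n : ℕ) : ℝ → ℝ≥0∞ :=
  (Icc (-(n : ℝ)) n).indicator fun x => min (H x) n

theorem cut_mono (H : ℝ → ℝ≥0∞) (x : ℝ) : Monotone fun n => cut H n x := by
  intro m n hmn
  have c : (m : ℝ) ≤ n := Nat.cast_le.2 hmn
  unfold cut
  by_cases hx : x ∈ Icc (-(m : ℝ)) m
  · have hx' : x ∈ Icc (-(n : ℝ)) n := ⟨by linarith [hx.1], by linarith [hx.2]⟩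
    simp only [indicator_of_mem hx, indicator_of_mem hx']
    exact min_le_min_left _ (Nat.cast_le.2 hmn)
  · simp only [indicator_of_notMem hx]
    exact zero_le

theorem cut_le (H : ℝ → ℝ≥0∞) (n : ℕ) (x : ℝ) : cut H n x ≤ H x :=
  (indicator_le_self _ _ x).trans (min_le_left _ _)

theorem cut_sup (H : ℝ → ℝ≥0∞) (x : ℝ) : H x ≤ ⨆ n, cut H n x := by
  refine le_of_forall_lt_imp_le_of_dense fun c hc => ?_
  obtain ⟨n, hn⟩ := ENNReal.exists_nat_gt hc.ne_top
  obtain ⟨m, hm⟩ := exists_nat_ge |x|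
  refine le_iSup_of_le (max n m) ?_
  have c1 : (m : ℝ) ≤ (max n m : ℕ) := Nat.cast_le.2 (le_max_right _ _)
  have hx : x ∈ Icc (-((max n m : ℕ) : ℝ)) (max n m : ℕ) :=
    ⟨by linarith [neg_abs_le x], by linarith [le_abs_self x]⟩
  unfold cut
  rw [indicator_of_mem hx]
  exact le_min hc.le (hn.le.trans (Nat.cast_le.2 (le_max_left _ _)))

theorem cut_fin (H : ℝ → ℝ≥0∞) (n : ℕ) {r : ℝ} (hr : 0 < r) : ∫⁻ x, cut H n x ^ r ≠ ⊤ := by
  have b : ∀ x, cut H n x ^ r ≤ (Icc (-(n : ℝ)) n).indicator (fun _ => (n : ℝ≥0∞) ^ r) x := by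
    intro x
    unfold cut
    by_cases hx : x ∈ Icc (-(n : ℝ)) n
    · rw [indicator_of_mem hx, indicator_of_mem hx]
      exact ENNReal.rpow_le_rpow (min_le_right _ _) hr.le
    · rw [indicator_of_notMem hx, indicator_of_notMem hx, ENNReal.zero_rpow_of_pos hr]
  refine ne_top_of_le_ne_top ?_ (lintegral_mono b)
  rw [lintegral_indicator_const measurableSet_Icc]
  exact ENNReal.mul_ne_top (ENNReal.rpow_ne_top_of_nonneg hr.le (ENNReal.natCast_ne_top n))
    measure_Icc_lt_top.ne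

end DMink

theorem d_mink : D_mink := by
  intro r h hr hh
  rcases hr.eq_or_lt with rfl | hr
  · simp only [ENNReal.rpow_one, div_one]
    exact (lintegral_lintegral_swap hh.aemeasurable).le
  have r0 : 0 < r := by linarith
  have mH : Measurable (fun x => ∫⁻ y, h x y) := Measurable.lintegral_prod_right' (ν := volume) hh
  have mc : ∀ n, Measurable (DMink.cut (fun x => ∫⁻ y, h x y) n) := fun n =>
    (mH.min measurable_const).indicator measurableSet_Icc
  have s : ∀ x, (∫⁻ y, h x y) ^ r ≤ ⨆ n, DMink.cut (fun x => ∫⁻ y, h x y) n x ^ r := by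
    intro x
    refine (ENNReal.rpow_le_rpow (DMink.cut_sup (fun x => ∫⁻ y, h x y) x) r0.le).trans
      (le_of_eq ?_)
    exact (ENNReal.orderIsoRpow r r0).map_iSup _
  refine (lintegral_mono s).trans ?_
  rw [lintegral_iSup (fun n => (mc n).pow_const r)
    (fun m n hmn x => ENNReal.rpow_le_rpow (DMink.cut_mono _ x hmn) r0.le)]
  exact iSup_le fun n => DMink.fin hr h hh _ (mc n) (DMink.cut_le _ n) (DMink.cut_fin _ n r0)

end Vale.Agent.P122A
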