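import Vale.Agent.P122A.Stm2

/-! Representation of the extension operator as a convolution in the second variable. -/

open MeasureTheory Set FourierTransform
open scoped ENNReal

namespace Vale.Agent.P122A

namespace DRep

theorem ind (χ : ℝ → ℝ) (k : ℝ → ℂ) (x t : ℝ) : E χ ((Icc (0 : ℝ) 1).indicator k) x t =
    ∫ ξ in Icc (0 : ℝ) 1, k ξ * ee (x * ξ + t * χ ξ) := by
  rw [E, ← integral_indicator measurableSet_Icc]
  refine integral_congr_ae (Filter.Eventually.of_forall fun ξ => ?_)
  by_cases h : ξ ∈ Icc (0 : ℝ) 1 <;> simp [h]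

end DRep

open DRep

theorem d_rep : D_rep := by
  intro φ ψ g hφ hψ hg hI
  have ce := cont_ee
  have I : Integrable (Function.uncurry g) ((volume.restrict (Icc (0 : ℝ) 1)).prod volume) := by
    rwa [IntegrableOn, Measure.volume_eq_prod, ← Measure.prod_restrict, Measure.restrict_univ] at hI
  have P : IsProbabilityMeasure (volume.restrict (Icc (0 : ℝ) 1)) := ⟨by simp⟩
  simp only [ind]
  refine ⟨?_, fun x t => ?_, fun z => ?_⟩
  · refine (StronglyMeasurable.integral_prod_right' (ν := volume.restrict (Icc (0 : ℝ) 1))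
      (f := fun q : (ℝ × ℝ × ℝ) × ℝ => g q.2 q.1.2.2 * ee (q.1.1 * q.2 + q.1.2.1 * φ q.2))
      (Measurable.stronglyMeasurable ?_)).measurable
    exact (hg.comp (measurable_snd.prodMk measurable_fst.snd.snd)).mul
      (Continuous.measurable (by fun_prop))
  · exact (I.mul_bdd (c := 1) (g := fun q : ℝ × ℝ => ee (x * q.1 + t * φ q.1))
      (Continuous.aestronglyMeasurable (by fun_prop))
      (.of_forall fun q => (norm_ee _).le)).integral_prod_right
  · have mp : MeasurePreserving (Prod.map Prod.fst id : (ℝ × ℝ) × ℝ → ℝ × ℝ)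
        (((volume.restrict (Icc (0 : ℝ) 1)).prod (volume.restrict (Icc (0 : ℝ) 1))).prod volume)
        ((volume.restrict (Icc (0 : ℝ) 1)).prod volume) :=
      measurePreserving_fst.prod (MeasurePreserving.id _)
    have J := (mp.integrable_comp_of_integrable I).mul_bdd (c := 1)
      (g := fun p : (ℝ × ℝ) × ℝ => ee (p.2 * p.1.2) *
        ee (z.1 * p.1.1 + z.2.1 * p.1.2 + z.2.2 * (φ p.1.1 + ψ p.1.2)))
      (Continuous.aestronglyMeasurable (by fun_prop))
      (.of_forall fun q => by rw [norm_mul, norm_ee, norm_ee, mul_one])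
    have S := integral_integral_swap (f := fun (q : ℝ × ℝ) (y : ℝ) => g q.1 y * (ee (y * q.2) *
        ee (z.1 * q.1 + z.2.1 * q.2 + z.2.2 * (φ q.1 + ψ q.2)))) J
    rw [ext, sq1, Measure.volume_eq_prod, ← Measure.prod_restrict]
    simp only [← integral_mul_const, mul_assoc]
    rw [S]
    refine integral_congr_ae (Filter.Eventually.of_forall fun y => ?_)
    simp only [← mul_assoc, integral_mul_const, kk]
    rw [← integral_prod_mul]
    refine integral_congr_ae (Filter.Eventually.of_forall fun q => ?_)
    simp only [mul_assoc, ← ee_add]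
    congr 2
    ring

end Vale.Agent.P122A
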