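import Vale.Agent.P122A.Stm2

/-! The second derivative test. -/

open MeasureTheory Set FourierTransform
open scoped ENNReal

namespace Vale.Agent.P122A

namespace DSecond

theorem split (g : ℝ → ℝ) (hg : Continuous g) (u v s : ℝ) (huv : u ≤ v)
    (hm : ∀ x ∈ Icc u v, ∀ y ∈ Icc u v, x ≤ y → g x ≤ g y) :
    ∃ a ∈ Icc u v, (a = u ∨ ∀ x ∈ Icc u a, g x ≤ s) ∧ (a = v ∨ ∀ x ∈ Icc a v, s ≤ g x) := by
  have hu : u ∈ Icc u v := left_mem_Icc.2 huv
  have hv : v ∈ Icc u v := right_mem_Icc.2 huv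
  by_cases h1 : s ≤ g u
  · exact ⟨u, hu, Or.inl rfl, Or.inr fun x hx => h1.trans (hm u hu x hx hx.1)⟩
  by_cases h2 : g v ≤ s
  · exact ⟨v, hv, Or.inr fun x hx => (hm x hx v hv hx.2).trans h2, Or.inl rfl⟩
  obtain ⟨a, ha, e⟩ := intermediate_value_Icc huv hg.continuousOn
    (show s ∈ Icc (g u) (g v) from ⟨(not_le.1 h1).le, (not_le.1 h2).le⟩)
  exact ⟨a, ha, Or.inr fun x hx => e ▸ hm x ⟨hx.1, hx.2.trans ha.2⟩ a ha hx.2,
    Or.inr fun x hx => e ▸ hm a ha x ⟨ha.1.trans hx.1, hx.2⟩ hx.1⟩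

end DSecond

theorem d_second : D_first → D_second := by
  intro hF θ θ' θ'' κ hκ h1 h2 hc hk
  have hl : 0 < Real.sqrt κ := Real.sqrt_pos.2 hκ
  have hll : Real.sqrt κ * Real.sqrt κ = κ := Real.mul_self_sqrt hκ.le
  generalize Real.sqrt κ = l at hl hll
  have d1 : Differentiable ℝ θ := fun x => (h1 x).differentiableAt
  have d2 : Differentiable ℝ θ' := fun x => (h2 x).differentiableAt
  have hs : ∀ x ∈ Icc (0 : ℝ) 1, ∀ y ∈ Icc (0 : ℝ) 1, x ≤ y → κ * (y - x) ≤ θ' y - θ' x :=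
    (convex_Icc (0 : ℝ) 1).mul_sub_le_image_sub_of_le_deriv d2.continuous.continuousOn
      d2.differentiableOn fun x hx => by
        rw [(h2 x).deriv]
        exact hk x (interior_subset hx)
  have hm : ∀ x ∈ Icc (0 : ℝ) 1, ∀ y ∈ Icc (0 : ℝ) 1, x ≤ y → θ' x ≤ θ' y := fun x hx y hy h => by
    have h3 := hs x hx y hy h
    have h4 : 0 ≤ κ * (y - x) := mul_nonneg hκ.le (sub_nonneg.2 h)
    linarith
  obtain ⟨a, ha, a1, a2⟩ := DSecond.split θ' d2.continuous 0 1 (-l) zero_le_one hm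
  obtain ⟨b, hb, b1, b2⟩ := DSecond.split θ' d2.continuous a 1 l ha.2 fun x hx y hy h =>
    hm x ⟨ha.1.trans hx.1, hx.2⟩ y ⟨ha.1.trans hy.1, hy.2⟩ h
  have hb0 : 0 ≤ b := ha.1.trans hb.1
  have hi : ∀ u v : ℝ, IntervalIntegrable (fun x => ee (θ x)) volume u v := fun u v =>
    (cont_ee.comp d1.continuous).intervalIntegrable u v
  have hl1 : 0 ≤ 1 / l := by positivity
  have n1 : ‖∫ x in (0 : ℝ)..a, ee (θ x)‖ ≤ 1 / l := by
    rcases a1 with rfl | a1
    · rw [intervalIntegral.integral_same, norm_zero]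
      exact hl1
    · refine hF θ θ' θ'' 0 a l ha.1 hl h1 h2 hc
        (fun x hx => hκ.le.trans (hk x ⟨hx.1, hx.2.trans ha.2⟩)) fun x hx => ?_
      have h3 := a1 x hx
      have h4 := neg_le_abs (θ' x)
      linarith
  have n3 : ‖∫ x in b..1, ee (θ x)‖ ≤ 1 / l := by
    rcases b2 with rfl | b2
    · rw [intervalIntegral.integral_same, norm_zero]
      exact hl1
    · exact hF θ θ' θ'' b 1 l hb.2 hl h1 h2 hc
        (fun x hx => hκ.le.trans (hk x ⟨hb0.trans hx.1, hx.2⟩))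
        fun x hx => (b2 x hx).trans (le_abs_self _)
  have hab : b - a ≤ 2 / l := by
    have h0 : 0 ≤ 2 / l := by positivity
    rcases b1 with b1 | b1
    · linarith
    rcases a2 with a2 | a2
    · linarith [hb.2]
    have h3 := hs a ha b ⟨hb0, hb.2⟩ hb.1
    have h4 := b1 b (right_mem_Icc.2 hb.1)
    have h5 := a2 a (left_mem_Icc.2 ha.2)
    rw [le_div_iff₀ hl]
    refine le_of_mul_le_mul_right ?_ hl
    nlinarith
  have n2 : ‖∫ x in a..b, ee (θ x)‖ ≤ 2 / l := by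
    have h3 := intervalIntegral.norm_integral_le_of_norm_le_const (a := a) (b := b) (C := 1)
      (f := fun x => ee (θ x)) fun x _ => (norm_ee _).le
    rw [one_mul, abs_of_nonneg (sub_nonneg.2 hb.1)] at h3
    exact h3.trans hab
  rw [← intervalIntegral.integral_add_adjacent_intervals (hi 0 a) (hi a 1),
    ← intervalIntegral.integral_add_adjacent_intervals (hi a b) (hi b 1)]
  have e : 4 / l = 1 / l + (2 / l + 1 / l) := by ring
  rw [e]
  exact (norm_add_le _ _).trans (add_le_add n1 ((norm_add_le _ _).trans (add_le_add n2 n3)))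

end Vale.Agent.P122A
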