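import Vale.Agent.P122A.Stm2

/-! Decay of the kernel. -/

open MeasureTheory Set FourierTransform
open scoped ENNReal

namespace Vale.Agent.P122A

namespace DVdc

theorem ee_neg (s : ℝ) : ee (-s) = (starRingEnd ℂ) (ee s) := by
  have h : ∀ r : ℝ, (2 * Real.pi * Complex.I * r : ℂ) =
      ((2 * Real.pi * r : ℝ) : ℂ) * Complex.I := by
    intro r
    push_cast
    ring
  rw [ee, ee, h, h, ← Complex.exp_conj, map_mul, Complex.conj_ofReal, Complex.conj_I]
  push_cast
  ring_nf

theorem kk_neg (ψ : ℝ → ℝ) (x t : ℝ) : ‖kk ψ (-x) (-t)‖ = ‖kk ψ x t‖ := by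
  have e : ∀ η, ee (-x * η + -t * ψ η) = (starRingEnd ℂ) (ee (x * η + t * ψ η)) := by
    intro η
    rw [← ee_neg]
    ring_nf
  unfold kk
  simp only [e]
  rw [integral_conj, Complex.norm_conj]

theorem kk_one (ψ : ℝ → ℝ) (x t : ℝ) : ‖kk ψ x t‖ ≤ 1 := by
  have h := norm_setIntegral_le_of_norm_le_const (μ := volume) (s := Icc (0 : ℝ) 1)
    (f := fun η => ee (x * η + t * ψ η)) (C := 1) measure_Icc_lt_top
    fun η _ => (norm_ee _).le
  simpa [kk] using h

theorem kk_osc (h : D_second) {ψ : ℝ → ℝ} (hψ : ContDiff ℝ 2 ψ) (x t κ : ℝ) (hκ : 0 < κ)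
    (hb : ∀ η ∈ Icc (0 : ℝ) 1, κ ≤ t * deriv (deriv ψ) η) : ‖kk ψ x t‖ ≤ 4 / Real.sqrt κ := by
  have h2 : ContDiff ℝ (1 + 1) ψ := by
    rw [one_add_one_eq_two]
    exact hψ
  have h3 := contDiff_succ_iff_deriv.1 h2
  have h4 := contDiff_one_iff_deriv.1 h3.2.2
  have k := h (fun η => x * η + t * ψ η) (fun η => x + t * deriv ψ η)
    (fun η => t * deriv (deriv ψ) η) κ hκ
    (fun η => by
      have a := ((hasDerivAt_id η).const_mul x).add ((h3.1 η).hasDerivAt.const_mul t)
      rw [mul_one] at a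
      exact a)
    (fun η => ((h4.1 η).hasDerivAt.const_mul t).const_add x)
    (continuous_const.mul h4.2) hb
  rw [intervalIntegral.integral_of_le zero_le_one, ← integral_Icc_eq_integral_Ioc] at k
  exact k

end DVdc

theorem d_vdc : D_second → D_vdc := by
  intro h c ψ hc hψ
  have sc : 0 < Real.sqrt c := Real.sqrt_pos.2 hc
  have h8 : 0 < 8 / Real.sqrt c := by positivity
  refine ⟨2 + 8 / Real.sqrt c, by linarith, fun x t => ?_⟩
  have t0 := abs_nonneg t
  have s0 : 0 < Real.sqrt (1 + |t|) := Real.sqrt_pos.2 (by linarith)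
  rw [Real.rpow_neg (by linarith), ← Real.sqrt_eq_rpow, ← div_eq_mul_inv, le_div_iff₀ s0]
  have n0 := norm_nonneg (kk ψ x t)
  rcases le_total |t| 1 with ht | ht
  · have a1 : Real.sqrt (1 + |t|) ≤ 2 := Real.sqrt_le_iff.2 ⟨by norm_num, by linarith⟩
    have a2 := mul_le_mul (DVdc.kk_one ψ x t) a1 s0.le zero_le_one
    linarith
  · have k0 : 0 < c * |t| := mul_pos hc (by linarith)
    have a1 : ‖kk ψ x t‖ ≤ 4 / Real.sqrt (c * |t|) := by
      rcases le_total 0 t with h0 | h0
      · rcases hψ.2 with h1 | h1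
        · refine DVdc.kk_osc h hψ.1 x t _ k0 fun η hη => ?_
          rw [abs_of_nonneg h0, mul_comm]
          exact mul_le_mul_of_nonneg_left (h1 η hη) h0
        · rw [← DVdc.kk_neg]
          refine DVdc.kk_osc h hψ.1 _ _ _ k0 fun η hη => ?_
          rw [abs_of_nonneg h0]
          have := mul_le_mul_of_nonneg_left (h1 η hη) h0
          linarith
      · have h0' : 0 ≤ -t := by linarith
        rcases hψ.2 with h1 | h1
        · rw [← DVdc.kk_neg]
          refine DVdc.kk_osc h hψ.1 _ _ _ k0 fun η hη => ?_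
          rw [abs_of_nonpos h0, mul_comm]
          exact mul_le_mul_of_nonneg_left (h1 η hη) h0'
        · refine DVdc.kk_osc h hψ.1 x t _ k0 fun η hη => ?_
          rw [abs_of_nonpos h0]
          have := mul_le_mul_of_nonneg_left (h1 η hη) h0'
          linarith
    have st : 0 < Real.sqrt |t| := Real.sqrt_pos.2 (by linarith)
    have a2 : Real.sqrt (1 + |t|) ≤ 2 * Real.sqrt |t| := by
      refine Real.sqrt_le_iff.2 ⟨by positivity, ?_⟩
      rw [mul_pow, Real.sq_sqrt t0]
      linarith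
    rw [Real.sqrt_mul hc.le] at a1
    have a3 := mul_le_mul a1 a2 s0.le (by positivity)
    have a4 : 4 / (Real.sqrt c * Real.sqrt |t|) * (2 * Real.sqrt |t|) = 8 / Real.sqrt c := by
      field_simp
      norm_num
    linarith

end Vale.Agent.P122A
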