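import Vale.Agent.P122A.Stm2

/-! Integrability of the time weight. -/

open MeasureTheory Set FourierTransform
open scoped ENNReal

namespace Vale.Agent.P122A

namespace DWt

theorem pt (p C t : ℝ) (hC : 0 < C) :
    (ENNReal.ofReal (C * (1 + |t|) ^ (-(1 / 2 : ℝ))) ^ (p - 2)) ^ 2 =
      ENNReal.ofReal ((C ^ (p - 2)) ^ 2 * (1 + ‖t‖) ^ (-(p - 2))) := by
  have h1 : 0 < 1 + |t| := by positivity
  have h2 : 0 < (1 + |t|) ^ (-(1 / 2 : ℝ)) := Real.rpow_pos_of_pos h1 _
  have h3 : 0 < C * (1 + |t|) ^ (-(1 / 2 : ℝ)) := mul_pos hC h2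
  rw [ENNReal.ofReal_rpow_of_pos h3, ← ENNReal.ofReal_pow (Real.rpow_nonneg h3.le _),
    Real.mul_rpow hC.le h2.le, mul_pow, ← Real.rpow_mul h1.le, ← Real.rpow_natCast ((1 + |t|) ^ _),
    ← Real.rpow_mul h1.le, Real.norm_eq_abs]
  have h4 : -(1 / 2 : ℝ) * (p - 2) * ((2 : ℕ) : ℝ) = -(p - 2) := by
    push_cast
    ring
  rw [h4]

end DWt

theorem d_wt : D_wt := by
  intro p C hp hC
  refine ⟨?_, ?_⟩
  · refine Measurable.pow_const (ENNReal.measurable_ofReal.comp ?_) _
    exact measurable_const.mul ((measurable_const.add continuous_abs.measurable).pow_const _)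
  · have h1 : Integrable (fun t : ℝ => (1 + ‖t‖) ^ (-(p - 2))) := by
      refine integrable_one_add_norm ?_
      rw [Module.finrank_self]
      push_cast
      linarith
    have h2 := (h1.const_mul ((C ^ (p - 2)) ^ 2)).lintegral_lt_top
    simp only [DWt.pt p C _ hC]
    exact h2.ne

end Vale.Agent.P122A
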