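import Vale.Agent.P122A.Stm

/-! Decomposition of a function by the size of its values. -/

open MeasureTheory Set FourierTransform
open scoped ENNReal

namespace Vale.Agent.P122A

namespace Dec

theorem integ {p : ℝ} {f : ℝ → ℂ} (hp : 1 ≤ p) (hf : Measurable f)
    (h0 : ∀ ξ, ξ ∉ Icc (0 : ℝ) 1 → f ξ = 0) (h1 : ∫⁻ ξ, ‖f ξ‖ₑ ^ p ≤ 1) : Integrable f := by
  refine ⟨hf.aestronglyMeasurable, ?_⟩
  have b : ∀ ξ, ‖f ξ‖ₑ ≤ (Icc (0 : ℝ) 1).indicator 1 ξ + ‖f ξ‖ₑ ^ p := fun ξ => by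
    by_cases h : ξ ∈ Icc (0 : ℝ) 1
    · rw [indicator_of_mem h, Pi.one_apply]
      rcases le_total ‖f ξ‖ₑ 1 with k | k
      · exact k.trans le_self_add
      · refine le_trans ?_ le_add_self
        simpa using ENNReal.rpow_le_rpow_of_exponent_le k hp
    · simp [h0 ξ h]
  refine (lintegral_mono b).trans_lt ?_
  rw [lintegral_add_left (measurable_one.indicator measurableSet_Icc),
    lintegral_indicator_one measurableSet_Icc]
  exact ENNReal.add_lt_top.2 ⟨measure_Icc_lt_top, h1.trans_lt ENNReal.one_lt_top⟩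

theorem cheb {p : ℝ} {f : ℝ → ℂ} (hp : 1 ≤ p) (hf : Measurable f)
    (h1 : ∫⁻ ξ, ‖f ξ‖ₑ ^ p ≤ 1) (j : ℕ) :
    volume {ξ | (2 : ℝ) ^ j ≤ ‖f ξ‖} ≤ (2 : ℝ≥0∞) ^ (p * (1 - ((j + 1 : ℕ) : ℝ))) := by
  have h := (mul_meas_ge_le_lintegral₀ (μ := volume) (hf.enorm.pow_const p).aemeasurable
    ((2 : ℝ≥0∞) ^ ((j : ℝ) * p))).trans h1
  have s : {ξ | (2 : ℝ) ^ j ≤ ‖f ξ‖} ⊆ {ξ | (2 : ℝ≥0∞) ^ ((j : ℝ) * p) ≤ ‖f ξ‖ₑ ^ p} := by
    intro ξ hξ
    simp only [mem_setOf_eq] at hξ ⊢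
    rw [ENNReal.rpow_mul, ENNReal.rpow_natCast]
    refine ENNReal.rpow_le_rpow ?_ (by linarith)
    rw [← ofReal_norm_eq_enorm]
    refine le_trans (le_of_eq ?_) (ENNReal.ofReal_le_ofReal hξ)
    rw [ENNReal.ofReal_pow zero_le_two, ENNReal.ofReal_ofNat]
  refine (measure_mono s).trans ?_
  have e : p * (1 - ((j + 1 : ℕ) : ℝ)) = -((j : ℝ) * p) := by push_cast; ring
  rw [e, ENNReal.rpow_neg]
  exact ENNReal.le_inv_iff_mul_le.2 (by rwa [mul_comm])

end Dec

theorem r_dec : R_dec := by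
  intro p f hp hf h0 h1
  set B : ℕ → Set ℝ := fun j => Icc (0 : ℝ) 1 ∩ {ξ | ‖f ξ‖ ≤ 2 ^ j} with hB
  have mB : ∀ j, MeasurableSet (B j) := fun j =>
    measurableSet_Icc.inter (measurableSet_le hf.norm measurable_const)
  have mono : Monotone B := fun i j hij ξ hξ =>
    ⟨hξ.1, le_trans (show ‖f ξ‖ ≤ (2 : ℝ) ^ i from hξ.2)
      (show (2 : ℝ) ^ i ≤ 2 ^ j from pow_le_pow_right₀ one_le_two hij)⟩
  have mA : ∀ j, MeasurableSet (disjointed B j) := fun j => MeasurableSet.disjointed mB j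
  have hU : ⋃ j, disjointed B j = Icc (0 : ℝ) 1 := by
    rw [iUnion_disjointed]
    refine Subset.antisymm (iUnion_subset fun j => inter_subset_left) fun ξ hξ => ?_
    obtain ⟨j, hj⟩ := pow_unbounded_of_one_lt ‖f ξ‖ (one_lt_two (α := ℝ))
    exact mem_iUnion.2 ⟨j, hξ, hj.le⟩
  refine ⟨disjointed B, fun j => (disjointed B j).indicator fun ξ => f ξ / 2 ^ j, fun j => ?_,
    fun j => ?_, fun φ x t hφ => ?_⟩
  · refine ⟨mA j, fun ξ hξ => (disjointed_subset B j hξ).1, (hf.div_const _).indicator (mA j),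
      fun ξ => ?_, fun ξ hξ => indicator_of_notMem hξ _⟩
    beta_reduce
    by_cases h : ξ ∈ disjointed B j
    · rw [indicator_of_mem h, norm_div, norm_pow, Complex.norm_ofNat, div_le_one (by positivity)]
      exact (disjointed_subset B j h).2
    · rw [indicator_of_notMem h, norm_zero]
      exact zero_le_one
  · cases j with
    | zero =>
      refine (measure_mono fun ξ hξ => (disjointed_subset B 0 hξ).1).trans ?_
      rw [Real.volume_Icc, sub_zero, ENNReal.ofReal_one]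
      exact ENNReal.one_le_rpow (by norm_num) (by simp; linarith)
    | succ j =>
      refine le_trans (measure_mono fun ξ hξ => ?_) (Dec.cheb hp hf h1 j)
      rw [mono.disjointed_add_one] at hξ
      exact le_of_not_ge fun k : ‖f ξ‖ ≤ (2 : ℝ) ^ j => hξ.2 ⟨hξ.1.1, k⟩
  · have hc : Continuous fun ξ => ee (x * ξ + t * φ ξ) := by
      have := hφ.continuous
      exact cont_ee.comp (by fun_prop)
    have hI : Integrable fun ξ => f ξ * ee (x * ξ + t * φ ξ) :=
      (Dec.integ hp hf h0 h1).mul_bdd hc.aestronglyMeasurable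
        (Filter.Eventually.of_forall fun ξ => (norm_ee _).le)
    have hs := hasSum_integral_iUnion (μ := volume) mA (disjoint_disjointed B) hI.integrableOn
    rw [hU, setIntegral_eq_integral_of_forall_compl_eq_zero
      (fun ξ hξ => by rw [h0 ξ hξ, zero_mul])] at hs
    unfold E
    rw [← hs.tsum_eq]
    refine enorm_tsum_le_tsum_enorm.trans (ENNReal.tsum_le_tsum fun j => le_of_eq ?_)
    have e : ∫ ξ in disjointed B j, f ξ * ee (x * ξ + t * φ ξ) = (2 : ℂ) ^ j *
        ∫ ξ, (disjointed B j).indicator (fun ξ => f ξ / 2 ^ j) ξ * ee (x * ξ + t * φ ξ) := by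
      rw [← integral_const_mul, ← integral_indicator (mA j)]
      congr 1
      funext ξ
      by_cases h : ξ ∈ disjointed B j
      · rw [indicator_of_mem h, indicator_of_mem h]
        field_simp
      · rw [indicator_of_notMem h, indicator_of_notMem h, zero_mul, mul_zero]
    rw [e, enorm_mul, enorm_pow]
    congr 2
    rw [← ofReal_norm_eq_enorm, Complex.norm_ofNat, ENNReal.ofReal_ofNat]

end Vale.Agent.P122A
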