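import Mathlib

/-! Translation surfaces and their extension operators. -/

open MeasureTheory

namespace Vale.Agent.P122A

/-- The character `exp (2 pi i s)`. -/
noncomputable def ee (s : ℝ) : ℂ := Complex.exp (2 * Real.pi * Complex.I * s)

/-- Differentiable, and strongly convex with modulus `c` on the unit interval. -/
def Cv (c : ℝ) (φ : ℝ → ℝ) : Prop :=
  Differentiable ℝ φ ∧ ∀ x ∈ Set.Icc (0 : ℝ) 1, ∀ y ∈ Set.Icc (0 : ℝ) 1, x ≤ y →
    c * (y - x) ≤ deriv φ y - deriv φ x

end Vale.Agent.P122A
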