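import Vale.Agent.P122A.Defs

/-! The extension operator of a translation surface over the unit square. -/

open MeasureTheory

namespace Vale.Agent.P122A

/-- The closed unit square. -/
def sq1 : Set (ℝ × ℝ) := Set.Icc (0 : ℝ) 1 ×ˢ Set.Icc (0 : ℝ) 1

/-- Extension operator of the graph of `φ q.1 + ψ q.2`, with respect to the measure `dq`. -/
noncomputable def ext (φ ψ : ℝ → ℝ) (F : ℝ × ℝ → ℂ) (z : ℝ × ℝ × ℝ) : ℂ :=
  ∫ q in sq1, F q * ee (z.1 * q.1 + z.2.1 * q.2 + z.2.2 * (φ q.1 + ψ q.2))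

/-- Density of the induced surface measure in the graph coordinates. -/
noncomputable def jac (φ ψ : ℝ → ℝ) (q : ℝ × ℝ) : ℝ :=
  Real.sqrt (1 + deriv φ q.1 ^ 2 + deriv ψ q.2 ^ 2)

end Vale.Agent.P122A
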