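import Vale.Agent.P122A.Defs

/-! Profiles with curvature of one sign. -/

namespace Vale.Agent.P122A

/-- Strongly convex or strongly concave with modulus `c` on the unit interval. -/
def Cu (c : ℝ) (φ : ℝ → ℝ) : Prop := Cv c φ ∨ Cv c (fun x => -φ x)

end Vale.Agent.P122A
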