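import Vale.Agent.P122A.Defs

/-! Twice continuously differentiable profiles with nonvanishing curvature. -/

namespace Vale.Agent.P122A

/-- `C²`, with second derivative at least `c` or at most `-c` on the unit interval. -/
def C2 (c : ℝ) (ψ : ℝ → ℝ) : Prop :=
  ContDiff ℝ 2 ψ ∧ ((∀ x ∈ Set.Icc (0 : ℝ) 1, c ≤ deriv (deriv ψ) x) ∨
    ∀ x ∈ Set.Icc (0 : ℝ) 1, deriv (deriv ψ) x ≤ -c)

end Vale.Agent.P122A
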