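import Vale.Agent.P122A.Stm

/-! The distribution function of the extension of a restricted input. -/

open MeasureTheory Set FourierTransform
open scoped ENNReal

namespace Vale.Agent.P122A

namespace Dist

theorem alg {c ε l m : ℝ} (hc : 0 < c) (hε : 0 < ε) (hl : 0 < l) (hm : 0 < m) :
    (l / (4 * m)) ^ (-ε) / (c * ε) * m / (l / 4) ^ 2 =
      16 * 4 ^ ε / (c * ε) * m ^ (1 + ε) * l ^ (-(2 + ε)) := by
  have h1 : 0 < l ^ ε := Real.rpow_pos_of_pos hl ε
  have h2 : 0 < m ^ ε := Real.rpow_pos_of_pos hm ε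
  have h3 : 0 < (4 : ℝ) ^ ε := Real.rpow_pos_of_pos (by norm_num) ε
  rw [Real.rpow_neg (by positivity), Real.div_rpow hl.le (by positivity),
    Real.mul_rpow (by norm_num) hm.le, Real.rpow_neg hl.le, Real.rpow_add hm, Real.rpow_add hl,
    Real.rpow_one, Real.rpow_two]
  field_simp
  ring

end Dist

theorem r_dist : R_meas → R_g2 → R_near → R_l2 → R_dist := by
  intro hm hg hn hl c ε l φ A f hc hε l0 hφ hA
  have h1 := (hl φ A f 0 hφ.1 hA).1
  have ht : volume A ≠ ⊤ := ne_top_of_le_ne_top ENNReal.one_ne_top h1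
  rcases (ENNReal.toReal_nonneg (a := volume A)).eq_or_lt with m0 | m0
  · have : {z : ℝ × ℝ | l < ‖E φ f z.1 z.2‖ ^ 2} = ∅ := by
      refine eq_empty_of_forall_notMem fun z hz => ?_
      have h2 := (hl φ A f z.2 hφ.1 hA).2.1 z.1
      have h3 : l < ‖E φ f z.1 z.2‖ ^ 2 := hz
      rw [le_antisymm (h2.trans m0.ge) (norm_nonneg _)] at h3
      linarith [zero_pow (M₀ := ℝ) two_ne_zero]
    rw [this, measure_empty]
    exact zero_le
  have d0 : 0 < l / (4 * (volume A).toReal) := by positivity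
  have hs : {z : ℝ × ℝ | l < ‖E φ f z.1 z.2‖ ^ 2} ⊆ {z : ℝ × ℝ | ENNReal.ofReal ((l / 4) ^ 2) ≤
      ‖G φ f (l / (4 * (volume A).toReal)) z.1 z.2‖ₑ ^ 2} := by
    intro z hz
    have h3 : l < ‖E φ f z.1 z.2‖ ^ 2 := hz
    have h4 := hn _ φ A f z.1 z.2 d0 hφ.1 hA
    have e : 2 * (l / (4 * (volume A).toReal)) * (volume A).toReal = l / 2 := by
      field_simp
      ring
    have h5 := norm_le_norm_sub_add (E φ f z.1 z.2 ^ 2)
      (2 * G φ f (l / (4 * (volume A).toReal)) z.1 z.2)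
    rw [norm_pow, norm_mul, Complex.norm_ofNat] at h5
    rw [mem_setOf_eq, ← ofReal_norm_eq_enorm, ← ENNReal.ofReal_pow (norm_nonneg _)]
    exact ENNReal.ofReal_le_ofReal (pow_le_pow_left₀ (by positivity) (by linarith) 2)
  have q0 : 0 < (l / 4) ^ 2 := by positivity
  refine (measure_mono hs).trans ((meas_ge_le_lintegral_div
    ((hm φ f _ hφ.1 hA.2.2.1).2.1.enorm.pow_const 2).aemeasurable
    (ENNReal.ofReal_pos.2 q0).ne' ENNReal.ofReal_ne_top).trans ?_)
  refine (ENNReal.div_le_div_right (hg c _ ε φ A f hc d0 hε hφ hA) _).trans (le_of_eq ?_)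
  rw [← Dist.alg hc hε l0 m0, ENNReal.ofReal_div_of_pos q0, ENNReal.ofReal_mul (by positivity),
    ENNReal.ofReal_toReal ht]

end Vale.Agent.P122A
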