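import Vale.Agent.P122A.Stm

/-! The square integral of the off-diagonal part. -/

open MeasureTheory Set FourierTransform
open scoped ENNReal

namespace Vale.Agent.P122A

theorem r_g2 : R_rep → R_meas → R_kt → R_log → R_g2 := by
  intro hrep hmeas hkt hlog c δ ε φ A f hc hδ hε hφ hA
  obtain ⟨-, hG, hK⟩ := hmeas φ f δ hφ.1 hA.2.2.1
  have mG : Measurable fun z : ℝ × ℝ => ‖G φ f δ z.1 z.2‖ₑ ^ 2 := hG.enorm.pow_const 2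
  have mK : Measurable fun z : ℝ × ℝ => ‖K φ f δ z.1 z.2‖ₑ ^ 2 := hK.enorm.pow_const 2
  have h1 : ∀ t : ℝ, ∫⁻ x, ‖G φ f δ x t‖ₑ ^ 2 ≤ ∫⁻ u, ‖K φ f δ u t‖ₑ ^ 2 := by
    intro t
    obtain ⟨hi, he⟩ := hrep φ A f δ t hφ.1 hA
    simp_rw [he]
    exact bes _ hi
  calc ∫⁻ z : ℝ × ℝ, ‖G φ f δ z.1 z.2‖ₑ ^ 2
      = ∫⁻ t, ∫⁻ x, ‖G φ f δ x t‖ₑ ^ 2 := by
        rw [Measure.volume_eq_prod, lintegral_prod_symm _ mG.aemeasurable]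
    _ ≤ ∫⁻ t, ∫⁻ u, ‖K φ f δ u t‖ₑ ^ 2 := lintegral_mono h1
    _ = ∫⁻ u, ∫⁻ t, ‖K φ f δ u t‖ₑ ^ 2 :=
        (lintegral_lintegral_swap (f := fun u t => ‖K φ f δ u t‖ₑ ^ 2) mK.aemeasurable).symm
    _ ≤ ∫⁻ u, ∫⁻ ξ, wgt c δ A u ξ := lintegral_mono fun u => hkt c δ φ A f u hc hδ hφ hA
    _ ≤ _ := hlog c δ ε A hc hδ hε hA.1 hA.2.1

end Vale.Agent.P122A
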