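import Vale.Agent.P122A.Stm

open MeasureTheory Set FourierTransform
open scoped ENNReal

namespace Vale.Agent.P122A

theorem r_hol : R_hol := by
  intro p a w hp hw
  rcases hp.eq_or_lt with h1 | h1
  · subst h1
    simp
  · have hp0 : 0 < p := by linarith
    have hp1 : 0 < p - 1 := by linarith
    have hpq : p.HolderConjugate (p / (p - 1)) :=
      (Real.holderConjugate_iff_eq_conjExponent h1).2 rfl
    have hH := ENNReal.lintegral_mul_le_Lp_mul_Lq (Measure.count : Measure ℕ) hpq
      (f := fun j => w j ^ ((1 - p) / p) * a j) (g := fun j => w j ^ ((p - 1) / p))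
      (measurable_from_top).aemeasurable (measurable_from_top).aemeasurable
    rw [lintegral_count, lintegral_count, lintegral_count] at hH
    have e1 : ∀ j, ((fun j => w j ^ ((1 - p) / p) * a j) * fun j => w j ^ ((p - 1) / p)) j
        = a j := by
      intro j
      have e : (1 - p) / p + (p - 1) / p = 0 := by ring
      rw [Pi.mul_apply, mul_right_comm, ← ENNReal.rpow_add _ _ (hw j).1 (hw j).2, e,
        ENNReal.rpow_zero, one_mul]
    have e2 : ∀ j, (w j ^ ((1 - p) / p) * a j) ^ p = w j ^ (1 - p) * a j ^ p := by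
      intro j
      rw [ENNReal.mul_rpow_of_nonneg _ _ hp0.le, ← ENNReal.rpow_mul, div_mul_cancel₀ _ hp0.ne']
    have e3 : ∀ j, (w j ^ ((p - 1) / p)) ^ (p / (p - 1)) = w j := by
      intro j
      have e : (p - 1) / p * (p / (p - 1)) = 1 := by field_simp
      rw [← ENNReal.rpow_mul, e, ENNReal.rpow_one]
    simp only [e1, e2, e3] at hH
    refine (ENNReal.rpow_le_rpow hH hp0.le).trans (le_of_eq ?_)
    have e4 : 1 / p * p = 1 := by field_simp
    have e5 : 1 / (p / (p - 1)) * p = p - 1 := by field_simp
    rw [ENNReal.mul_rpow_of_nonneg _ _ hp0.le, ← ENNReal.rpow_mul, ← ENNReal.rpow_mul, e4, e5,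
      ENNReal.rpow_one, mul_comm]

end Vale.Agent.P122A
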