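import Vale.Agent.P122A.Stm

open MeasureTheory Set FourierTransform
open scoped ENNReal

namespace Vale.Agent.P122A

namespace Kt

theorem der {φ : ℝ → ℝ} (h : Differentiable ℝ φ) (u x : ℝ) :
    HasDerivAt (fun ξ => φ ξ + φ (u - ξ)) (deriv φ x - deriv φ (u - x)) x := by
  have h1 := (h x).hasDerivAt
  have h2 := (h (u - x)).hasDerivAt.comp x ((hasDerivAt_id x).const_sub u)
  refine (h1.add h2).congr_deriv ?_
  ring

end Kt

theorem r_kt : R_osc → R_kt := by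
  intro ho c δ φ A f u hc hδ hφ hf
  obtain ⟨hA, hA1, hm, hb, h0⟩ := hf
  have hsub : Measurable fun ξ : ℝ => u - ξ := measurable_const.sub measurable_id
  have hT : MeasurableSet {ξ : ℝ | δ < 2 * ξ - u} :=
    measurableSet_lt measurable_const (by fun_prop)
  have hS : MeasurableSet {ξ : ℝ | ξ ∈ A ∧ u - ξ ∈ A ∧ δ < 2 * ξ - u} :=
    hA.inter ((hsub hA).inter hT)
  have hv : ∀ x : ℝ, x ∈ Icc (0 : ℝ) 1 → u - x ∈ Icc (0 : ℝ) 1 → δ < 2 * x - u →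
      c * (2 * x - u) ≤ deriv φ x - deriv φ (u - x) ∧ 0 < c * (2 * x - u) := by
    intro x h1 h2 h3
    have h4 := hφ.2 (u - x) h2 x h1 (by linarith)
    exact ⟨by linarith, mul_pos hc (by linarith)⟩
  have hD : Convex ℝ {ξ : ℝ | ξ ∈ Icc (0 : ℝ) 1 ∧ u - ξ ∈ Icc (0 : ℝ) 1 ∧ δ < 2 * ξ - u} := by
    refine Set.OrdConnected.convex ⟨fun x hx y hy z hz => ⟨⟨?_, ?_⟩, ⟨?_, ?_⟩, ?_⟩⟩
    · linarith [hx.1.1, hz.1]
    · linarith [hy.1.2, hz.2]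
    · linarith [hy.2.1.1, hz.2]
    · linarith [hx.2.1.2, hz.1]
    · linarith [hx.2.2, hz.1]
  have hmono := strictMonoOn_of_deriv_pos hD (f := fun ξ => φ ξ + φ (u - ξ))
    (fun x _ => (Kt.der hφ.1 u x).continuousAt.continuousWithinAt) fun x hx => by
      obtain ⟨h1, h2, h3⟩ := interior_subset hx
      rw [(Kt.der hφ.1 u x).deriv]
      linarith [(hv x h1 h2 h3).1, (hv x h1 h2 h3).2]
  have hn : ∀ ξ, ‖f ξ * f (u - ξ)‖ ≤ 1 := fun ξ => by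
    rw [norm_mul]
    exact mul_le_one₀ (hb _) (norm_nonneg _) (hb _)
  have hint : IntegrableOn (fun ξ => f ξ * f (u - ξ))
      {ξ : ℝ | ξ ∈ A ∧ u - ξ ∈ A ∧ δ < 2 * ξ - u} := by
    refine Measure.integrableOn_of_bounded (M := 1) ?_ (hm.mul (hm.comp hsub)).aestronglyMeasurable
      (Filter.Eventually.of_forall hn)
    exact ((measure_mono fun ξ hξ => hA1 hξ.1).trans_lt measure_Icc_lt_top).ne
  have hSD : {ξ : ℝ | ξ ∈ A ∧ u - ξ ∈ A ∧ δ < 2 * ξ - u} ⊆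
      {ξ : ℝ | ξ ∈ Icc (0 : ℝ) 1 ∧ u - ξ ∈ Icc (0 : ℝ) 1 ∧ δ < 2 * ξ - u} :=
    fun ξ hξ => ⟨hA1 hξ.1, hA1 hξ.2.1, hξ.2.2⟩
  have key := ho _ (fun ξ => φ ξ + φ (u - ξ)) (fun x => deriv φ x - deriv φ (u - x))
    (fun ξ => f ξ * f (u - ξ)) hS (fun x _ => (Kt.der hφ.1 u x).hasDerivWithinAt)
    (hmono.injOn.mono hSD)
    (fun x hx => by
      have h1 := hv x (hA1 hx.1) (hA1 hx.2.1) hx.2.2
      exact (h1.2.trans_le h1.1).ne') hint
  have e : ∀ t, K φ f δ u t = ∫ ξ in {ξ : ℝ | ξ ∈ A ∧ u - ξ ∈ A ∧ δ < 2 * ξ - u},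
      f ξ * f (u - ξ) * ee (t * (φ ξ + φ (u - ξ))) := by
    intro t
    refine setIntegral_eq_of_subset_of_forall_sdiff_eq_zero hT (fun ξ hξ => hξ.2.2)
      fun ξ hξ => ?_
    by_cases h1 : ξ ∈ A
    · by_cases h2 : u - ξ ∈ A
      · exact absurd ⟨h1, h2, hξ.1⟩ hξ.2
      · rw [h0 _ h2, mul_zero, zero_mul]
    · rw [h0 _ h1, zero_mul, zero_mul]
  simp only [e]
  refine key.trans ?_
  unfold wgt
  rw [lintegral_indicator hS]
  refine setLIntegral_mono' hS fun x hx => ?_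
  have h1 := hv x (hA1 hx.1) (hA1 hx.2.1) hx.2.2
  have h2 : ‖f x * f (u - x)‖ₑ ^ 2 ≤ 1 := by
    refine pow_le_one₀ zero_le ?_
    rw [← ofReal_norm]
    exact ENNReal.ofReal_le_one.2 (hn x)
  rw [ENNReal.ofReal_div_of_pos h1.2, ENNReal.ofReal_one]
  exact ENNReal.div_le_div h2 (ENNReal.ofReal_le_ofReal (h1.1.trans (le_abs_self _)))

end Vale.Agent.P122A
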