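import Vale.Agent.P122A.Stm

open MeasureTheory Set FourierTransform
open scoped ENNReal

namespace Vale.Agent.P122A

theorem r_l2 : R_l2 := by
  intro φ A f t hφ hR
  obtain ⟨hA, hs, hf, h1, h0⟩ := hR
  have hv : volume A ≤ 1 := (measure_mono hs).trans (by simp)
  have hi : Integrable (A.indicator (1 : ℝ → ℝ)) :=
    (integrableOn_const (hv.trans_lt ENNReal.one_lt_top).ne).integrable_indicator hA
  have hb : ∀ ξ s, ‖f ξ * ee s‖ ≤ A.indicator (1 : ℝ → ℝ) ξ := fun ξ s => by
    rw [norm_mul, norm_ee, mul_one]
    by_cases h : ξ ∈ A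
    · rw [indicator_of_mem h]
      exact h1 ξ
    · rw [h0 ξ h, indicator_of_notMem h, norm_zero]
  refine ⟨hv, fun x => ?_, ?_⟩
  · refine (norm_integral_le_of_norm_le hi (.of_forall fun ξ => hb ξ _)).trans (le_of_eq ?_)
    exact integral_indicator_one hA
  · have hm : Measurable fun ξ => f ξ * ee (t * φ ξ) :=
      hf.mul (cont_ee.comp (continuous_const.mul hφ.continuous)).measurable
    have h := bes (fun ξ => f ξ * ee (t * φ ξ))
      (hi.mono' hm.aestronglyMeasurable (.of_forall fun ξ => hb ξ _))
    refine le_trans (le_of_eq (lintegral_congr fun x => ?_)) (h.trans ?_)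
    · simp only [E, ee_add, mul_assoc, mul_comm (ee (x * _))]
    · rw [← lintegral_indicator_one hA]
      refine lintegral_mono fun ξ => ?_
      by_cases h : ξ ∈ A
      · rw [indicator_of_mem h]
        refine pow_le_one₀ zero_le ?_
        have := hb ξ (t * φ ξ)
        rw [indicator_of_mem h] at this
        rw [← ofReal_norm]
        exact ENNReal.ofReal_le_one.2 this
      · simp [h0 ξ h]

end Vale.Agent.P122A
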