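import Vale.Agent.P122A.Stm

/-! The logarithmic weight bound. -/

open MeasureTheory Set FourierTransform
open scoped ENNReal

namespace Vale.Agent.P122A

namespace Log

noncomputable def g (c δ ε w : ℝ) : ℝ≥0∞ :=
  (Ioc (0 : ℝ) 1).indicator (fun w => ENNReal.ofReal (δ ^ (-ε) / c * w ^ (ε - 1))) w

theorem g_meas (c δ ε : ℝ) : Measurable (g c δ ε) := by
  unfold g
  refine Measurable.indicator ?_ measurableSet_Ioc
  exact ENNReal.measurable_ofReal.comp (measurable_const.mul (measurable_id.pow_const _))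

theorem g_int (c δ ε : ℝ) (hc : 0 < c) (hδ : 0 < δ) (hε : 0 < ε) :
    ∫⁻ w, g c δ ε w = ENNReal.ofReal (δ ^ (-ε) / (c * ε)) := by
  unfold g
  rw [lintegral_indicator measurableSet_Ioc]
  have hi : IntervalIntegrable (fun w : ℝ => w ^ (ε - 1)) volume 0 1 :=
    intervalIntegral.intervalIntegrable_rpow' (by linarith)
  have hi2 : IntegrableOn (fun w : ℝ => δ ^ (-ε) / c * w ^ (ε - 1)) (Ioc 0 1) volume :=
    (hi.1).const_mul _
  have hK : 0 ≤ δ ^ (-ε) / c := div_nonneg (Real.rpow_nonneg hδ.le _) hc.le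
  rw [← ofReal_integral_eq_lintegral_ofReal hi2]
  · congr 1
    rw [integral_const_mul, ← intervalIntegral.integral_of_le zero_le_one,
      integral_rpow (Or.inl (by linarith))]
    have h1 : ε - 1 + 1 = ε := by ring
    rw [h1, Real.one_rpow, Real.zero_rpow hε.ne', sub_zero]
    field_simp
  · refine (ae_restrict_iff' measurableSet_Ioc).2 (Filter.Eventually.of_forall fun w hw => ?_)
    exact mul_nonneg hK (Real.rpow_nonneg hw.1.le _)

theorem wgt_le (c δ ε : ℝ) (A : Set ℝ) (hc : 0 < c) (hδ : 0 < δ) (hε : 0 < ε)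
    (hA : A ⊆ Icc 0 1) (u ξ : ℝ) :
    wgt c δ A u ξ ≤ A.indicator 1 ξ * g c δ ε (2 * ξ - u) := by
  unfold wgt
  by_cases h : ξ ∈ {ξ : ℝ | ξ ∈ A ∧ u - ξ ∈ A ∧ δ < 2 * ξ - u}
  · rw [indicator_of_mem h]
    obtain ⟨h1, h2, h3⟩ := h
    have h4 := hA h1
    have h5 := hA h2
    have hw : 0 < 2 * ξ - u := lt_trans hδ h3
    have hm : 2 * ξ - u ∈ Ioc (0 : ℝ) 1 := ⟨hw, by linarith [h4.2, h5.1]⟩
    unfold g
    rw [indicator_of_mem h1, indicator_of_mem hm, Pi.one_apply, one_mul]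
    refine ENNReal.ofReal_le_ofReal ?_
    have h6 : δ ^ ε ≤ (2 * ξ - u) ^ ε := Real.rpow_le_rpow hδ.le h3.le hε.le
    have h7 : 0 < δ ^ ε := Real.rpow_pos_of_pos hδ _
    rw [Real.rpow_neg hδ.le, Real.rpow_sub hw, Real.rpow_one]
    have h8 : (δ ^ ε)⁻¹ / c * ((2 * ξ - u) ^ ε / (2 * ξ - u)) =
        ((2 * ξ - u) ^ ε / δ ^ ε) / (c * (2 * ξ - u)) := by
      field_simp
    rw [h8]
    refine div_le_div_of_nonneg_right ?_ (mul_pos hc hw).le
    exact (one_le_div h7).2 h6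
  · rw [indicator_of_notMem h]
    exact zero_le

end Log

theorem r_log : R_log := by
  intro c δ ε A hc hδ hε hAm hA
  have hm : Measurable (Function.uncurry fun u ξ : ℝ =>
      A.indicator (1 : ℝ → ℝ≥0∞) ξ * Log.g c δ ε (2 * ξ - u)) := by
    refine Measurable.mul ?_ ?_
    · exact (measurable_one.indicator hAm).comp measurable_snd
    · exact (Log.g_meas c δ ε).comp ((measurable_const.mul measurable_snd).sub measurable_fst)
  calc ∫⁻ u, ∫⁻ ξ, wgt c δ A u ξ
      ≤ ∫⁻ u, ∫⁻ ξ, A.indicator (1 : ℝ → ℝ≥0∞) ξ * Log.g c δ ε (2 * ξ - u) :=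
        lintegral_mono fun u => lintegral_mono fun ξ => Log.wgt_le c δ ε A hc hδ hε hA u ξ
    _ = ∫⁻ ξ, ∫⁻ u, A.indicator (1 : ℝ → ℝ≥0∞) ξ * Log.g c δ ε (2 * ξ - u) :=
        lintegral_lintegral_swap hm.aemeasurable
    _ = ∫⁻ ξ, A.indicator (1 : ℝ → ℝ≥0∞) ξ * ENNReal.ofReal (δ ^ (-ε) / (c * ε)) := by
        refine lintegral_congr fun ξ => ?_
        have hg : Measurable fun u => Log.g c δ ε (2 * ξ - u) :=
          (Log.g_meas c δ ε).comp (measurable_const.sub measurable_id)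
        rw [lintegral_const_mul _ hg,
          lintegral_sub_left_eq_self (Log.g c δ ε) (2 * ξ), Log.g_int c δ ε hc hδ hε]
    _ = ENNReal.ofReal (δ ^ (-ε) / (c * ε)) * volume A := by
        rw [lintegral_mul_const _ (measurable_one.indicator hAm), lintegral_indicator_one hAm,
          mul_comm]

end Vale.Agent.P122A
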