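import Vale.Agent.P122A.Stm

/-! Joint measurability of the three kernels. -/

open MeasureTheory Set FourierTransform
open scoped ENNReal

namespace Vale.Agent.P122A

namespace Meas

theorem par {X Y : Type*} [MeasurableSpace X] [MeasurableSpace Y] (ν : Measure Y) [SFinite ν]
    {F : X × Y → ℂ} (hF : Measurable F) : Measurable fun z => ∫ y, F (z, y) ∂ν :=
  (hF.stronglyMeasurable.integral_prod_right' (ν := ν)).measurable

end Meas

open Meas in
theorem r_meas : R_meas := by
  intro φ f δ hφ hf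
  have m := hφ.continuous.measurable
  have e := cont_ee.measurable
  refine ⟨?_, ?_, ?_⟩
  · exact par volume (F := fun w : (ℝ × ℝ) × ℝ => f w.2 * ee (w.1.1 * w.2 + w.1.2 * φ w.2))
      (by fun_prop)
  · exact par (volume.restrict {q : ℝ × ℝ | δ < q.1 - q.2})
      (F := fun w : (ℝ × ℝ) × (ℝ × ℝ) => f w.2.1 * f w.2.2 *
        ee (w.1.1 * (w.2.1 + w.2.2) + w.1.2 * (φ w.2.1 + φ w.2.2))) (by fun_prop)
  · have s : MeasurableSet {w : (ℝ × ℝ) × ℝ | δ < 2 * w.2 - w.1.1} :=
      measurableSet_lt measurable_const (by fun_prop)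
    have k := par volume (Measurable.indicator (f := fun w : (ℝ × ℝ) × ℝ => f w.2 *
      f (w.1.1 - w.2) * ee (w.1.2 * (φ w.2 + φ (w.1.1 - w.2)))) (by fun_prop) s)
    have q : (fun z : ℝ × ℝ => K φ f δ z.1 z.2) = fun z : ℝ × ℝ => ∫ y : ℝ,
        {w : (ℝ × ℝ) × ℝ | δ < 2 * w.2 - w.1.1}.indicator (fun w : (ℝ × ℝ) × ℝ => f w.2 *
          f (w.1.1 - w.2) * ee (w.1.2 * (φ w.2 + φ (w.1.1 - w.2)))) (z, y) := by
      funext z
      unfold K
      rw [← integral_indicator (measurableSet_lt measurable_const (by fun_prop))]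
      rfl
    rw [q]
    exact k

end Vale.Agent.P122A
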