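import Vale.Agent.P122A.Stm

/-! Removal of the normalization. -/

open MeasureTheory Set FourierTransform
open scoped ENNReal

namespace Vale.Agent.P122A

namespace Mix

theorem e_mul (φ : ℝ → ℝ) (f : ℝ → ℂ) (a : ℂ) (x t : ℝ) :
    E φ (fun ξ => a * f ξ) x t = a * E φ f x t := by
  unfold E
  simp only [mul_assoc]
  exact integral_const_mul _ _

theorem mix_mul (p : ℝ) (hp : 0 ≤ p) (σ : ℝ≥0∞) (hσ : σ ≠ ⊤) (u : ℝ → ℝ → ℝ≥0∞) :
    mix p (fun x t => σ * u x t) = (σ ^ p) ^ 2 * mix p u := by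
  have h := ENNReal.rpow_ne_top_of_nonneg hp hσ
  unfold mix
  simp only [ENNReal.mul_rpow_of_nonneg _ _ hp, lintegral_const_mul' _ _ h, mul_pow]
  exact lintegral_const_mul' _ _ (ENNReal.pow_ne_top h)

end Mix

theorem r_mix : R_one → R_mix := by
  intro h p c hp hc
  obtain ⟨C, hC, h⟩ := h p c hp hc
  have hp0 : 0 < p := by linarith
  refine ⟨C + 1, ENNReal.add_ne_top.2 ⟨hC, ENNReal.one_ne_top⟩, fun φ f hφ hf hs => ?_⟩
  obtain ⟨N, hN⟩ : ∃ N, N = ∫⁻ ξ, ‖f ξ‖ₑ ^ p := ⟨_, rfl⟩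
  rw [← hN]
  rcases eq_or_ne N 0 with h0 | h0
  · have k : f =ᵐ[volume] 0 := by
      filter_upwards [(lintegral_eq_zero_iff (hf.enorm.pow_const p)).1 (hN.symm.trans h0)] with ξ hξ
      simpa [hp0, hp0.not_gt] using hξ
    have k' : ∀ x t, E φ f x t = 0 := fun x t => integral_eq_zero_of_ae (by
      filter_upwards [k] with ξ hξ
      simp [hξ])
    simp [mix, k', hp0]
  rcases eq_or_ne N ⊤ with h1 | h1
  · simp [h1]
  obtain ⟨a, ha⟩ : ∃ a : ℂ, ‖a‖ₑ ^ p = N := by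
    refine ⟨((N.toReal ^ (1 / p) : ℝ) : ℂ), ?_⟩
    rw [← ofReal_norm, Complex.norm_real, Real.norm_of_nonneg (by positivity),
      ENNReal.ofReal_rpow_of_nonneg (by positivity) hp0.le, ← Real.rpow_mul ENNReal.toReal_nonneg,
      one_div_mul_cancel hp0.ne', Real.rpow_one, ENNReal.ofReal_toReal h1]
  have ha0 : a ≠ 0 := fun k => h0 (by rw [← ha, k]; simp [hp0])
  have h2 := h φ (fun ξ => a⁻¹ * f ξ) hφ (hf.const_mul _) (fun ξ hξ => by simp [hs ξ hξ]) (by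
    simp only [enorm_mul, ENNReal.mul_rpow_of_nonneg _ _ hp0.le]
    rw [lintegral_const_mul _ (hf.enorm.pow_const p), ← hN, enorm_inv ha0, ENNReal.inv_rpow, ha,
      ENNReal.inv_mul_cancel h0 h1])
  have h3 : (fun x t => ‖E φ f x t‖ₑ) = fun x t => ‖a‖ₑ * ‖E φ (fun ξ => a⁻¹ * f ξ) x t‖ₑ := by
    funext x t
    rw [Mix.e_mul, ← enorm_mul, mul_inv_cancel_left₀ ha0]
  rw [h3, Mix.mix_mul p hp0.le _ enorm_ne_top, ha, mul_comm]
  have h4 : C + 1 ≤ (C + 1) ^ 2 := le_self_pow le_add_self two_ne_zero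
  exact mul_le_mul_left (h2.trans (le_self_add.trans h4)) _

end Vale.Agent.P122A
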