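import Vale.Agent.P122A.Stm

/-! The part of the square near the diagonal. -/

open MeasureTheory Set FourierTransform
open scoped ENNReal

namespace Vale.Agent.P122A

namespace Near

theorem strip (A : Set ℝ) (δ : ℝ) (hA : MeasurableSet A) :
    MeasurableSet {q : ℝ × ℝ | q.1 ∈ A ∧ |q.1 - q.2| ≤ δ} ∧
    volume {q : ℝ × ℝ | q.1 ∈ A ∧ |q.1 - q.2| ≤ δ} = ENNReal.ofReal (2 * δ) * volume A := by
  have mS : MeasurableSet {q : ℝ × ℝ | q.1 ∈ A ∧ |q.1 - q.2| ≤ δ} :=
    (measurable_fst hA).inter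
      (measurableSet_le (measurable_fst.sub measurable_snd).abs measurable_const)
  refine ⟨mS, ?_⟩
  rw [Measure.volume_eq_prod, Measure.prod_apply mS, ← setLIntegral_const,
    ← lintegral_indicator hA]
  refine lintegral_congr fun x => ?_
  by_cases hx : x ∈ A
  · have e : Prod.mk x ⁻¹' {q : ℝ × ℝ | q.1 ∈ A ∧ |q.1 - q.2| ≤ δ} = Icc (x - δ) (x + δ) := by
      ext y
      simp only [mem_preimage, mem_ofPred_eq, mem_Icc, hx, true_and, abs_le]
      constructor <;> rintro ⟨a, b⟩ <;> constructor <;> linarith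
    rw [e, Real.volume_Icc, indicator_of_mem hx]
    exact congrArg ENNReal.ofReal (by ring)
  · have e : Prod.mk x ⁻¹' {q : ℝ × ℝ | q.1 ∈ A ∧ |q.1 - q.2| ≤ δ} = ∅ := by
      ext y
      simp [hx]
    rw [e, measure_empty, indicator_of_notMem hx]

theorem key (g : ℝ → ℂ) (A : Set ℝ) (δ : ℝ) (hδ : 0 < δ) (hA : MeasurableSet A)
    (hA1 : volume A ≠ ⊤) (hg : Measurable g) (h1 : ∀ ξ, ‖g ξ‖ ≤ 1) (h0 : ∀ ξ, ξ ∉ A → g ξ = 0) :
    ‖(∫ ξ, g ξ) ^ 2 - 2 * ∫ q in {q : ℝ × ℝ | δ < q.1 - q.2}, g q.1 * g q.2‖ ≤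
      2 * δ * (volume A).toReal := by
  have gi : Integrable g := by
    refine Integrable.mono' (g := A.indicator fun _ => (1 : ℝ))
      ((integrable_indicator_iff hA).2 (integrableOn_const hA1)) hg.aestronglyMeasurable
      (ae_of_all _ fun ξ => ?_)
    by_cases hx : ξ ∈ A
    · rw [indicator_of_mem hx]
      exact h1 ξ
    · rw [indicator_of_notMem hx, h0 ξ hx, norm_zero]
  have Fi : Integrable (fun q : ℝ × ℝ => g q.1 * g q.2) := by
    rw [Measure.volume_eq_prod]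
    exact gi.mul_prod gi
  have e1 : (∫ ξ, g ξ) ^ 2 = ∫ q : ℝ × ℝ, g q.1 * g q.2 := by
    rw [Measure.volume_eq_prod, integral_prod_mul, sq]
  have mP : MeasurableSet {q : ℝ × ℝ | δ < q.1 - q.2} :=
    measurableSet_lt measurable_const (measurable_fst.sub measurable_snd)
  have mQ : MeasurableSet {q : ℝ × ℝ | δ < q.2 - q.1} :=
    measurableSet_lt measurable_const (measurable_snd.sub measurable_fst)
  have mR : MeasurableSet {q : ℝ × ℝ | |q.1 - q.2| ≤ δ} :=
    measurableSet_le (measurable_fst.sub measurable_snd).abs measurable_const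
  have c : {q : ℝ × ℝ | δ < q.1 - q.2}ᶜ =
      {q : ℝ × ℝ | δ < q.2 - q.1} ∪ {q : ℝ × ℝ | |q.1 - q.2| ≤ δ} := by
    ext q
    simp only [mem_compl_iff, mem_ofPred_eq, mem_union, not_lt, abs_le]
    constructor
    · intro h
      by_cases k : δ < q.2 - q.1
      · exact Or.inl k
      · exact Or.inr ⟨by linarith [not_lt.1 k], h⟩
    · rintro (h | h)
      · linarith
      · exact h.2
  have d : Disjoint {q : ℝ × ℝ | δ < q.2 - q.1} {q : ℝ × ℝ | |q.1 - q.2| ≤ δ} := by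
    rw [Set.disjoint_left]
    intro q a b
    have a' : δ < q.2 - q.1 := a
    have b' := (abs_le.1 (show |q.1 - q.2| ≤ δ from b)).1
    linarith
  have e2 := integral_add_compl mP Fi
  rw [c, setIntegral_union d mR Fi.integrableOn Fi.integrableOn] at e2
  have e3 : ∫ q in {q : ℝ × ℝ | δ < q.2 - q.1}, g q.1 * g q.2 =
      ∫ q in {q : ℝ × ℝ | δ < q.1 - q.2}, g q.1 * g q.2 := by
    rw [← integral_indicator mQ, ← integral_indicator mP, Measure.volume_eq_prod,
      ← integral_prod_swap]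
    refine integral_congr_ae (ae_of_all _ fun q => ?_)
    simp only [indicator, mem_ofPred_eq, Prod.fst_swap, Prod.snd_swap, mul_comm]
  obtain ⟨mS, vS⟩ := strip A δ hA
  have e4 : ∫ q in {q : ℝ × ℝ | |q.1 - q.2| ≤ δ}, g q.1 * g q.2 =
      ∫ q in {q : ℝ × ℝ | q.1 ∈ A ∧ |q.1 - q.2| ≤ δ}, g q.1 * g q.2 := by
    refine setIntegral_eq_of_subset_of_forall_sdiff_eq_zero mR (fun q h => h.2) fun q h => ?_
    rw [h0 q.1 fun k => h.2 ⟨k, h.1⟩, zero_mul]
  have e5 : (∫ ξ, g ξ) ^ 2 - 2 * ∫ q in {q : ℝ × ℝ | δ < q.1 - q.2}, g q.1 * g q.2 =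
      ∫ q in {q : ℝ × ℝ | q.1 ∈ A ∧ |q.1 - q.2| ≤ δ}, g q.1 * g q.2 := by
    rw [e1, ← e2, e3, e4]
    ring
  rw [e5]
  have fin : volume {q : ℝ × ℝ | q.1 ∈ A ∧ |q.1 - q.2| ≤ δ} < ⊤ := by
    rw [vS]
    exact ENNReal.mul_lt_top ENNReal.ofReal_lt_top hA1.lt_top
  refine (norm_setIntegral_le_of_norm_le_const (C := 1) fin fun q _ => ?_).trans ?_
  · rw [norm_mul]
    exact mul_le_one₀ (h1 _) (norm_nonneg _) (h1 _)
  · rw [one_mul, Measure.real, vS, ENNReal.toReal_mul, ENNReal.toReal_ofReal (by linarith)]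

end Near

theorem r_near : R_near := by
  intro δ φ A f x t hδ hφ ⟨hA, hs, hf, h1, h0⟩
  have fin : volume A ≠ ⊤ :=
    ((measure_mono hs).trans_lt (by simp)).ne
  have mg : Measurable fun ξ => f ξ * ee (x * ξ + t * φ ξ) :=
    hf.mul (cont_ee.measurable.comp
      ((measurable_const.mul measurable_id).add (measurable_const.mul hφ.continuous.measurable)))
  have k := Near.key (fun ξ => f ξ * ee (x * ξ + t * φ ξ)) A δ hδ hA fin mg
    (fun ξ => by rw [norm_mul, norm_ee, mul_one]; exact h1 ξ)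
    (fun ξ h => by rw [h0 ξ h, zero_mul])
  have e : G φ f δ x t = ∫ q in {q : ℝ × ℝ | δ < q.1 - q.2},
      f q.1 * ee (x * q.1 + t * φ q.1) * (f q.2 * ee (x * q.2 + t * φ q.2)) := by
    unfold G
    refine integral_congr_ae (ae_of_all _ fun q => ?_)
    have : x * (q.1 + q.2) + t * (φ q.1 + φ q.2) =
        (x * q.1 + t * φ q.1) + (x * q.2 + t * φ q.2) := by ring
    simp only [this, ee_add (x * q.1 + t * φ q.1)]
    ring
  rw [e]
  exact k

end Vale.Agent.P122A
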