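import Vale.Agent.P122A.Stm

open MeasureTheory Set FourierTransform
open scoped ENNReal

namespace Vale.Agent.P122A

namespace One

theorem mix_mul (p : ℝ) (hp : 0 ≤ p) (a : ℝ≥0∞) (ha : a ≠ ⊤) (u : ℝ → ℝ → ℝ≥0∞) :
    mix p (fun x t => a * u x t) = (a ^ p) ^ 2 * mix p u := by
  have h : a ^ p ≠ ⊤ := ENNReal.rpow_ne_top_of_nonneg hp ha
  unfold mix
  rw [← lintegral_const_mul' _ _ (ENNReal.pow_ne_top h)]
  refine lintegral_congr fun t => ?_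
  rw [← mul_pow, ← lintegral_const_mul' _ _ h]
  congr 1
  exact lintegral_congr fun x => ENNReal.mul_rpow_of_nonneg _ _ hp

theorem num (p e : ℝ) (j : ℕ) :
    (((2 : ℝ≥0∞) ^ j) ^ p) ^ 2 * ((2 : ℝ≥0∞) ^ (p * (1 - (j : ℝ)))) ^ (2 + e) =
      (2 : ℝ≥0∞) ^ (p * (2 + e)) * ENNReal.ofReal ((2 : ℝ) ^ (-(p * e))) ^ j := by
  have h2 : (2 : ℝ≥0∞) ≠ 0 := two_ne_zero
  have h3 : (2 : ℝ≥0∞) ≠ ⊤ := ENNReal.ofNat_ne_top
  rw [← ENNReal.ofReal_rpow_of_pos (by norm_num : (0 : ℝ) < 2), ENNReal.ofReal_ofNat]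
  simp only [← ENNReal.rpow_natCast, ← ENNReal.rpow_mul]
  rw [← ENNReal.rpow_add _ _ h2 h3, ← ENNReal.rpow_add _ _ h2 h3]
  congr 1
  push_cast
  ring

end One

theorem r_one : R_meas → R_res → R_sum → R_dec → R_one := by
  intro hm hr hs hd p c hp hc
  obtain ⟨C0, c0, h0⟩ := hr p c hp hc
  have pe : 0 < p * ((p - 3) / 2) := mul_pos (by linarith) (by linarith)
  obtain ⟨C1, c1, h1⟩ := hs p ((2 : ℝ) ^ (-(p * ((p - 3) / 2)))) (by linarith)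
    (Real.rpow_pos_of_pos (by norm_num) _)
    (Real.rpow_lt_one_of_one_lt_of_neg (by norm_num) (by linarith))
  refine ⟨C1 * (C0 * (2 : ℝ≥0∞) ^ (p * (2 + (p - 3) / 2))), ENNReal.mul_ne_top c1
    (ENNReal.mul_ne_top c0 (ENNReal.rpow_ne_top_of_ne_zero two_ne_zero ENNReal.ofNat_ne_top)), ?_⟩
  intro φ f hφ hf h01 hn
  obtain ⟨A, g, hA, hv, hE⟩ := hd p f (by linarith) hf h01 hn
  refine h1 _ (fun j x t => (2 : ℝ≥0∞) ^ j * ‖E φ (g j) x t‖ₑ) _ (fun j => ?_)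
    (fun x t => hE φ x t hφ.1) fun j => ?_
  · exact (hm φ (g j) 0 hφ.1 (hA j).2.2.1).1.enorm.const_mul _
  · rw [One.mix_mul p (by linarith) _ (ENNReal.pow_ne_top ENNReal.ofNat_ne_top), mul_assoc,
      ← One.num, mul_left_comm]
    refine mul_le_mul_right ((h0 φ (A j) (g j) hφ (hA j)).trans ?_) _
    exact mul_le_mul_right (ENNReal.rpow_le_rpow (hv j) (by linarith)) _

end Vale.Agent.P122A
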