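import Vale.Agent.P122A.Stm

/-! Plancherel after a change of variables. -/

open MeasureTheory Set FourierTransform
open scoped ENNReal

namespace Vale.Agent.P122A

namespace Osc

theorem wt {a : ℝ} (ha : 0 < a) (z : ℂ) :
    ENNReal.ofReal a * ‖a⁻¹ • z‖ₑ ^ 2 = ‖z‖ₑ ^ 2 / ENNReal.ofReal a := by
  have h0 : ENNReal.ofReal a ≠ 0 := (ENNReal.ofReal_pos.2 ha).ne'
  rw [enorm_smul, Real.enorm_eq_ofReal (inv_pos.2 ha).le, ENNReal.ofReal_inv_of_pos ha, mul_pow,
    sq, ← mul_assoc, ← mul_assoc, ENNReal.mul_inv_cancel h0 ENNReal.ofReal_ne_top, one_mul,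
    mul_comm, div_eq_mul_inv]

end Osc

theorem r_osc : R_osc := by
  intro S v v' h hS hd hi h0 hh
  obtain ⟨g, hg⟩ : ∃ g : ℝ → ℂ, ∀ x ∈ S, g (v x) = |v' x|⁻¹ • h x :=
    ⟨fun y => |v' (Function.invFunOn v S y)|⁻¹ • h (Function.invFunOn v S y), fun x hx => by
      simp only [hi.leftInvOn_invFunOn hx]⟩
  have hg' : ∀ x ∈ S, |v' x| • g (v x) = h x := fun x hx => by
    rw [hg x hx, smul_inv_smul₀ (abs_pos.2 (h0 x hx)).ne']
  have hm : MeasurableSet (v '' S) :=
    measurable_image_of_fderivWithin hS (fun x hx => (hd x hx).hasFDerivWithinAt) hi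
  have hint : IntegrableOn g (v '' S) :=
    (integrableOn_image_iff_integrableOn_abs_deriv_smul hS hd hi g).2
      (hh.congr_fun (fun x hx => (hg' x hx).symm) hS)
  have hb := bes _ ((integrable_indicator_iff hm).2 hint)
  have e1 : ∀ t : ℝ, ∫ y, (v '' S).indicator g y * ee (t * y) = ∫ ξ in S, h ξ * ee (t * v ξ) := by
    intro t
    simp only [← indicator_mul_left (v '' S) g fun y => ee (t * y)]
    rw [integral_indicator hm, integral_image_eq_integral_abs_deriv_smul hS hd hi]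
    refine setIntegral_congr_fun hS fun x hx => ?_
    rw [← smul_mul_assoc, hg' x hx]
  have e2 : ∀ y, ‖(v '' S).indicator g y‖ₑ ^ 2 = (v '' S).indicator (fun y => ‖g y‖ₑ ^ 2) y := by
    intro y
    by_cases hy : y ∈ v '' S
    · rw [indicator_of_mem hy, indicator_of_mem hy]
    · rw [indicator_of_notMem hy, indicator_of_notMem hy]
      simp
  simp only [e1, e2] at hb
  rw [lintegral_indicator hm, lintegral_image_eq_lintegral_abs_deriv_mul hS hd hi] at hb
  refine hb.trans (le_of_eq (setLIntegral_congr_fun hS fun x hx => ?_))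
  rw [hg x hx, Osc.wt (abs_pos.2 (h0 x hx))]

end Vale.Agent.P122A
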