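import Vale.Agent.P122A.Stm

open MeasureTheory Set FourierTransform
open scoped ENNReal

namespace Vale.Agent.P122A

namespace Rep

noncomputable def F (φ : ℝ → ℝ) (f : ℝ → ℂ) (δ x t : ℝ) (q : ℝ × ℝ) : ℂ :=
  {q : ℝ × ℝ | δ < q.1 - q.2}.indicator
    (fun q => f q.1 * f q.2 * ee (x * (q.1 + q.2) + t * (φ q.1 + φ q.2))) q

theorem mS (δ : ℝ) : MeasurableSet {q : ℝ × ℝ | δ < q.1 - q.2} :=
  measurableSet_lt measurable_const (measurable_fst.sub measurable_snd)

theorem mT (δ u : ℝ) : MeasurableSet {ξ : ℝ | δ < 2 * ξ - u} :=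
  measurableSet_lt measurable_const (by fun_prop)

theorem intf {A : Set ℝ} {f : ℝ → ℂ} (h : Res A f) : Integrable f := by
  obtain ⟨_, h2, h3, h4, h5⟩ := h
  have h6 : IntegrableOn f (Icc 0 1) :=
    Measure.integrableOn_of_bounded (M := 1) (by simp) h3.aestronglyMeasurable
      (Filter.Eventually.of_forall h4)
  exact (integrableOn_iff_integrable_of_support_subset fun ξ hξ =>
    h2 (by_contra fun hn => hξ (h5 ξ hn))).mp h6

theorem intF {φ : ℝ → ℝ} {A : Set ℝ} {f : ℝ → ℂ} (δ x t : ℝ) (hφ : Differentiable ℝ φ)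
    (h : Res A f) : Integrable (F φ f δ x t) (volume.prod volume) := by
  refine Integrable.indicator ?_ (mS δ)
  have hc := hφ.continuous
  have h1 : Continuous fun q : ℝ × ℝ => ee (x * (q.1 + q.2) + t * (φ q.1 + φ q.2)) :=
    cont_ee.comp (by fun_prop)
  exact ((intf h).mul_prod (intf h)).mul_bdd (c := 1) h1.aestronglyMeasurable
    (Filter.Eventually.of_forall fun q => (norm_ee _).le)

theorem inner (φ : ℝ → ℝ) (f : ℝ → ℂ) (δ x t u : ℝ) :
    ∫ ξ, F φ f δ x t (ξ, u - ξ) = K φ f δ u t * ee (x * u) := by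
  rw [K, ← integral_mul_const, ← integral_indicator (mT δ u)]
  refine integral_congr_ae (Filter.Eventually.of_forall fun ξ => ?_)
  by_cases h : δ < 2 * ξ - u
  · have h1 : (ξ, u - ξ) ∈ {q : ℝ × ℝ | δ < q.1 - q.2} := by
      change δ < ξ - (u - ξ)
      linarith
    have h2 : ξ ∈ {ξ : ℝ | δ < 2 * ξ - u} := h
    simp only [F, indicator_of_mem h1, indicator_of_mem h2]
    rw [ee_add, add_sub_cancel]
    ring
  · have h1 : (ξ, u - ξ) ∉ {q : ℝ × ℝ | δ < q.1 - q.2} := by
      change ¬δ < ξ - (u - ξ)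
      intro h3
      exact h (by linarith)
    have h2 : ξ ∉ {ξ : ℝ | δ < 2 * ξ - u} := h
    simp only [F, indicator_of_notMem h1, indicator_of_notMem h2]

end Rep

theorem r_rep : R_rep := by
  intro φ A f δ t hφ h
  have hT : MeasurePreserving (fun z : ℝ × ℝ => (z.2, z.1 - z.2)) (volume.prod volume)
      (volume.prod volume) := measurePreserving_prod_sub_swap volume volume
  have hI : ∀ x, Integrable (fun z : ℝ × ℝ => Rep.F φ f δ x t (z.2, z.1 - z.2))
      (volume.prod volume) := fun x => hT.integrable_comp_of_integrable (Rep.intF δ x t hφ h)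
  constructor
  · have h1 := (hI 0).integral_prod_left
    simp only [Rep.inner, zero_mul] at h1
    have h2 : ee 0 = 1 := by simp [ee]
    simpa only [h2, mul_one] using h1
  · intro x
    have h1 : G φ f δ x t = ∫ q, Rep.F φ f δ x t q ∂(volume.prod volume) :=
      (integral_indicator (Rep.mS δ)).symm
    have h2 := integral_map (μ := volume.prod volume) hT.measurable.aemeasurable
      (f := Rep.F φ f δ x t) (by rw [hT.map_eq]; exact (Rep.intF δ x t hφ h).aestronglyMeasurable)
    rw [hT.map_eq] at h2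
    rw [h1, h2, integral_prod _ (hI x)]
    simp only [Rep.inner]

end Vale.Agent.P122A
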