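import Vale.Agent.P122A.Stm

open MeasureTheory Set FourierTransform
open scoped ENNReal

namespace Vale.Agent.P122A

theorem r_res : R_meas → R_l2 → R_dist → R_cake → R_cs → R_res := by
  intro hm hl hd hc hcs p c hp hc0
  obtain ⟨ε, hεp⟩ : ∃ ε : ℝ, ε = (p - 3) / 2 := ⟨_, rfl⟩
  have hε : 0 < ε := by rw [hεp]; linarith
  rw [← hεp]
  refine ⟨ENNReal.ofReal ((p - 1) / ((p - 1) - (2 + ε)) * (16 * 4 ^ ε / (c * ε))),
    ENNReal.ofReal_ne_top, fun φ A f hCv hRes => ?_⟩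
  have hφ := hCv.1
  have hf := hRes.2.2.1
  have hE := (hm φ f 0 hφ hf).1
  have hA1 : volume A ≤ 1 := (hl φ A f 0 hφ hRes).1
  have hAtop : volume A ≠ ⊤ := ne_top_of_le_ne_top ENNReal.one_ne_top hA1
  have hm0 : 0 ≤ (volume A).toReal := ENNReal.toReal_nonneg
  have hm1 : (volume A).toReal ≤ 1 := by
    have := ENNReal.toReal_mono ENNReal.one_ne_top hA1
    simpa using this
  have hra : 2 + ε < p - 1 := by rw [hεp]; linarith
  have h1 := hcs p (fun x t => ‖E φ f x t‖ₑ) (volume A) (by linarith) hE.enorm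
    (fun t => (hl φ A f t hφ hRes).2.2)
  have h2 := hc volume (fun z => ‖E φ f z.1 z.2‖ ^ 2) (2 + ε) (p - 1)
    (16 * 4 ^ ε / (c * ε) * (volume A).toReal ^ (1 + ε)) (hE.norm.pow_const 2)
    (fun z => ⟨sq_nonneg _, pow_le_one₀ (norm_nonneg _)
      (((hl φ A f z.2 hφ hRes).2.1 z.1).trans hm1)⟩) (by linarith) hra (by positivity)
    (fun l hl0 => hd c ε l φ A f hc0 hε hl0 hCv hRes)
  have h3 : ∀ z : ℝ × ℝ, ‖E φ f z.1 z.2‖ₑ ^ (2 * p - 2) =
      ENNReal.ofReal ((‖E φ f z.1 z.2‖ ^ 2) ^ (p - 1)) := by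
    intro z
    rw [← ofReal_norm, ENNReal.ofReal_rpow_of_nonneg (norm_nonneg _) (by linarith),
      ← Real.rpow_natCast, ← Real.rpow_mul (norm_nonneg _)]
    have : ((2 : ℕ) : ℝ) * (p - 1) = 2 * p - 2 := by push_cast; ring
    rw [this]
  simp only [h3] at h1
  refine h1.trans ((mul_le_mul_right h2 _).trans (le_of_eq ?_))
  have hpos : 0 ≤ (p - 1) / ((p - 1) - (2 + ε)) * (16 * 4 ^ ε / (c * ε)) := by
    have : 0 < (p - 1) - (2 + ε) := by linarith
    have : 0 < p - 1 := by linarith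
    positivity
  have hvol : volume A = ENNReal.ofReal (volume A).toReal := (ENNReal.ofReal_toReal hAtop).symm
  generalize (volume A).toReal = m at hm0 hvol
  rw [hvol, ENNReal.ofReal_rpow_of_nonneg hm0 (by linarith), ← ENNReal.ofReal_mul hm0,
    ← ENNReal.ofReal_mul hpos]
  have e : m ^ (2 + ε) = m * m ^ (1 + ε) := by
    have : 2 + ε = 1 + (1 + ε) := by ring
    rw [this, Real.rpow_add_of_nonneg hm0 zero_le_one (by linarith), Real.rpow_one]
  rw [e]
  congr 1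
  ring

end Vale.Agent.P122A
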