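import Vale.Agent.P122A.Stm

/-! The tensor product estimate. -/

open MeasureTheory Set FourierTransform
open scoped ENNReal

namespace Vale.Agent.P122A

namespace Ten

theorem split {U V : ℝ × ℝ → ℝ≥0∞} (hU : Measurable U) (hV : Measurable V) :
    ∫⁻ z : ℝ × ℝ × ℝ, U (z.1, z.2.2) * V z.2 = ∫⁻ t, (∫⁻ x, U (x, t)) * ∫⁻ y, V (y, t) := by
  have h1 : Measurable fun z : ℝ × ℝ × ℝ => U (z.1, z.2.2) * V z.2 :=
    (hU.comp (measurable_fst.prodMk measurable_snd.snd)).mul (hV.comp measurable_snd)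
  have h2 : Measurable fun w : ℝ × ℝ => (∫⁻ x, U (x, w.2)) * V w :=
    (hU.lintegral_prod_left'.comp measurable_snd).mul hV
  have h3 : ∀ w : ℝ × ℝ, ∫⁻ x, U (x, w.2) * V w = (∫⁻ x, U (x, w.2)) * V w := fun w =>
    lintegral_mul_const _ (hU.comp (measurable_id.prodMk measurable_const))
  rw [Measure.volume_eq_prod, lintegral_prod_symm' _ h1, lintegral_congr h3,
    Measure.volume_eq_prod, lintegral_prod_symm' _ h2]
  exact lintegral_congr fun t =>
    lintegral_const_mul (∫⁻ x, U (x, t)) (f := fun y => V (y, t))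
      (hV.comp (measurable_id.prodMk measurable_const))

theorem root {c a : ℝ≥0∞} (h : c ≤ a ^ 2) : c ^ (1 / (2 : ℝ)) ≤ a := by
  refine (ENNReal.rpow_le_rpow h (by norm_num)).trans (le_of_eq ?_)
  rw [← ENNReal.rpow_two, ← ENNReal.rpow_mul]
  norm_num

end Ten

theorem r_ten : R_ten := by
  intro p u v a b hp hu hv ha hb
  have hU : Measurable fun z : ℝ × ℝ => u z.1 z.2 ^ p := hu.pow_const p
  have hV : Measurable fun z : ℝ × ℝ => v z.1 z.2 ^ p := hv.pow_const p
  have h1 := Ten.split hU hV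
  have h2 := ENNReal.lintegral_mul_le_Lp_mul_Lq volume Real.HolderConjugate.two_two
    (hU.lintegral_prod_left' (μ := volume)).aemeasurable
    (hV.lintegral_prod_left' (μ := volume)).aemeasurable
  simp only [ENNReal.rpow_two] at h2
  simp only [ENNReal.mul_rpow_of_nonneg _ _ hp.le]
  exact (h1.le.trans h2).trans (mul_le_mul' (Ten.root ha) (Ten.root hb))

end Vale.Agent.P122A
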