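import Vale.Agent.P122A.Sup
import Vale.Agent.P122A.Cake
import Vale.Agent.P122A.Cs2
import Vale.Agent.P122A.Dec
import Vale.Agent.P122A.Dist
import Vale.Agent.P122A.G2
import Vale.Agent.P122A.Hol
import Vale.Agent.P122A.Kt
import Vale.Agent.P122A.L2
import Vale.Agent.P122A.Log
import Vale.Agent.P122A.Meas
import Vale.Agent.P122A.Mix
import Vale.Agent.P122A.Near
import Vale.Agent.P122A.One
import Vale.Agent.P122A.Osc
import Vale.Agent.P122A.Rep
import Vale.Agent.P122A.Rest
import Vale.Agent.P122A.Sum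
import Vale.Agent.P122A.Ten

/-! Assembly. -/

namespace Vale.Agent.P122A

theorem x_mix : R_mix :=
  r_mix (r_one r_meas (r_res r_meas r_l2 (r_dist r_meas
    (r_g2 r_rep r_meas (r_kt r_osc) r_log) r_near r_l2) r_cake r_cs2) (r_sum r_hol) r_dec)

end Vale.Agent.P122A
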