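import Vale.Agent.P122A.Fin
import Vale.Agent.P122A.Defs3

/-! Both signs of curvature, and the surface measure. -/

open MeasureTheory Set FourierTransform
open scoped ENNReal

namespace Vale.Agent.P122A

theorem Cu.diff {c : ℝ} {φ : ℝ → ℝ} (h : Cu c φ) : Differentiable ℝ φ := by
  rcases h with h | h
  · exact h.1
  · simpa using h.1.neg

theorem Cu.bdd {c : ℝ} {φ : ℝ → ℝ} (hc : 0 < c) (h : Cu c φ) :
    ∃ M : ℝ, 0 ≤ M ∧ ∀ x ∈ Icc (0 : ℝ) 1, deriv φ x ^ 2 ≤ M := by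
  refine ⟨(|deriv φ 0| + |deriv φ 1|) ^ 2, sq_nonneg _, fun x hx => ?_⟩
  have a0 : (0 : ℝ) ∈ Icc (0 : ℝ) 1 := ⟨le_rfl, zero_le_one⟩
  have a1 : (1 : ℝ) ∈ Icc (0 : ℝ) 1 := ⟨zero_le_one, le_rfl⟩
  have b0 : 0 ≤ c * (x - 0) := mul_nonneg hc.le (by linarith [hx.1])
  have b1 : 0 ≤ c * (1 - x) := mul_nonneg hc.le (by linarith [hx.2])
  have c0 := abs_le.1 (le_refl |deriv φ 0|)
  have c1 := abs_le.1 (le_refl |deriv φ 1|)
  have d0 := abs_nonneg (deriv φ 0)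
  have d1 := abs_nonneg (deriv φ 1)
  refine sq_le_sq' ?_ ?_ <;> rcases h with h | h <;>
    have e0 := h.2 0 a0 x hx hx.1 <;> have e1 := h.2 x hx 1 a1 hx.2 <;>
    (try simp only [deriv.fun_neg] at e0 e1) <;> linarith [c0.1, c0.2, c1.1, c1.2]

theorem y_mix (p c : ℝ) (hp : 3 < p) (hc : 0 < c) : ∃ C : ℝ≥0∞, C ≠ ⊤ ∧
    ∀ (φ : ℝ → ℝ) (f : ℝ → ℂ), Cu c φ → Measurable f → (∀ ξ, ξ ∉ Icc (0 : ℝ) 1 → f ξ = 0) →
      mix p (fun x t => ‖E φ f x t‖ₑ) ≤ C ^ 2 * (∫⁻ ξ, ‖f ξ‖ₑ ^ p) ^ 2 := by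
  obtain ⟨C, hC, h⟩ := x_mix p c hp hc
  refine ⟨C, hC, fun φ f hφ hf h0 => ?_⟩
  rcases hφ with hφ | hφ
  · exact h φ f hφ hf h0
  · refine le_trans (le_of_eq ?_) (h _ f hφ hf h0)
    unfold mix
    rw [← lintegral_neg_eq_self]
    simp only [E, neg_mul, mul_neg]

theorem y_flat (p c : ℝ) (hp : 3 < p) (hc : 0 < c) :
    ∃ C : ℝ≥0∞, C ≠ ⊤ ∧ ∀ (φ ψ : ℝ → ℝ), Cu c φ → Cu c ψ → ∀ f g : ℝ → ℂ, Measurable f →
      Measurable g → ∫⁻ z, ‖ext φ ψ (fun q => f q.1 * g q.2) z‖ₑ ^ p ≤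
        C * ∫⁻ q in sq1, ‖f q.1 * g q.2‖ₑ ^ p := by
  obtain ⟨C, hC, h⟩ := y_mix p c hp hc
  have hp0 : 0 < p := by linarith
  refine ⟨C * C, ENNReal.mul_ne_top hC hC, fun φ ψ hφ hψ f g hf hg => ?_⟩
  have hf' := hf.indicator (measurableSet_Icc (a := (0 : ℝ)) (b := 1))
  have hg' := hg.indicator (measurableSet_Icc (a := (0 : ℝ)) (b := 1))
  have h1 := h φ _ hφ hf' fun ξ hξ => indicator_of_notMem hξ _
  have h2 := h ψ _ hψ hg' fun ξ hξ => indicator_of_notMem hξ _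
  rw [← mul_pow, lint_ind p hp0] at h1 h2
  have h3 := r_ten p _ _ _ _ hp0 (r_meas φ _ 0 hφ.diff hf').1.enorm
    (r_meas ψ _ 0 hψ.diff hg').1.enorm h1 h2
  rw [lint_ten p hp0 hf hg]
  refine le_trans (le_of_eq (lintegral_congr fun z => ?_)) (h3.trans (le_of_eq (by ring)))
  rw [ext_ten, enorm_mul]

/-- Twice the normalized Gaussian measure. -/
noncomputable def gau : Measure ℝ :=
  volume.withDensity fun s => ENNReal.ofReal (2 / Real.sqrt Real.pi * Real.exp (-1 * s ^ 2))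

theorem gau_fin : IsFiniteMeasure gau :=
  isFiniteMeasure_withDensity_ofReal
    ((integrable_exp_neg_mul_sq one_pos).const_mul (2 / Real.sqrt Real.pi)).2

theorem gau_sqrt (a b : ℝ) (ha : 0 ≤ a) (hb : 0 ≤ b) :
    ∫ s, ((if 0 < s then 1 + a else 1) * Real.exp (-a * s ^ 2)) *
      ((if 0 < s then 1 else b) * Real.exp (-b * s ^ 2)) ∂gau = Real.sqrt (1 + a + b) := by
  have hσ : 0 < 1 + a + b := by linarith
  have hi := integrable_exp_neg_mul_sq hσ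
  have hpi : 0 < Real.sqrt Real.pi := Real.sqrt_pos.2 Real.pi_pos
  rw [gau, integral_withDensity_eq_integral_toReal_smul (by fun_prop)
    (Filter.Eventually.of_forall fun _ => ENNReal.ofReal_lt_top)]
  have h1 : ∀ s : ℝ, (ENNReal.ofReal (2 / Real.sqrt Real.pi * Real.exp (-1 * s ^ 2))).toReal •
      (((if 0 < s then 1 + a else 1) * Real.exp (-a * s ^ 2)) *
        ((if 0 < s then 1 else b) * Real.exp (-b * s ^ 2))) =
      (Ioi (0 : ℝ)).indicator
        (fun s => 2 / Real.sqrt Real.pi * (1 + a) * Real.exp (-(1 + a + b) * s ^ 2)) s +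
      (Ioi (0 : ℝ))ᶜ.indicator
        (fun s => 2 / Real.sqrt Real.pi * b * Real.exp (-(1 + a + b) * s ^ 2)) s := by
    intro s
    have h2 : Real.exp (-(1 + a + b) * s ^ 2) =
        Real.exp (-1 * s ^ 2) * Real.exp (-a * s ^ 2) * Real.exp (-b * s ^ 2) := by
      rw [← Real.exp_add, ← Real.exp_add]
      congr 1
      ring
    rw [ENNReal.toReal_ofReal (by positivity), smul_eq_mul]
    by_cases h : 0 < s
    · rw [if_pos h, if_pos h, indicator_of_mem (show s ∈ Ioi (0 : ℝ) from h),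
        indicator_of_notMem (show s ∉ (Ioi (0 : ℝ))ᶜ from fun k => k h), h2]
      ring
    · rw [if_neg h, if_neg h, indicator_of_notMem (show s ∉ Ioi (0 : ℝ) from h),
        indicator_of_mem (show s ∈ (Ioi (0 : ℝ))ᶜ from h), h2]
      ring
  have h3 := integral_add_compl (measurableSet_Ioi (a := (0 : ℝ))) hi
  rw [integral_gaussian, integral_gaussian_Ioi] at h3
  simp only [h1]
  rw [integral_add ((hi.const_mul _).indicator measurableSet_Ioi)
    ((hi.const_mul _).indicator measurableSet_Ioi.compl), integral_indicator measurableSet_Ioi,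
    integral_indicator measurableSet_Ioi.compl, integral_const_mul, integral_const_mul,
    integral_gaussian_Ioi, show ∫ s in (Ioi (0 : ℝ))ᶜ, Real.exp (-(1 + a + b) * s ^ 2) =
      Real.sqrt (Real.pi / (1 + a + b)) / 2 by linarith, Real.sqrt_div Real.pi_pos.le]
  have h4 : 0 < Real.sqrt (1 + a + b) := Real.sqrt_pos.2 hσ
  have h5 := Real.mul_self_sqrt hσ.le
  field_simp
  nlinarith

end Vale.Agent.P122A
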