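import Vale.Agent.P122A.Fin2
import Vale.Agent.P122A.Sup2

/-! The estimate for the surface measure. -/

open MeasureTheory Set FourierTransform
open scoped ENNReal

namespace Vale.Agent.P122A

theorem fac_le {a s : ℝ} (ha : 0 ≤ a) (x : ℝ) (hx : 0 ≤ x) :
    0 ≤ x * Real.exp (-a * s ^ 2) ∧ x * Real.exp (-a * s ^ 2) ≤ x :=
  ⟨by positivity, mul_le_of_le_one_right hx (Real.exp_le_one_iff.2 (by nlinarith [sq_nonneg s]))⟩

theorem y_surf (p c : ℝ) (hp : 3 < p) (hc : 0 < c) (φ ψ : ℝ → ℝ) (hφ : Cu c φ) (hψ : Cu c ψ) :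
    ∃ C : ℝ≥0∞, C ≠ ⊤ ∧ ∀ (ν : Measure ℝ) (f g : ℝ → ℝ → ℂ) (F₀ : ℝ × ℝ → ℂ), IsFiniteMeasure ν →
      Measurable (Function.uncurry f) → Measurable (Function.uncurry g) → IntegrableOn F₀ sq1 →
      (∀ s, ∀ q ∈ sq1, ‖f s q.1 * g s q.2‖ ≤ ‖F₀ q‖) →
      ∫⁻ z, ‖ext φ ψ (fun q => (∫ s, f s q.1 * g s q.2 ∂ν) * jac φ ψ q) z‖ₑ ^ p ≤
        C * ν univ ^ p * ∫⁻ q in sq1, ‖F₀ q‖ₑ ^ p * ENNReal.ofReal (jac φ ψ q) := by
  obtain ⟨C, hC, h⟩ := y_flat p c hp hc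
  obtain ⟨M, hM, hM1⟩ := hφ.bdd hc
  obtain ⟨N, hN, hN1⟩ := hψ.bdd hc
  have hp0 : 0 < p := by linarith
  have hfin := gau_fin
  refine ⟨C * gau univ ^ p * ‖(((1 + M) * (1 + N) : ℝ) : ℂ)‖ₑ ^ p, ENNReal.mul_ne_top
    (ENNReal.mul_ne_top hC (ENNReal.rpow_ne_top_of_nonneg hp0.le (measure_ne_top _ _)))
    (ENNReal.rpow_ne_top_of_nonneg hp0.le enorm_ne_top), fun ν f g F₀ hν hf hg h0 hb => ?_⟩
  have d1 := measurable_deriv φ
  have d2 := measurable_deriv ψ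
  have ms : MeasurableSet {w : (ℝ × ℝ) × ℝ | 0 < w.1.2} := measurableSet_lt (by fun_prop) (by fun_prop)
  have m1 : Measurable (Function.uncurry fun (w : ℝ × ℝ) (ξ : ℝ) => f w.1 ξ *
      (((if 0 < w.2 then 1 + deriv φ ξ ^ 2 else 1) * Real.exp (-deriv φ ξ ^ 2 * w.2 ^ 2) : ℝ) : ℂ)) :=
    (hf.comp (f := fun w : (ℝ × ℝ) × ℝ => (w.1.1, w.2)) (by fun_prop)).mul
      (Complex.measurable_ofReal.comp ((Measurable.ite ms (by fun_prop) (by fun_prop)).mul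
        (by fun_prop)))
  have m2 : Measurable (Function.uncurry fun (w : ℝ × ℝ) (ξ : ℝ) => g w.1 ξ *
      (((if 0 < w.2 then 1 else deriv ψ ξ ^ 2) * Real.exp (-deriv ψ ξ ^ 2 * w.2 ^ 2) : ℝ) : ℂ)) :=
    (hg.comp (f := fun w : (ℝ × ℝ) × ℝ => (w.1.1, w.2)) (by fun_prop)).mul
      (Complex.measurable_ofReal.comp ((Measurable.ite ms (by fun_prop) (by fun_prop)).mul
        (by fun_prop)))
  have key := sup_gen p (by linarith) C φ ψ hφ.diff.continuous.measurable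
    hψ.diff.continuous.measurable (h φ ψ hφ hψ) (ν.prod gau) _ _
    (fun q => (((1 + M) * (1 + N) : ℝ) : ℂ) * F₀ q) m1 m2 (h0.const_mul _) (by
      intro w q hq
      have a1 := hM1 _ hq.1
      have a2 := hN1 _ hq.2
      have b1 := fac_le (s := w.2) (sq_nonneg (deriv φ q.1))
        (if 0 < w.2 then 1 + deriv φ q.1 ^ 2 else 1) (by positivity)
      have b2 := fac_le (s := w.2) (sq_nonneg (deriv ψ q.2))
        (if 0 < w.2 then 1 else deriv ψ q.2 ^ 2) (by positivity)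
      have c1 : (if 0 < w.2 then 1 + deriv φ q.1 ^ 2 else 1) ≤ 1 + M := by
        split_ifs <;> linarith
      have c2 : (if 0 < w.2 then 1 else deriv ψ q.2 ^ 2) ≤ 1 + N := by
        split_ifs <;> linarith
      rw [mul_mul_mul_comm, norm_mul, ← Complex.ofReal_mul, norm_mul (_ : ℂ) (F₀ q),
        Complex.norm_real, Complex.norm_real, Real.norm_of_nonneg (mul_nonneg b1.1 b2.1),
        Real.norm_of_nonneg (by positivity), mul_comm]
      exact mul_le_mul (mul_le_mul (b1.2.trans c1) (b2.2.trans c2) b2.1 (by positivity))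
        (hb _ q hq) (norm_nonneg _) (by positivity))
  refine le_trans (le_of_eq ?_) (key.trans ?_)
  · congr 1
    funext z
    congr 3
    funext q
    simp only [mul_mul_mul_comm (f _ q.1), ← Complex.ofReal_mul]
    rw [integral_prod_mul (fun s => f s q.1 * g s q.2) (fun r : ℝ =>
      ((((if 0 < r then 1 + deriv φ q.1 ^ 2 else 1) * Real.exp (-deriv φ q.1 ^ 2 * r ^ 2)) *
        ((if 0 < r then 1 else deriv ψ q.2 ^ 2) * Real.exp (-deriv ψ q.2 ^ 2 * r ^ 2)) : ℝ) : ℂ)),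
      integral_complex_ofReal, gau_sqrt _ _ (sq_nonneg _) (sq_nonneg _), jac]
  · have e1 : (ν.prod gau) univ ^ p = ν univ ^ p * gau univ ^ p := by
      rw [← univ_prod_univ, Measure.prod_prod, ENNReal.mul_rpow_of_nonneg _ _ hp0.le]
    have e2 : ∫⁻ q in sq1, ‖(((1 + M) * (1 + N) : ℝ) : ℂ) * F₀ q‖ₑ ^ p ≤
        ‖(((1 + M) * (1 + N) : ℝ) : ℂ)‖ₑ ^ p *
          ∫⁻ q in sq1, ‖F₀ q‖ₑ ^ p * ENNReal.ofReal (jac φ ψ q) := by
      rw [← lintegral_const_mul' _ _ (ENNReal.rpow_ne_top_of_nonneg hp0.le enorm_ne_top)]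
      refine lintegral_mono fun q => ?_
      rw [enorm_mul, ENNReal.mul_rpow_of_nonneg _ _ hp0.le]
      refine mul_le_mul_right (le_mul_of_one_le_right zero_le ?_) _
      rw [ENNReal.one_le_ofReal, jac]
      exact Real.one_le_sqrt.2 (by nlinarith [sq_nonneg (deriv φ q.1), sq_nonneg (deriv ψ q.2)])
    rw [e1]
    exact (mul_le_mul_right e2 _).trans (le_of_eq (by ring))

end Vale.Agent.P122A
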