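import Vale.Agent.P122A.Sob
import Vale.Agent.P122A.Fin3
import Vale.Agent.P122A.DFirst
import Vale.Agent.P122A.DSecond
import Vale.Agent.P122A.DVdc
import Vale.Agent.P122A.DL2
import Vale.Agent.P122A.DLp
import Vale.Agent.P122A.DMink
import Vale.Agent.P122A.DAbs
import Vale.Agent.P122A.DRep
import Vale.Agent.P122A.DWt
import Vale.Agent.P122A.DFub

/-! Assembly of the second part. -/

namespace Vale.Agent.P122A

theorem z_vdc : D_vdc := d_vdc (d_second d_first)

theorem z_abs : D_abs := d_abs d_mink

end Vale.Agent.P122A
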