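import Vale.Agent.P122A.Stm3

/-! Decomposition of a vector valued function by the size of its values. -/

open MeasureTheory Set FourierTransform
open scoped ENNReal

namespace Vale.Agent.P122A

namespace VDec

theorem fin {q : ℝ} {N : ℝ → ℝ≥0∞} (hq : 1 ≤ q) (h0 : ∀ ξ, ξ ∉ Icc (0 : ℝ) 1 → N ξ = 0)
    (h1 : ∫⁻ ξ, N ξ ^ q < ⊤) : ∫⁻ ξ, N ξ < ⊤ := by
  have b : ∀ ξ, N ξ ≤ (Icc (0 : ℝ) 1).indicator 1 ξ + N ξ ^ q := fun ξ => by
    by_cases h : ξ ∈ Icc (0 : ℝ) 1
    · rw [indicator_of_mem h, Pi.one_apply]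
      rcases le_total (N ξ) 1 with k | k
      · exact k.trans le_self_add
      · refine le_trans ?_ le_add_self
        simpa using ENNReal.rpow_le_rpow_of_exponent_le k hq
    · simp [h0 ξ h]
  refine (lintegral_mono b).trans_lt ?_
  rw [lintegral_add_left (measurable_one.indicator measurableSet_Icc),
    lintegral_indicator_one measurableSet_Icc]
  exact ENNReal.add_lt_top.2 ⟨measure_Icc_lt_top, h1⟩

theorem cheb {p : ℝ} {N : ℝ → ℝ≥0∞} (hp : 0 ≤ p) (hN : Measurable N)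
    (h1 : ∫⁻ ξ, N ξ ^ (p / 2) ≤ 1) (j : ℕ) :
    volume {ξ | ((2 : ℝ≥0∞) ^ j) ^ 2 ≤ N ξ} ≤ (2 : ℝ≥0∞) ^ (p * (1 - ((j + 1 : ℕ) : ℝ))) := by
  have h := (mul_meas_ge_le_lintegral₀ (μ := volume) (hN.pow_const (p / 2)).aemeasurable
    ((2 : ℝ≥0∞) ^ ((j : ℝ) * p))).trans h1
  have s : {ξ | ((2 : ℝ≥0∞) ^ j) ^ 2 ≤ N ξ} ⊆
      {ξ | (2 : ℝ≥0∞) ^ ((j : ℝ) * p) ≤ N ξ ^ (p / 2)} := by
    intro ξ hξ
    refine le_trans (le_of_eq ?_) (ENNReal.rpow_le_rpow hξ (by linarith : 0 ≤ p / 2))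
    rw [← pow_mul, ← ENNReal.rpow_natCast, ← ENNReal.rpow_mul]
    congr 1
    push_cast
    ring
  refine (measure_mono s).trans ?_
  have e : p * (1 - ((j + 1 : ℕ) : ℝ)) = -((j : ℝ) * p) := by push_cast; ring
  rw [e, ENNReal.rpow_neg]
  exact ENNReal.le_inv_iff_mul_le.2 (by rwa [mul_comm])

theorem en (j : ℕ) : ‖(2 : ℂ) ^ j‖ₑ = 2 ^ j := by
  rw [enorm_pow, ← ofReal_norm, Complex.norm_ofNat, ENNReal.ofReal_ofNat]

end VDec

theorem v_dec : V_meas → V_dec := by
  intro hm p g hp hg h0 h1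
  have mN : Measurable (NN g) :=
    (hm (fun _ => 0) (fun _ => 0) g 0 (differentiable_const _) measurable_const hg).2.2.2.2
  have fN : ∫⁻ ξ, NN g ξ < ⊤ := VDec.fin (q := p / 2) (by linarith)
    (fun ξ h => by simp [NN, h0 ξ h]) (h1.trans_lt ENNReal.one_lt_top)
  set B : ℕ → Set ℝ := fun j => Icc (0 : ℝ) 1 ∩ {ξ | NN g ξ ≤ (2 ^ j) ^ 2} with hB
  have mB : ∀ j, MeasurableSet (B j) := fun j =>
    measurableSet_Icc.inter (measurableSet_le mN measurable_const)
  have mono : Monotone B := fun i j hij ξ hξ =>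
    ⟨hξ.1, le_trans (show NN g ξ ≤ ((2 : ℝ≥0∞) ^ i) ^ 2 from hξ.2)
      (show ((2 : ℝ≥0∞) ^ i) ^ 2 ≤ (2 ^ j) ^ 2 from
        pow_le_pow_left' (pow_le_pow_right' one_le_two hij) 2)⟩
  have mA : ∀ j, MeasurableSet (disjointed B j) := fun j => MeasurableSet.disjointed mB j
  have hU : ∀ᵐ ξ : ℝ, ξ ∉ ⋃ j, disjointed B j → ξ ∉ Icc (0 : ℝ) 1 := by
    filter_upwards [ae_lt_top mN fN.ne] with ξ hξ n hI
    obtain ⟨j, hj⟩ := ENNReal.exists_nat_gt hξ.ne
    rw [iUnion_disjointed] at n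
    refine n (mem_iUnion.2 ⟨j, hI, hj.le.trans (le_trans ?_ (le_self_pow₀ (one_le_pow₀ one_le_two)
      two_ne_zero))⟩)
    exact_mod_cast (Nat.lt_two_pow_self (n := j)).le
  refine ⟨disjointed B, fun j ξ y => (Prod.fst ⁻¹' disjointed B j).indicator
    (fun q : ℝ × ℝ => g q.1 q.2 / 2 ^ j) (ξ, y), fun j => ?_, fun j => ?_, fun φ x t hφ => ?_⟩
  · refine ⟨mA j, fun ξ hξ => (disjointed_subset B j hξ).1,
      (hg.div_const _).indicator (measurable_fst (mA j)), fun ξ => ?_,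
      fun ξ hξ y => indicator_of_notMem (show (ξ, y) ∉ Prod.fst ⁻¹' disjointed B j from hξ) _⟩
    by_cases h : ξ ∈ disjointed B j
    · have t : ((2 : ℝ≥0∞) ^ j) ^ 2 ≠ ⊤ := by finiteness
      refine (ENNReal.mul_le_mul_iff_right (by positivity) t).1 ?_
      rw [mul_one, NN, ← lintegral_const_mul' _ _ t]
      refine le_trans (le_of_eq (lintegral_congr fun y => ?_)) (disjointed_subset B j h).2
      beta_reduce
      rw [indicator_of_mem (show (ξ, y) ∈ Prod.fst ⁻¹' disjointed B j from h), ← mul_pow,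
        ← VDec.en, ← enorm_mul, mul_div_cancel₀ _ (pow_ne_zero _ two_ne_zero)]
    · refine le_trans (le_of_eq ?_) zero_le_one
      rw [NN, ← lintegral_zero (μ := (volume : Measure ℝ))]
      refine lintegral_congr fun y => ?_
      beta_reduce
      rw [indicator_of_notMem (show (ξ, y) ∉ Prod.fst ⁻¹' disjointed B j from h)]
      simp
  · cases j with
    | zero =>
      refine (measure_mono fun ξ hξ => (disjointed_subset B 0 hξ).1).trans ?_
      rw [Real.volume_Icc, sub_zero, ENNReal.ofReal_one]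
      exact ENNReal.one_le_rpow (by norm_num) (by simp; linarith)
    | succ j =>
      refine le_trans (measure_mono fun ξ hξ => ?_) (VDec.cheb (by linarith) mN h1 j)
      rw [mono.disjointed_add_one] at hξ
      exact le_of_not_ge fun k : NN g ξ ≤ ((2 : ℝ≥0∞) ^ j) ^ 2 => hξ.2 ⟨hξ.1.1, k⟩
  · have hc : Continuous fun ξ => ee (x * ξ + t * φ ξ) := by
      have := hφ.continuous
      exact cont_ee.comp (by fun_prop)
    have m2 : Measurable fun q : ℝ × ℝ => ‖g q.1 q.2‖ₑ ^ 2 := hg.enorm.pow_const 2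
    have sw : ∫⁻ y, ∫⁻ ξ, ‖g ξ y‖ₑ ^ 2 < ⊤ := by
      rw [← lintegral_lintegral_swap m2.aemeasurable]
      exact fN
    filter_upwards [ae_lt_top m2.lintegral_prod_left' sw.ne] with y hy
    have my : Measurable fun ξ => g ξ y := hg.comp (measurable_id.prodMk measurable_const)
    have hI : Integrable fun ξ => g ξ y * ee (x * ξ + t * φ ξ) :=
      Integrable.mul_bdd ⟨my.aestronglyMeasurable, VDec.fin (q := 2) one_le_two
        (fun ξ h => by simp [h0 ξ h]) (by simpa only [ENNReal.rpow_two] using hy)⟩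
        hc.aestronglyMeasurable (Filter.Eventually.of_forall fun ξ => (norm_ee _).le)
    have hs := hasSum_integral_iUnion (μ := volume) mA (disjoint_disjointed B) hI.integrableOn
    rw [setIntegral_eq_integral_of_ae_compl_eq_zero
      (hU.mono fun ξ hξ n => by rw [h0 ξ (hξ n), zero_mul])] at hs
    unfold E
    rw [← hs.tsum_eq]
    refine enorm_tsum_le_tsum_enorm.trans (ENNReal.tsum_le_tsum fun j => le_of_eq ?_)
    have e : ∫ ξ in disjointed B j, g ξ y * ee (x * ξ + t * φ ξ) = (2 : ℂ) ^ j *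
        ∫ ξ, (Prod.fst ⁻¹' disjointed B j).indicator (fun q : ℝ × ℝ => g q.1 q.2 / 2 ^ j) (ξ, y) *
          ee (x * ξ + t * φ ξ) := by
      rw [← integral_const_mul, ← integral_indicator (mA j)]
      congr 1
      funext ξ
      by_cases h : ξ ∈ disjointed B j
      · rw [indicator_of_mem h,
          indicator_of_mem (show (ξ, y) ∈ Prod.fst ⁻¹' disjointed B j from h)]
        field_simp
      · rw [indicator_of_notMem h,
          indicator_of_notMem (show (ξ, y) ∉ Prod.fst ⁻¹' disjointed B j from h), zero_mul, mul_zero]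
    rw [e, enorm_mul, VDec.en]

end Vale.Agent.P122A
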