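import Vale.Agent.P122A.Stm3

/-! The distribution function of the bilinear form of a restricted kernel. -/

open MeasureTheory Set FourierTransform
open scoped ENNReal

namespace Vale.Agent.P122A

namespace VDist

theorem alg {c ε l m : ℝ} (hc : 0 < c) (hε : 0 < ε) (hl : 0 < l) (hm : 0 < m) :
    (l / (4 * m)) ^ (-ε) / (c * ε) * m / (l / 4) ^ 2 +
      (l / (4 * m)) ^ (-ε) / (c * ε) * m / (l / 4) ^ 2 =
      32 * 4 ^ ε / (c * ε) * m ^ (1 + ε) * l ^ (-(2 + ε)) := by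
  have h1 : 0 < l ^ ε := Real.rpow_pos_of_pos hl ε
  have h2 : 0 < m ^ ε := Real.rpow_pos_of_pos hm ε
  have h3 : 0 < (4 : ℝ) ^ ε := Real.rpow_pos_of_pos (by norm_num) ε
  rw [Real.rpow_neg (by positivity), Real.div_rpow hl.le (by positivity),
    Real.mul_rpow (by norm_num) hm.le, Real.rpow_neg hl.le, Real.rpow_add hm, Real.rpow_add hl,
    Real.rpow_one, Real.rpow_two]
  field_simp
  ring

theorem swap {A : Set ℝ} {h : ℝ × ℝ → ℂ} (hA : Ker A h) : Ker A (fun q => h q.swap) :=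
  ⟨hA.1, hA.2.1, hA.2.2.1.comp measurable_swap, fun _ => hA.2.2.2.1 _,
    fun _ hq => hA.2.2.2.2 _ hq.symm⟩

theorem neg (F : ℝ × ℝ → ℝ≥0∞) (hF : Measurable F) :
    ∫⁻ z : ℝ × ℝ, F (-z.1, -z.2) = ∫⁻ z, F z :=
  ((Measure.measurePreserving_neg (volume : Measure ℝ)).prod
    (Measure.measurePreserving_neg (volume : Measure ℝ))).lintegral_comp hF

theorem lev {a : ℝ} (ha : 0 ≤ a) {w : ℂ} (h : a ≤ ‖w‖) : ENNReal.ofReal (a ^ 2) ≤ ‖w‖ₑ ^ 2 := by
  rw [← ofReal_norm, ← ENNReal.ofReal_pow (norm_nonneg _)]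
  exact ENNReal.ofReal_le_ofReal (pow_le_pow_left₀ ha h 2)

end VDist

theorem v_dist : V_meas → V_g2 → V_near → V_dist := by
  intro hm hg hn c ε l φ A h hc hε l0 hφ hA
  have ht : volume A ≠ ⊤ := ne_top_of_le_ne_top measure_Icc_lt_top.ne (measure_mono hA.2.1)
  have hA' := VDist.swap hA
  rcases (ENNReal.toReal_nonneg (a := volume A)).eq_or_lt with m0 | m0
  · have a0 : volume A = 0 := ((ENNReal.toReal_eq_zero_iff _).1 m0.symm).resolve_right ht
    have a1 : (volume : Measure (ℝ × ℝ)) (A ×ˢ A) = 0 := by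
      rw [Measure.volume_eq_prod, Measure.prod_prod, a0, zero_mul]
    have a2 : ∀ᵐ q : ℝ × ℝ, h q = 0 := by
      refine measure_mono_null (fun q hq => ?_) a1
      by_contra hn'
      exact hq (hA.2.2.2.2 q (not_and_or.1 hn'))
    have : {z : ℝ × ℝ | l < ‖BB φ h z.1 z.2‖} = ∅ := by
      refine eq_empty_of_forall_notMem fun z hz => ?_
      have h3 : l < ‖BB φ h z.1 z.2‖ := hz
      have h4 : BB φ h z.1 z.2 = 0 := by
        refine integral_eq_zero_of_ae ?_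
        filter_upwards [a2] with q hq
        rw [hq, zero_mul]
        rfl
      rw [h4, norm_zero] at h3
      linarith
    rw [this, measure_empty]
    exact zero_le
  have d0 : 0 < l / (4 * (volume A).toReal) := by positivity
  have e : 2 * (l / (4 * (volume A).toReal)) * (volume A).toReal = l / 2 := by
    field_simp
    ring
  have al := VDist.alg hc hε l0 m0
  have g1 := hg c _ ε φ A h hc d0 hε hφ hA
  have g2 := hg c _ ε φ A _ hc d0 hε hφ hA'
  have n1 := fun x t => (hn _ φ A h x t d0 hφ.1 hA).2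
  generalize l / (4 * (volume A).toReal) = δ at d0 e al g1 g2 n1
  have m1 : Measurable (fun z : ℝ × ℝ => ‖BP φ h δ z.1 z.2‖ₑ ^ 2) :=
    (hm φ h (fun _ _ => 0) δ hφ.1 hA.2.2.1 measurable_const).2.1.enorm.pow_const 2
  have m2 : Measurable (fun z : ℝ × ℝ => ‖BP φ (fun q => h q.swap) δ z.1 z.2‖ₑ ^ 2) :=
    (hm φ _ (fun _ _ => 0) δ hφ.1 hA'.2.2.1 measurable_const).2.1.enorm.pow_const 2
  have m3 : Measurable (fun z : ℝ × ℝ => ‖BP φ (fun q => h q.swap) δ (-z.1) (-z.2)‖ₑ ^ 2) :=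
    m2.comp (f := fun z : ℝ × ℝ => (-z.1, -z.2)) (measurable_fst.neg.prodMk measurable_snd.neg)
  have g3 : ∫⁻ z : ℝ × ℝ, ‖BP φ (fun q => h q.swap) δ (-z.1) (-z.2)‖ₑ ^ 2 ≤
      ENNReal.ofReal (δ ^ (-ε) / (c * ε)) * volume A := (VDist.neg _ m2).le.trans g2
  have hs : {z : ℝ × ℝ | l < ‖BB φ h z.1 z.2‖} ⊆
      {z : ℝ × ℝ | ENNReal.ofReal ((l / 4) ^ 2) ≤ ‖BP φ h δ z.1 z.2‖ₑ ^ 2} ∪
      {z : ℝ × ℝ | ENNReal.ofReal ((l / 4) ^ 2) ≤
        ‖BP φ (fun q => h q.swap) δ (-z.1) (-z.2)‖ₑ ^ 2} := by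
    intro z hz
    have h3 : l < ‖BB φ h z.1 z.2‖ := hz
    have h4 := n1 z.1 z.2
    have h5 := norm_le_norm_sub_add (BB φ h z.1 z.2) (BP φ h δ z.1 z.2)
    have h6 := norm_le_norm_sub_add (BB φ h z.1 z.2 - BP φ h δ z.1 z.2)
      (BP φ (fun q => h q.swap) δ (-z.1) (-z.2))
    rcases le_total (l / 4) ‖BP φ h δ z.1 z.2‖ with k | k
    · exact Or.inl (VDist.lev (by positivity) k)
    · exact Or.inr (VDist.lev (by positivity) (by linarith))
  have q0 : 0 < (l / 4) ^ 2 := by positivity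
  have q1 := (ENNReal.ofReal_pos.2 q0).ne'
  have c1 := (meas_ge_le_lintegral_div (μ := volume) m1.aemeasurable q1
    ENNReal.ofReal_ne_top).trans (ENNReal.div_le_div_right g1 _)
  have c2 := (meas_ge_le_lintegral_div (μ := volume) m3.aemeasurable q1
    ENNReal.ofReal_ne_top).trans (ENNReal.div_le_div_right g3 _)
  refine (measure_mono hs).trans ((measure_union_le _ _).trans ((add_le_add c1 c2).trans
    (le_of_eq ?_)))
  rw [← al, ENNReal.ofReal_add (by positivity) (by positivity), ENNReal.ofReal_div_of_pos q0,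
    ENNReal.ofReal_mul (by positivity), ENNReal.ofReal_toReal ht]

end Vale.Agent.P122A
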