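import Vale.Agent.P122A.Stm3

open MeasureTheory Set FourierTransform
open scoped ENNReal

namespace Vale.Agent.P122A

theorem v_g2b : V_meas → V_rep → V_kt → V_g2 := by
  intro hmeas hrep hkt c δ ε φ A h hc hδ hε hφ hA
  obtain ⟨-, hG, hK, -⟩ := hmeas φ h (fun _ _ => 0) δ hφ.1 hA.2.2.1 measurable_const
  have mG : Measurable fun z : ℝ × ℝ => ‖BP φ h δ z.1 z.2‖ₑ ^ 2 := hG.enorm.pow_const 2
  have mK : Measurable fun z : ℝ × ℝ =>
      (Ioi δ).indicator (1 : ℝ → ℝ≥0∞) z.1 * ‖KK φ h z.1 z.2‖ₑ ^ 2 :=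
    ((measurable_one.indicator measurableSet_Ioi).comp measurable_fst).mul (hK.enorm.pow_const 2)
  have h1 : ∀ t : ℝ, ∫⁻ x, ‖BP φ h δ x t‖ₑ ^ 2 ≤
      ∫⁻ u, (Ioi δ).indicator (1 : ℝ → ℝ≥0∞) u * ‖KK φ h u t‖ₑ ^ 2 := by
    intro t
    obtain ⟨hi, he⟩ := hrep φ A h δ t hφ.1 hA
    simp_rw [he]
    refine (bes _ (hi.indicator measurableSet_Ioi)).trans (le_of_eq (lintegral_congr fun u => ?_))
    by_cases hu : u ∈ Ioi δ
    · simp only [indicator_of_mem hu, Pi.one_apply, one_mul]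
    · simp [indicator_of_notMem hu]
  have h2 : ∀ u, ∫⁻ t, (Ioi δ).indicator (1 : ℝ → ℝ≥0∞) u * ‖KK φ h u t‖ₑ ^ 2 ≤
      Log.g c δ ε u * volume A := by
    intro u
    by_cases hu : u ∈ Ioi δ
    · have hw : 0 < u := lt_trans hδ hu
      simp only [indicator_of_mem hu, Pi.one_apply, one_mul]
      refine (hkt c u φ A h hc hw hφ hA).trans (mul_le_mul_left ?_ _)
      unfold Log.g
      by_cases hm : u ∈ Ioc (0 : ℝ) 1
      · rw [indicator_of_mem hm, indicator_of_mem hm]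
        refine ENNReal.ofReal_le_ofReal ?_
        have h6 : δ ^ ε ≤ u ^ ε := Real.rpow_le_rpow hδ.le (le_of_lt hu) hε.le
        have h7 : 0 < δ ^ ε := Real.rpow_pos_of_pos hδ _
        rw [Real.rpow_neg hδ.le, Real.rpow_sub hw, Real.rpow_one]
        have h8 : (δ ^ ε)⁻¹ / c * (u ^ ε / u) = (u ^ ε / δ ^ ε) / (c * u) := by
          field_simp
        rw [h8]
        refine div_le_div_of_nonneg_right ?_ (mul_pos hc hw).le
        exact (one_le_div h7).2 h6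
      · rw [indicator_of_notMem hm]
        exact zero_le
    · simp [indicator_of_notMem hu]
  calc ∫⁻ z : ℝ × ℝ, ‖BP φ h δ z.1 z.2‖ₑ ^ 2
      = ∫⁻ t, ∫⁻ x, ‖BP φ h δ x t‖ₑ ^ 2 := by
        rw [Measure.volume_eq_prod, lintegral_prod_symm _ mG.aemeasurable]
    _ ≤ ∫⁻ t, ∫⁻ u, (Ioi δ).indicator (1 : ℝ → ℝ≥0∞) u * ‖KK φ h u t‖ₑ ^ 2 := lintegral_mono h1
    _ = ∫⁻ u, ∫⁻ t, (Ioi δ).indicator (1 : ℝ → ℝ≥0∞) u * ‖KK φ h u t‖ₑ ^ 2 :=
        (lintegral_lintegral_swap (f := fun u t =>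
          (Ioi δ).indicator (1 : ℝ → ℝ≥0∞) u * ‖KK φ h u t‖ₑ ^ 2) mK.aemeasurable).symm
    _ ≤ ∫⁻ u, Log.g c δ ε u * volume A := lintegral_mono h2
    _ = _ := by rw [lintegral_mul_const _ (Log.g_meas c δ ε), Log.g_int c δ ε hc hδ hε]

end Vale.Agent.P122A
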