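import Vale.Agent.P122A.Stm3

/-! Square bound in time for the kernel along a diagonal. -/

open MeasureTheory Set FourierTransform
open scoped ENNReal

namespace Vale.Agent.P122A

namespace VKt

theorem der {φ : ℝ → ℝ} (h : Differentiable ℝ φ) (u x : ℝ) :
    HasDerivAt (fun η => φ (η + u) - φ η) (deriv φ (x + u) - deriv φ x) x :=
  ((h (x + u)).hasDerivAt.comp_add_const x u).sub (h x).hasDerivAt

end VKt

theorem v_kt : V_kt := by
  intro c u φ A h hc hu hφ hf
  obtain ⟨hA, hA1, hm, hb, h0⟩ := hf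
  have hadd : Measurable fun η : ℝ => η + u := measurable_id.add_const u
  have hS : MeasurableSet {η : ℝ | η ∈ A ∧ η + u ∈ A} := hA.inter (hadd hA)
  have hcu : 0 < c * u := mul_pos hc hu
  have hv : ∀ x : ℝ, x ∈ Icc (0 : ℝ) 1 → x + u ∈ Icc (0 : ℝ) 1 →
      c * u ≤ deriv φ (x + u) - deriv φ x := by
    intro x h1 h2
    have h4 := hφ.2 x h1 (x + u) h2 (by linarith)
    rwa [add_sub_cancel_left] at h4
  have hD : Convex ℝ {η : ℝ | η ∈ Icc (0 : ℝ) 1 ∧ η + u ∈ Icc (0 : ℝ) 1} := by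
    refine Set.OrdConnected.convex ⟨fun x hx y hy z hz => ⟨⟨?_, ?_⟩, ⟨?_, ?_⟩⟩⟩
    · linarith [hx.1.1, hz.1]
    · linarith [hy.1.2, hz.2]
    · linarith [hx.2.1, hz.1]
    · linarith [hy.2.2, hz.2]
  have hmono := strictMonoOn_of_deriv_pos hD (f := fun η => φ (η + u) - φ η)
    (fun x _ => (VKt.der hφ.1 u x).continuousAt.continuousWithinAt) fun x hx => by
      obtain ⟨h1, h2⟩ := interior_subset hx
      rw [(VKt.der hφ.1 u x).deriv]
      exact hcu.trans_le (hv x h1 h2)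
  have hint : IntegrableOn (fun η => h (η + u, η)) {η : ℝ | η ∈ A ∧ η + u ∈ A} := by
    refine Measure.integrableOn_of_bounded (M := 1) ?_
      (hm.comp (hadd.prodMk measurable_id)).aestronglyMeasurable
      (Filter.Eventually.of_forall fun η => hb _)
    exact ((measure_mono fun ξ hξ => hA1 hξ.1).trans_lt measure_Icc_lt_top).ne
  have hSD : {η : ℝ | η ∈ A ∧ η + u ∈ A} ⊆
      {η : ℝ | η ∈ Icc (0 : ℝ) 1 ∧ η + u ∈ Icc (0 : ℝ) 1} :=
    fun ξ hξ => ⟨hA1 hξ.1, hA1 hξ.2⟩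
  have key := r_osc _ (fun η => φ (η + u) - φ η) (fun x => deriv φ (x + u) - deriv φ x)
    (fun η => h (η + u, η)) hS (fun x _ => (VKt.der hφ.1 u x).hasDerivWithinAt)
    (hmono.injOn.mono hSD)
    (fun x hx => (hcu.trans_le (hv x (hA1 hx.1) (hA1 hx.2))).ne') hint
  have e : ∀ t, KK φ h u t = ∫ η in {η : ℝ | η ∈ A ∧ η + u ∈ A},
      h (η + u, η) * ee (t * (φ (η + u) - φ η)) := by
    intro t
    refine (setIntegral_eq_integral_of_forall_compl_eq_zero fun η hη => ?_).symm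
    have h1 : h (η + u, η) = 0 := by
      refine h0 _ ?_
      by_cases h2 : η ∈ A
      · exact Or.inl fun h3 => hη ⟨h2, h3⟩
      · exact Or.inr h2
    rw [h1, zero_mul]
  simp only [e]
  refine key.trans ?_
  calc _ ≤ ∫⁻ _ in {η : ℝ | η ∈ A ∧ η + u ∈ A},
        (Ioc (0 : ℝ) 1).indicator (fun u => ENNReal.ofReal (1 / (c * u))) u := by
        refine setLIntegral_mono' hS fun x hx => ?_
        have h1 := hv x (hA1 hx.1) (hA1 hx.2)
        have h2 : ‖h (x + u, x)‖ₑ ^ 2 ≤ 1 := by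
          refine pow_le_one₀ zero_le ?_
          rw [← ofReal_norm]
          exact ENNReal.ofReal_le_one.2 (hb _)
        have h3 : u ∈ Ioc (0 : ℝ) 1 := ⟨hu, by linarith [(hA1 hx.1).1, (hA1 hx.2).2]⟩
        rw [indicator_of_mem h3, ENNReal.ofReal_div_of_pos hcu, ENNReal.ofReal_one]
        exact ENNReal.div_le_div h2 (ENNReal.ofReal_le_ofReal (h1.trans (le_abs_self _)))
    _ ≤ _ := by
        rw [setLIntegral_const]
        exact mul_le_mul' le_rfl (measure_mono fun η hη => hη.1)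

end Vale.Agent.P122A
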