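import Vale.Agent.P122A.Stm3

open MeasureTheory Set FourierTransform
open scoped ENNReal

namespace Vale.Agent.P122A

namespace VL2

theorem nrm (a : ℂ) (s : ℝ) : ‖a * ee s‖ = ‖a‖ := by rw [norm_mul, norm_ee, mul_one]

theorem one {φ : ℝ → ℝ} (hφ : Continuous φ) {f : ℝ → ℂ} (hf : Measurable f) (t : ℝ) :
    ∫⁻ x, ‖E φ f x t‖ₑ ^ 2 ≤ ∫⁻ ξ, ‖f ξ‖ₑ ^ 2 := by
  by_cases hi : Integrable f
  · have hm : Measurable fun ξ => f ξ * ee (t * φ ξ) :=
      hf.mul (cont_ee.comp (continuous_const.mul hφ)).measurable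
    have hk : Integrable fun ξ => f ξ * ee (t * φ ξ) :=
      hi.mono hm.aestronglyMeasurable (ae_of_all _ fun ξ => (nrm _ _).le)
    refine le_trans (le_of_eq ?_) ((bes _ hk).trans (le_of_eq ?_))
    · refine lintegral_congr fun x => ?_
      have h : E φ f x t = ∫ ξ, f ξ * ee (t * φ ξ) * ee (x * ξ) := by
        refine integral_congr_ae (ae_of_all _ fun ξ => ?_)
        simp only [ee_add]
        ring
      rw [h]
    · refine lintegral_congr fun ξ => ?_
      rw [← ofReal_norm_eq_enorm, nrm, ofReal_norm_eq_enorm]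
  · have h : ∀ x, E φ f x t = 0 := fun x => integral_undef fun hI =>
      hi (hI.mono hf.aestronglyMeasurable (ae_of_all _ fun ξ => (nrm _ _).ge))
    simp [h]

end VL2

theorem v_l2 : V_meas → V_l2 := by
  intro _ φ A g t hφ hg
  obtain ⟨hA, -, hm, h1, h0⟩ := hg
  have c := hφ.continuous
  have m1 : Measurable fun w : (ℝ × ℝ) × ℝ => g w.2 w.1.2 * ee (w.1.1 * w.2 + t * φ w.2) :=
    (hm.comp (measurable_snd.prodMk measurable_fst.snd)).mul
      (cont_ee.measurable.comp ((measurable_fst.fst.mul measurable_snd).add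
        (measurable_const.mul (c.measurable.comp measurable_snd))))
  have m2 : Measurable fun z : ℝ × ℝ => E φ (fun ξ => g ξ z.2) z.1 t :=
    (m1.stronglyMeasurable.integral_prod_right' (ν := volume)).measurable
  have m3 : Measurable fun z : ℝ × ℝ => ‖g z.1 z.2‖ₑ ^ 2 := hm.enorm.pow_const 2
  unfold SS
  rw [lintegral_lintegral_swap (m2.enorm.pow_const 2).aemeasurable]
  refine (lintegral_mono fun y => VL2.one c (hm.comp (measurable_id.prodMk measurable_const))
    t).trans ?_
  refine le_trans (le_of_eq (lintegral_lintegral_swap m3.aemeasurable).symm) ?_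
  rw [← lintegral_indicator_one hA]
  refine lintegral_mono fun ξ => ?_
  by_cases h : ξ ∈ A
  · rw [indicator_of_mem h]
    exact h1 ξ
  · simp [h0 ξ h]

end Vale.Agent.P122A
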