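import Vale.Agent.P122A.Stm3

/-! Joint measurability, vector valued version. -/

open MeasureTheory Set FourierTransform
open scoped ENNReal

namespace Vale.Agent.P122A

namespace VMeas

theorem par {X Y : Type*} [MeasurableSpace X] [MeasurableSpace Y] (ν : Measure Y) [SFinite ν]
    {F : X × Y → ℂ} (hF : Measurable F) : Measurable fun z => ∫ y, F (z, y) ∂ν :=
  (hF.stronglyMeasurable.integral_prod_right' (ν := ν)).measurable

end VMeas

open VMeas in
theorem v_meas : V_meas := by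
  intro φ h g δ hφ hh hg
  have m := hφ.continuous.measurable
  have e := cont_ee.measurable
  refine ⟨?_, ?_, ?_, ?_, ?_⟩
  · exact par volume (F := fun w : (ℝ × ℝ) × (ℝ × ℝ) => h w.2 *
      ee (w.1.1 * (w.2.1 - w.2.2) + w.1.2 * (φ w.2.1 - φ w.2.2))) (by fun_prop)
  · exact par (volume.restrict {q : ℝ × ℝ | δ < q.1 - q.2})
      (F := fun w : (ℝ × ℝ) × (ℝ × ℝ) => h w.2 *
        ee (w.1.1 * (w.2.1 - w.2.2) + w.1.2 * (φ w.2.1 - φ w.2.2))) (by fun_prop)
  · exact par volume (F := fun w : (ℝ × ℝ) × ℝ => h (w.2 + w.1.1, w.2) *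
      ee (w.1.2 * (φ (w.2 + w.1.1) - φ w.2))) (by fun_prop)
  · have a : Measurable fun w : ((ℝ × ℝ) × ℝ) × ℝ => Function.uncurry g (w.2, w.1.2) :=
      hg.comp (by fun_prop)
    have k := par volume (F := fun w : ((ℝ × ℝ) × ℝ) × ℝ => Function.uncurry g (w.2, w.1.2) *
      ee (w.1.1.1 * w.2 + w.1.1.2 * φ w.2)) (a.mul (by fun_prop))
    exact Measurable.lintegral_prod_right' (ν := volume)
      (f := fun w : (ℝ × ℝ) × ℝ => ‖E φ (fun ξ => g ξ w.2) w.1.1 w.1.2‖ₑ ^ 2) (k.enorm.pow_const 2)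
  · exact Measurable.lintegral_prod_right' (ν := volume)
      (f := fun w : ℝ × ℝ => ‖Function.uncurry g w‖ₑ ^ 2) (hg.enorm.pow_const 2)

end Vale.Agent.P122A
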