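import Vale.Agent.P122A.Stm3

/-! Removal of the normalization, vector valued version. -/

open MeasureTheory Set FourierTransform
open scoped ENNReal

namespace Vale.Agent.P122A

namespace VMix

theorem nn_mul (a : ℂ) (g : ℝ → ℝ → ℂ) (ξ : ℝ) :
    NN (fun ξ y => a * g ξ y) ξ = ‖a‖ₑ ^ 2 * NN g ξ := by
  unfold NN
  simp only [enorm_mul, mul_pow]
  exact lintegral_const_mul' _ _ (ENNReal.pow_ne_top enorm_ne_top)

theorem ss_mul (φ : ℝ → ℝ) (a : ℂ) (g : ℝ → ℝ → ℂ) (x t : ℝ) :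
    SS φ (fun ξ y => a * g ξ y) x t = ‖a‖ₑ ^ 2 * SS φ g x t := by
  unfold SS
  simp only [Mix.e_mul, enorm_mul, mul_pow]
  exact lintegral_const_mul' _ _ (ENNReal.pow_ne_top enorm_ne_top)

theorem sq_rpow (σ : ℝ≥0∞) (r : ℝ) : (σ ^ 2) ^ (r / 2) = σ ^ r := by
  rw [← ENNReal.rpow_two, ← ENNReal.rpow_mul, mul_div_cancel₀ _ two_ne_zero]

theorem ss_zero (φ : ℝ → ℝ) (g : ℝ → ℝ → ℂ) (hg : Measurable (Function.uncurry g))
    (h : ∀ᵐ ξ : ℝ, NN g ξ = 0) (x t : ℝ) : SS φ g x t = 0 := by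
  have hm : Measurable (Function.uncurry fun ξ y => ‖g ξ y‖ₑ ^ 2) := hg.enorm.pow_const 2
  have h1 : ∫⁻ y, ∫⁻ ξ, ‖g ξ y‖ₑ ^ 2 = 0 := by
    rw [← lintegral_lintegral_swap hm.aemeasurable]
    exact (lintegral_congr_ae h).trans lintegral_zero
  have h2 := (lintegral_eq_zero_iff hm.lintegral_prod_left).1 h1
  refine (lintegral_congr_ae ?_).trans lintegral_zero
  filter_upwards [h2] with y hy
  have h3 := (lintegral_eq_zero_iff hm.of_uncurry_right).1 hy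
  have h4 : E φ (fun ξ => g ξ y) x t = 0 := integral_eq_zero_of_ae (by
    filter_upwards [h3] with ξ hξ
    have h5 : g ξ y = 0 := by simpa using hξ
    simp [h5])
  simp [h4]

end VMix

theorem v_mix : V_meas → V_one → V_mix := by
  intro hm h p c hp hc
  obtain ⟨C, hC, h⟩ := h p c hp hc
  have hp0 : 0 < p := by linarith
  have hp2 : 0 < p / 2 := by linarith
  refine ⟨C + 1, ENNReal.add_ne_top.2 ⟨hC, ENNReal.one_ne_top⟩, fun φ g hφ hg hs => ?_⟩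
  have mN : Measurable (NN g) := (hm φ (fun _ => 0) g 0 hφ.1 measurable_const hg).2.2.2.2
  obtain ⟨N, hN⟩ : ∃ N, N = ∫⁻ ξ, NN g ξ ^ (p / 2) := ⟨_, rfl⟩
  rw [← hN]
  rcases eq_or_ne N 0 with h0 | h0
  · have k : ∀ᵐ ξ : ℝ, NN g ξ = 0 := by
      filter_upwards [(lintegral_eq_zero_iff (mN.pow_const (p / 2))).1 (hN.symm.trans h0)] with ξ hξ
      simpa [hp2, hp2.not_gt] using hξ
    simp [mix, VMix.ss_zero φ g hg k, hp0]
  rcases eq_or_ne N ⊤ with h1 | h1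
  · simp [h1]
  obtain ⟨a, ha⟩ : ∃ a : ℂ, ‖a‖ₑ ^ p = N := by
    refine ⟨((N.toReal ^ (1 / p) : ℝ) : ℂ), ?_⟩
    rw [← ofReal_norm, Complex.norm_real, Real.norm_of_nonneg (by positivity),
      ENNReal.ofReal_rpow_of_nonneg (by positivity) hp0.le, ← Real.rpow_mul ENNReal.toReal_nonneg,
      one_div_mul_cancel hp0.ne', Real.rpow_one, ENNReal.ofReal_toReal h1]
  have ha0 : a ≠ 0 := fun k => h0 (by rw [← ha, k]; simp [hp0])
  have h2 := h φ (fun ξ y => a⁻¹ * g ξ y) hφ (hg.const_mul _)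
    (fun ξ hξ y => by simp [hs ξ hξ y]) (by
    simp only [VMix.nn_mul, ENNReal.mul_rpow_of_nonneg _ _ hp2.le, VMix.sq_rpow]
    rw [lintegral_const_mul _ (mN.pow_const (p / 2)), ← hN, enorm_inv ha0, ENNReal.inv_rpow, ha,
      ENNReal.inv_mul_cancel h0 h1])
  have h3 : (fun x t => SS φ g x t ^ (1 / 2 : ℝ)) =
      fun x t => ‖a‖ₑ * SS φ (fun ξ y => a⁻¹ * g ξ y) x t ^ (1 / 2 : ℝ) := by
    funext x t
    have e1 := VMix.ss_mul φ a (fun ξ y => a⁻¹ * g ξ y) x t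
    simp only [mul_inv_cancel_left₀ ha0] at e1
    rw [e1, ENNReal.mul_rpow_of_nonneg _ _ (by norm_num), VMix.sq_rpow, ENNReal.rpow_one]
  rw [h3, Mix.mix_mul p hp0.le _ enorm_ne_top, ha, mul_comm]
  have h4 : C + 1 ≤ (C + 1) ^ 2 := le_self_pow le_add_self two_ne_zero
  exact mul_le_mul_left (h2.trans (le_self_add.trans h4)) _

end Vale.Agent.P122A
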