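import Vale.Agent.P122A.Stm3

/-! Minkowski inequality in the square norm for series. -/

open MeasureTheory Set FourierTransform
open scoped ENNReal

namespace Vale.Agent.P122A

namespace VMk

theorem fin (a : ℕ → ℝ → ℝ≥0∞) (ha : ∀ j, Measurable (a j)) (n : ℕ) :
    (∫⁻ y, (∑ j ∈ Finset.range n, a j y) ^ 2) ^ (1 / 2 : ℝ) ≤
      ∑ j ∈ Finset.range n, (∫⁻ y, a j y ^ 2) ^ (1 / 2 : ℝ) := by
  induction n with
  | zero => simp
  | succ n ih =>
    have h1 : Measurable fun y => ∑ j ∈ Finset.range n, a j y :=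
      Finset.measurable_sum _ fun j _ => ha j
    have h2 := ENNReal.lintegral_Lp_add_le (μ := (volume : Measure ℝ)) (p := 2)
      h1.aemeasurable (ha n).aemeasurable (by norm_num)
    simp only [Pi.add_apply, ENNReal.rpow_two] at h2
    simp only [Finset.sum_range_succ]
    exact h2.trans (add_le_add ih le_rfl)

theorem main (a : ℕ → ℝ → ℝ≥0∞) (ha : ∀ j, Measurable (a j)) :
    (∫⁻ y, (∑' j, a j y) ^ 2) ^ (1 / 2 : ℝ) ≤ ∑' j, (∫⁻ y, a j y ^ 2) ^ (1 / 2 : ℝ) := by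
  have h1 : ∀ y, (∑' j, a j y) ^ 2 = ⨆ n : ℕ, (∑ j ∈ Finset.range n, a j y) ^ 2 := fun y => by
    rw [ENNReal.tsum_eq_iSup_nat, ENNReal.iSup_pow]
  have h2 : ∀ n : ℕ, Measurable fun y => (∑ j ∈ Finset.range n, a j y) ^ 2 := fun n =>
    (Finset.measurable_sum _ fun j _ => ha j).pow_const 2
  have h3 : Monotone fun (n : ℕ) (y : ℝ) => (∑ j ∈ Finset.range n, a j y) ^ 2 := by
    intro n m hnm y
    exact pow_le_pow_left' (Finset.sum_le_sum_of_subset (Finset.range_mono hnm)) 2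
  simp only [h1]
  rw [lintegral_iSup h2 h3]
  have h4 : ∀ n : ℕ, ∫⁻ y, (∑ j ∈ Finset.range n, a j y) ^ 2 ≤
      (∑' j, (∫⁻ y, a j y ^ 2) ^ (1 / 2 : ℝ)) ^ (2 : ℝ) := fun n => by
    have h5 := (fin a ha n).trans (ENNReal.sum_le_tsum _)
    have h6 := ENNReal.rpow_le_rpow h5 (show (0 : ℝ) ≤ 2 by norm_num)
    rwa [← ENNReal.rpow_mul, show (1 / 2 : ℝ) * 2 = 1 by norm_num, ENNReal.rpow_one] at h6
  have h7 := ENNReal.rpow_le_rpow (iSup_le h4) (show (0 : ℝ) ≤ 1 / 2 by norm_num)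
  rwa [← ENNReal.rpow_mul, show (2 : ℝ) * (1 / 2) = 1 by norm_num, ENNReal.rpow_one] at h7

end VMk

theorem v_mk : V_mk := fun a ha => VMk.main a ha

end Vale.Agent.P122A
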