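import Vale.Agent.P122A.Stm3

/-! The part of the square near the diagonal, vector valued version. -/

open MeasureTheory Set FourierTransform
open scoped ENNReal

namespace Vale.Agent.P122A

namespace VNear

theorem key (F : ℝ × ℝ → ℂ) (A : Set ℝ) (δ : ℝ) (hδ : 0 < δ) (hA : MeasurableSet A)
    (hs : A ⊆ Icc 0 1) (hF : Measurable F) (h1 : ∀ q, ‖F q‖ ≤ 1)
    (h0 : ∀ q : ℝ × ℝ, (q.1 ∉ A ∨ q.2 ∉ A) → F q = 0) : ‖∫ q, F q‖ ≤ 1 ∧
    ‖(∫ q, F q) - (∫ q in {q : ℝ × ℝ | δ < q.1 - q.2}, F q) -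
      ∫ q in {q : ℝ × ℝ | δ < q.1 - q.2}, F q.swap‖ ≤ 2 * δ * (volume A).toReal := by
  have a1 : volume A ≤ 1 := (measure_mono hs).trans (by simp)
  have hA1 : volume A ≠ ⊤ := ne_top_of_le_ne_top ENNReal.one_ne_top a1
  have v2 : volume (A ×ˢ A) ≤ 1 := by
    rw [Measure.volume_eq_prod, Measure.prod_prod]
    exact mul_le_one' a1 a1
  have f2 : volume (A ×ˢ A) < ⊤ := v2.trans_lt ENNReal.one_lt_top
  have z : ∀ q, q ∉ A ×ˢ A → F q = 0 := fun q hq => h0 q (not_and_or.1 hq)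
  have Fi : Integrable F := by
    refine Integrable.mono' (g := (A ×ˢ A).indicator fun _ => (1 : ℝ))
      ((integrable_indicator_iff (hA.prod hA)).2 (integrableOn_const f2.ne))
      hF.aestronglyMeasurable (ae_of_all _ fun q => ?_)
    by_cases hx : q ∈ A ×ˢ A
    · rw [indicator_of_mem hx]
      exact h1 q
    · rw [indicator_of_notMem hx, z q hx, norm_zero]
  constructor
  · rw [← setIntegral_eq_integral_of_forall_compl_eq_zero z]
    refine (norm_setIntegral_le_of_norm_le_const (C := 1) f2 fun q _ => h1 q).trans ?_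
    rw [one_mul]
    exact ENNReal.toReal_le_of_le_ofReal zero_le_one (by simpa using v2)
  have mP : MeasurableSet {q : ℝ × ℝ | δ < q.1 - q.2} :=
    measurableSet_lt measurable_const (measurable_fst.sub measurable_snd)
  have mQ : MeasurableSet {q : ℝ × ℝ | δ < q.2 - q.1} :=
    measurableSet_lt measurable_const (measurable_snd.sub measurable_fst)
  have mR : MeasurableSet {q : ℝ × ℝ | |q.1 - q.2| ≤ δ} :=
    measurableSet_le (measurable_fst.sub measurable_snd).abs measurable_const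
  have c : {q : ℝ × ℝ | δ < q.1 - q.2}ᶜ =
      {q : ℝ × ℝ | δ < q.2 - q.1} ∪ {q : ℝ × ℝ | |q.1 - q.2| ≤ δ} := by
    ext q
    simp only [mem_compl_iff, mem_ofPred_eq, mem_union, not_lt, abs_le]
    constructor
    · intro h
      by_cases k : δ < q.2 - q.1
      · exact Or.inl k
      · exact Or.inr ⟨by linarith [not_lt.1 k], h⟩
    · rintro (h | h)
      · linarith
      · exact h.2
  have d : Disjoint {q : ℝ × ℝ | δ < q.2 - q.1} {q : ℝ × ℝ | |q.1 - q.2| ≤ δ} := by
    rw [Set.disjoint_left]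
    intro q a b
    have a' : δ < q.2 - q.1 := a
    have b' := (abs_le.1 (show |q.1 - q.2| ≤ δ from b)).1
    linarith
  have e2 := integral_add_compl mP Fi
  rw [c, setIntegral_union d mR Fi.integrableOn Fi.integrableOn] at e2
  have e3 : ∫ q in {q : ℝ × ℝ | δ < q.2 - q.1}, F q =
      ∫ q in {q : ℝ × ℝ | δ < q.1 - q.2}, F q.swap := by
    rw [← integral_indicator mQ, ← integral_indicator mP, Measure.volume_eq_prod,
      ← integral_prod_swap]
    refine integral_congr_ae (ae_of_all _ fun q => ?_)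
    simp only [indicator, mem_ofPred_eq, Prod.fst_swap, Prod.snd_swap]
  obtain ⟨mS, vS⟩ := Near.strip A δ hA
  have e4 : ∫ q in {q : ℝ × ℝ | |q.1 - q.2| ≤ δ}, F q =
      ∫ q in {q : ℝ × ℝ | q.1 ∈ A ∧ |q.1 - q.2| ≤ δ}, F q :=
    setIntegral_eq_of_subset_of_forall_sdiff_eq_zero mR (fun q h => h.2) fun q h =>
      h0 q (Or.inl fun k => h.2 ⟨k, h.1⟩)
  have e5 : (∫ q, F q) - (∫ q in {q : ℝ × ℝ | δ < q.1 - q.2}, F q) -
      ∫ q in {q : ℝ × ℝ | δ < q.1 - q.2}, F q.swap =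
      ∫ q in {q : ℝ × ℝ | q.1 ∈ A ∧ |q.1 - q.2| ≤ δ}, F q := by
    rw [← e2, e3, e4]
    ring
  rw [e5]
  have fin : volume {q : ℝ × ℝ | q.1 ∈ A ∧ |q.1 - q.2| ≤ δ} < ⊤ := by
    rw [vS]
    exact ENNReal.mul_lt_top ENNReal.ofReal_lt_top hA1.lt_top
  refine (norm_setIntegral_le_of_norm_le_const (C := 1) fin fun q _ => h1 q).trans ?_
  rw [one_mul, Measure.real, vS, ENNReal.toReal_mul, ENNReal.toReal_ofReal (by linarith)]

end VNear

theorem v_near : V_near := by
  intro δ φ A h x t hδ hφ ⟨hA, hs, hf, h1, h0⟩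
  have mφ := hφ.continuous.measurable
  have mg : Measurable fun q : ℝ × ℝ => h q * ee (x * (q.1 - q.2) + t * (φ q.1 - φ q.2)) :=
    hf.mul (cont_ee.measurable.comp (by fun_prop))
  have k := VNear.key (fun q => h q * ee (x * (q.1 - q.2) + t * (φ q.1 - φ q.2))) A δ hδ hA hs mg
    (fun q => by rw [norm_mul, norm_ee, mul_one]; exact h1 q)
    (fun q hq => by rw [h0 q hq, zero_mul])
  have e : BP φ (fun q => h q.swap) δ (-x) (-t) = ∫ q in {q : ℝ × ℝ | δ < q.1 - q.2},
      h q.swap * ee (x * (q.swap.1 - q.swap.2) + t * (φ q.swap.1 - φ q.swap.2)) := by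
    unfold BP
    refine integral_congr_ae (ae_of_all _ fun q => ?_)
    have : -x * (q.1 - q.2) + -t * (φ q.1 - φ q.2) =
        x * (q.2 - q.1) + t * (φ q.2 - φ q.1) := by ring
    simp only [this, Prod.fst_swap, Prod.snd_swap]
  rw [e]
  exact k

end Vale.Agent.P122A
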