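import Vale.Agent.P122A.Stm3

/-! Dyadic summation, vector valued version. -/

open MeasureTheory Set FourierTransform
open scoped ENNReal

namespace Vale.Agent.P122A

namespace VOne

theorem measE (φ : ℝ → ℝ) (g : ℝ → ℝ → ℂ) (x t : ℝ) (hφ : Differentiable ℝ φ)
    (hg : Measurable (Function.uncurry g)) : Measurable (fun y => E φ (fun ξ => g ξ y) x t) := by
  have hc : Continuous (fun ξ : ℝ => ee (x * ξ + t * φ ξ)) :=
    cont_ee.comp ((continuous_const.mul continuous_id).add (continuous_const.mul hφ.continuous))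
  have h1 : Measurable (fun q : ℝ × ℝ => g q.1 q.2 * ee (x * q.1 + t * φ q.1)) :=
    hg.mul (hc.measurable.comp measurable_fst)
  exact (h1.stronglyMeasurable.integral_prod_left' (μ := volume)).measurable

theorem half (a S : ℝ≥0∞) : (a ^ 2 * S) ^ (1 / 2 : ℝ) = a * S ^ (1 / 2 : ℝ) := by
  rw [ENNReal.mul_rpow_of_nonneg _ _ (by norm_num), ← ENNReal.rpow_natCast, ← ENNReal.rpow_mul]
  norm_num

end VOne

theorem v_one : V_meas → V_res → V_mk → V_dec → V_one := by
  intro hm hr hk hd p c hp hc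
  obtain ⟨C0, c0, h0⟩ := hr p c hp hc
  have pe : 0 < p * ((p - 3) / 2) := mul_pos (by linarith) (by linarith)
  obtain ⟨C1, c1, h1⟩ := r_sum r_hol p ((2 : ℝ) ^ (-(p * ((p - 3) / 2)))) (by linarith)
    (Real.rpow_pos_of_pos (by norm_num) _)
    (Real.rpow_lt_one_of_one_lt_of_neg (by norm_num) (by linarith))
  refine ⟨C1 * (C0 * (2 : ℝ≥0∞) ^ (p * (2 + (p - 3) / 2))), ENNReal.mul_ne_top c1
    (ENNReal.mul_ne_top c0 (ENNReal.rpow_ne_top_of_ne_zero two_ne_zero ENNReal.ofNat_ne_top)), ?_⟩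
  intro φ g hφ hg h01 hn
  obtain ⟨A, k, hA, hv, hE⟩ := hd p g (by linarith) hg h01 hn
  refine h1 _ (fun j x t => (2 : ℝ≥0∞) ^ j * SS φ (k j) x t ^ (1 / 2 : ℝ)) _ (fun j => ?_)
    (fun x t => ?_) fun j => ?_
  · exact ((hm φ (fun _ => 0) (k j) 0 hφ.1 measurable_const
      (hA j).2.2.1).2.2.2.1.pow_const _).const_mul _
  · have hb : SS φ g x t ≤
        ∫⁻ y, (∑' j : ℕ, (2 : ℝ≥0∞) ^ j * ‖E φ (fun ξ => k j ξ y) x t‖ₑ) ^ 2 := by
      refine lintegral_mono_ae ?_
      filter_upwards [hE φ x t hφ.1] with y hy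
      exact pow_le_pow_left' hy 2
    refine (ENNReal.rpow_le_rpow hb (by norm_num)).trans ?_
    refine (hk (fun j y => (2 : ℝ≥0∞) ^ j * ‖E φ (fun ξ => k j ξ y) x t‖ₑ) (fun j =>
      (VOne.measE φ (k j) x t hφ.1 (hA j).2.2.1).enorm.const_mul _)).trans (le_of_eq ?_)
    refine tsum_congr fun j => ?_
    simp only [mul_pow]
    rw [lintegral_const_mul' _ _ (ENNReal.pow_ne_top (ENNReal.pow_ne_top ENNReal.ofNat_ne_top)),
      VOne.half]
    rfl
  · rw [One.mix_mul p (by linarith) _ (ENNReal.pow_ne_top ENNReal.ofNat_ne_top), mul_assoc,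
      ← One.num, mul_left_comm]
    refine mul_le_mul_right ((h0 φ (A j) (k j) hφ (hA j)).trans ?_) _
    exact mul_le_mul_right (ENNReal.rpow_le_rpow (hv j) (by linarith)) _

end Vale.Agent.P122A
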