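import Vale.Agent.P122A.Stm3

open MeasureTheory Set FourierTransform
open scoped ENNReal

namespace Vale.Agent.P122A

namespace VRep

noncomputable def H (φ : ℝ → ℝ) (h : ℝ × ℝ → ℂ) (x t : ℝ) (q : ℝ × ℝ) : ℂ :=
  h q * ee (x * (q.1 - q.2) + t * (φ q.1 - φ q.2))

theorem mS (δ : ℝ) : MeasurableSet {q : ℝ × ℝ | δ < q.1 - q.2} :=
  measurableSet_lt measurable_const (measurable_fst.sub measurable_snd)

theorem inth {A : Set ℝ} {h : ℝ × ℝ → ℂ} (hk : Ker A h) : Integrable h (volume.prod volume) := by
  obtain ⟨_, h2, h3, h4, h5⟩ := hk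
  have h6 : IntegrableOn h (Icc 0 1 ×ˢ Icc 0 1) (volume.prod volume) :=
    Measure.integrableOn_of_bounded (M := 1) (isCompact_Icc.prod isCompact_Icc).measure_lt_top.ne
      h3.aestronglyMeasurable
      (Filter.Eventually.of_forall h4)
  have h7 : Function.support h ⊆ Icc (0 : ℝ) 1 ×ˢ Icc (0 : ℝ) 1 := fun q hq =>
    mem_prod.2 ⟨h2 (by_contra fun hn => hq (h5 q (Or.inl hn))),
      h2 (by_contra fun hn => hq (h5 q (Or.inr hn)))⟩
  exact (integrableOn_iff_integrable_of_support_subset h7).mp h6

theorem intH {φ : ℝ → ℝ} {A : Set ℝ} {h : ℝ × ℝ → ℂ} (x t : ℝ) (hφ : Differentiable ℝ φ)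
    (hk : Ker A h) : Integrable (H φ h x t) (volume.prod volume) := by
  have hc := hφ.continuous
  have h1 : Continuous fun q : ℝ × ℝ => ee (x * (q.1 - q.2) + t * (φ q.1 - φ q.2)) :=
    cont_ee.comp (by fun_prop)
  exact (inth hk).mul_bdd (c := 1) h1.aestronglyMeasurable
    (Filter.Eventually.of_forall fun q => (norm_ee _).le)

theorem inner0 (φ : ℝ → ℝ) (h : ℝ × ℝ → ℂ) (x t u : ℝ) :
    ∫ η, H φ h x t (η + u, η) = KK φ h u t * ee (x * u) := by
  rw [KK, ← integral_mul_const]
  refine integral_congr_ae (Filter.Eventually.of_forall fun η => ?_)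
  simp only [H]
  rw [ee_add, add_sub_cancel_left]
  ring

theorem inner (φ : ℝ → ℝ) (h : ℝ × ℝ → ℂ) (δ x t u : ℝ) :
    ∫ η, {q : ℝ × ℝ | δ < q.1 - q.2}.indicator (H φ h x t) (η + u, η) =
      (Ioi δ).indicator (fun u => KK φ h u t) u * ee (x * u) := by
  by_cases hu : u ∈ Ioi δ
  · rw [indicator_of_mem hu, ← inner0]
    refine integral_congr_ae (Filter.Eventually.of_forall fun η => indicator_of_mem ?_ _)
    change δ < η + u - η
    rw [add_sub_cancel_left]
    exact hu
  · rw [indicator_of_notMem hu, zero_mul]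
    refine integral_eq_zero_of_ae (Filter.Eventually.of_forall fun η => indicator_of_notMem ?_ _)
    change ¬δ < η + u - η
    rw [add_sub_cancel_left]
    exact hu

end VRep

theorem v_rep : V_rep := by
  intro φ A h δ t hφ hk
  have hT : MeasurePreserving (fun z : ℝ × ℝ => (z.2 + z.1, z.2)) (volume.prod volume)
      (volume.prod volume) :=
    Measure.measurePreserving_swap.comp (measurePreserving_prod_add_swap volume volume)
  constructor
  · have h1 := (hT.integrable_comp_of_integrable (VRep.intH 0 t hφ hk)).integral_prod_left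
    simp only [Function.comp, VRep.inner0, zero_mul] at h1
    have h2 : ee 0 = 1 := by simp [ee]
    simpa only [h2, mul_one] using h1
  · intro x
    have hF := (VRep.intH x t hφ hk).indicator (VRep.mS δ)
    have hI : Integrable (fun z : ℝ × ℝ =>
        {q : ℝ × ℝ | δ < q.1 - q.2}.indicator (VRep.H φ h x t) (z.2 + z.1, z.2))
        (volume.prod volume) := hT.integrable_comp_of_integrable hF
    have h1 : BP φ h δ x t = ∫ q, {q : ℝ × ℝ | δ < q.1 - q.2}.indicator (VRep.H φ h x t) q
        ∂(volume.prod volume) := (integral_indicator (VRep.mS δ)).symm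
    have h2 := integral_map (μ := volume.prod volume) hT.measurable.aemeasurable
      (f := {q : ℝ × ℝ | δ < q.1 - q.2}.indicator (VRep.H φ h x t))
      (by rw [hT.map_eq]; exact hF.aestronglyMeasurable)
    rw [hT.map_eq] at h2
    rw [h1, h2, integral_prod _ hI]
    simp only [VRep.inner]

end Vale.Agent.P122A
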