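import Vale.Agent.P122A.Stm3

open MeasureTheory Set FourierTransform
open scoped ENNReal

namespace Vale.Agent.P122A

theorem v_res : V_sq → V_meas → V_near → V_dist → V_l2 → V_res := by
  intro hsq hm hn hd hl p c hp hc0
  obtain ⟨ε, hεp⟩ : ∃ ε : ℝ, ε = (p - 3) / 2 := ⟨_, rfl⟩
  have hε : 0 < ε := by rw [hεp]; linarith
  rw [← hεp]
  refine ⟨ENNReal.ofReal ((p - 1) / ((p - 1) - (2 + ε)) * (32 * 4 ^ ε / (c * ε))),
    ENNReal.ofReal_ne_top, fun φ A g hCv hRes => ?_⟩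
  have hφ := hCv.1
  obtain ⟨h, hK, hS⟩ := hsq φ A g hφ hRes
  have hM := hm φ h g 0 hφ hK.2.2.1 hRes.2.2.1
  have hB := hM.1
  have hSm := hM.2.2.2.1
  have hA1 : volume A ≤ 1 := (measure_mono hRes.2.1).trans (by simp)
  have hAtop : volume A ≠ ⊤ := ne_top_of_le_ne_top ENNReal.one_ne_top hA1
  have hm0 : 0 ≤ (volume A).toReal := ENNReal.toReal_nonneg
  have hra : 2 + ε < p - 1 := by rw [hεp]; linarith
  have h0 : ∀ a : ℝ≥0∞, (a ^ (1 / 2 : ℝ)) ^ 2 = a := by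
    intro a
    rw [← ENNReal.rpow_natCast, ← ENNReal.rpow_mul]
    norm_num
  have h1 := r_cs2 p (fun x t => SS φ g x t ^ (1 / 2 : ℝ)) (volume A) (by linarith)
    (hSm.pow_const _) (fun t => by simp only [h0]; exact hl φ A g t hφ hRes)
  have h2 := r_cake volume (fun z => ‖BB φ h z.1 z.2‖) (2 + ε) (p - 1)
    (32 * 4 ^ ε / (c * ε) * (volume A).toReal ^ (1 + ε)) hB.norm
    (fun z => ⟨norm_nonneg _, (hn 1 φ A h z.1 z.2 one_pos hφ hK).1⟩) (by linarith) hra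
    (by positivity) (fun l hl0 => hd c ε l φ A h hc0 hε hl0 hCv hK)
  have h3 : ∀ z : ℝ × ℝ, (SS φ g z.1 z.2 ^ (1 / 2 : ℝ)) ^ (2 * p - 2) =
      ENNReal.ofReal (‖BB φ h z.1 z.2‖ ^ (p - 1)) := by
    intro z
    have e : (1 / 2 : ℝ) * (2 * p - 2) = p - 1 := by ring
    rw [← ENNReal.rpow_mul, e, hS, ← ofReal_norm,
      ENNReal.ofReal_rpow_of_nonneg (norm_nonneg _) (by linarith)]
  simp only [h3] at h1
  refine h1.trans ((mul_le_mul_right h2 _).trans (le_of_eq ?_))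
  have hpos : 0 ≤ (p - 1) / ((p - 1) - (2 + ε)) * (32 * 4 ^ ε / (c * ε)) := by
    have : 0 < (p - 1) - (2 + ε) := by linarith
    have : 0 < p - 1 := by linarith
    positivity
  have hvol : volume A = ENNReal.ofReal (volume A).toReal := (ENNReal.ofReal_toReal hAtop).symm
  generalize (volume A).toReal = m at hm0 hvol
  rw [hvol, ENNReal.ofReal_rpow_of_nonneg hm0 (by linarith), ← ENNReal.ofReal_mul hm0,
    ← ENNReal.ofReal_mul hpos]
  have e : m ^ (2 + ε) = m * m ^ (1 + ε) := by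
    have : 2 + ε = 1 + (1 + ε) := by ring
    rw [this, Real.rpow_add_of_nonneg hm0 zero_le_one (by linarith), Real.rpow_one]
  rw [e]
  congr 1
  ring

end Vale.Agent.P122A
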