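import Vale.Agent.P122A.Stm3

/-! The square of the vector valued extension operator as a bilinear expression. -/

open MeasureTheory Set FourierTransform
open scoped ENNReal

namespace Vale.Agent.P122A

namespace VSq

variable {A : Set ℝ} {g : ℝ → ℝ → ℂ}

theorem ee_conj (s : ℝ) : (starRingEnd ℂ) (ee s) = ee (-s) := by
  rw [ee, ee, ← Complex.exp_conj]
  congr 1
  simp [map_ofNat]

theorem cs (hg : ResV A g) (q : ℝ × ℝ) :
    ∫⁻ y, ‖g q.1 y * (starRingEnd ℂ) (g q.2 y)‖ₑ ≤ (A ×ˢ A).indicator 1 q := by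
  obtain ⟨-, -, hm, hN, h0⟩ := hg
  by_cases hq : q ∈ A ×ˢ A
  · rw [indicator_of_mem hq]
    have m : ∀ ξ, Measurable fun y => ‖g ξ y‖ₑ := fun ξ => (hm.comp measurable_prodMk_left).enorm
    have h1 := ENNReal.lintegral_mul_le_Lp_mul_Lq volume Real.HolderConjugate.two_two
      (m q.1).aemeasurable (m q.2).aemeasurable
    simp only [ENNReal.rpow_ofNat, Pi.mul_apply] at h1
    have e : ∀ y, ‖g q.1 y * (starRingEnd ℂ) (g q.2 y)‖ₑ = ‖g q.1 y‖ₑ * ‖g q.2 y‖ₑ := fun y => by
      rw [enorm_mul, ← ofReal_norm ((starRingEnd ℂ) _), Complex.norm_conj, ofReal_norm]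
    simp only [e]
    exact h1.trans (mul_le_one' (ENNReal.rpow_le_one (hN _) (by norm_num))
      (ENNReal.rpow_le_one (hN _) (by norm_num)))
  · rcases not_and_or.1 hq with h | h <;> simp [h0 _ h]

theorem meas (hg : ResV A g) :
    Measurable fun z : (ℝ × ℝ) × ℝ => g z.1.1 z.2 * (starRingEnd ℂ) (g z.1.2 z.2) :=
  (hg.2.2.1.comp (measurable_fst.fst.prodMk measurable_snd)).mul
    (Complex.continuous_conj.measurable.comp
      (hg.2.2.1.comp (measurable_fst.snd.prodMk measurable_snd)))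

theorem int (hg : ResV A g) : Integrable
    (fun z : (ℝ × ℝ) × ℝ => g z.1.1 z.2 * (starRingEnd ℂ) (g z.1.2 z.2)) (volume.prod volume) := by
  refine ⟨(meas hg).aestronglyMeasurable, ?_⟩
  rw [HasFiniteIntegral, lintegral_prod _ (meas hg).enorm.aemeasurable]
  refine (lintegral_mono fun q => cs hg q).trans_lt ?_
  rw [lintegral_indicator_one (hg.1.prod hg.1)]
  exact (measure_mono (prod_mono hg.2.1 hg.2.1)).trans_lt
    (isCompact_Icc.prod isCompact_Icc).measure_lt_top

theorem sq (φ : ℝ → ℝ) (f : ℝ → ℂ) (x t : ℝ) :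
    ∫ q : ℝ × ℝ, f q.1 * (starRingEnd ℂ) (f q.2) * ee (x * (q.1 - q.2) + t * (φ q.1 - φ q.2)) =
      ((‖E φ f x t‖ ^ 2 : ℝ) : ℂ) := by
  rw [← Complex.normSq_eq_norm_sq, ← Complex.mul_conj, E, ← integral_conj, ← integral_prod_mul]
  refine integral_congr_ae (ae_of_all _ fun q => ?_)
  have e : x * (q.1 - q.2) + t * (φ q.1 - φ q.2) =
      (x * q.1 + t * φ q.1) + -(x * q.2 + t * φ q.2) := by ring
  simp only [map_mul, ee_conj]
  rw [e, ee_add]
  ring

end VSq

theorem v_sq : V_sq := by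
  intro φ A g hφ hg
  refine ⟨fun q => ∫ y, g q.1 y * (starRingEnd ℂ) (g q.2 y), ⟨hg.1, hg.2.1,
    (VSq.meas hg).stronglyMeasurable.integral_prod_right'.measurable, fun q => ?_,
    fun q hq => ?_⟩, fun x t => ?_⟩
  · have h1 := ((enorm_integral_le_lintegral_enorm _).trans (VSq.cs hg q)).trans
      (indicator_le_self' (fun _ _ => zero_le_one) q)
    rw [← ofReal_norm, ENNReal.ofReal_le_one] at h1
    exact h1
  · rcases hq with h | h <;> simp [hg.2.2.2.2 _ h]
  · have hc := hφ.continuous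
    have cw : Continuous fun z : (ℝ × ℝ) × ℝ =>
        ee (x * (z.1.1 - z.1.2) + t * (φ z.1.1 - φ z.1.2)) := cont_ee.comp (by fun_prop)
    have hi : Integrable (fun z : (ℝ × ℝ) × ℝ => g z.1.1 z.2 * (starRingEnd ℂ) (g z.1.2 z.2) *
        ee (x * (z.1.1 - z.1.2) + t * (φ z.1.1 - φ z.1.2))) (volume.prod volume) :=
      (VSq.int hg).mul_bdd cw.aestronglyMeasurable (ae_of_all _ fun z => (norm_ee _).le)
    have h1 := hi.integral_prod_right
    have h2 : BB φ (fun q => ∫ y, g q.1 y * (starRingEnd ℂ) (g q.2 y)) x t =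
        ((∫ y, ‖E φ (fun ξ => g ξ y) x t‖ ^ 2 : ℝ) : ℂ) := by
      unfold BB
      simp only [← integral_mul_const]
      rw [integral_integral_swap hi, ← integral_complex_ofReal]
      exact integral_congr_ae (ae_of_all _ fun y => VSq.sq φ (fun ξ => g ξ y) x t)
    have h3 : Integrable fun y => ‖E φ (fun ξ => g ξ y) x t‖ ^ 2 := by
      refine h1.re.congr (ae_of_all _ fun y => ?_)
      exact (congrArg Complex.re (VSq.sq φ (fun ξ => g ξ y) x t)).trans (Complex.ofReal_re _)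
    have h4 : 0 ≤ ∫ y, ‖E φ (fun ξ => g ξ y) x t‖ ^ 2 := integral_nonneg fun y => sq_nonneg _
    rw [h2, ← ofReal_norm, Complex.norm_real, Real.norm_of_nonneg h4,
      ofReal_integral_eq_lintegral_ofReal h3 (ae_of_all _ fun y => sq_nonneg _), SS]
    refine lintegral_congr fun y => ?_
    rw [ENNReal.ofReal_pow (norm_nonneg _), ofReal_norm]

end Vale.Agent.P122A
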