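import Vale.Agent.P122A.Sob3
import Vale.Agent.P122A.VSq
import Vale.Agent.P122A.VMeas
import Vale.Agent.P122A.VRep
import Vale.Agent.P122A.VKt
import Vale.Agent.P122A.VG2b
import Vale.Agent.P122A.VNear
import Vale.Agent.P122A.VDist
import Vale.Agent.P122A.VL2
import Vale.Agent.P122A.VRes
import Vale.Agent.P122A.VMk
import Vale.Agent.P122A.VDec
import Vale.Agent.P122A.VOne
import Vale.Agent.P122A.VMix

/-! Assembly of the third part. -/

namespace Vale.Agent.P122A

theorem z_mix : V_mix :=
  v_mix v_meas (v_one v_meas (v_res v_sq v_meas v_near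
    (v_dist v_meas (v_g2b v_meas v_rep v_kt) v_near) (v_l2 v_meas)) v_mk (v_dec v_meas))

end Vale.Agent.P122A
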