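import Vale.Agent.P122A.Stm
import Vale.Agent.P122A.Defs2

/-! The tensor estimate for the flat measure. -/

open MeasureTheory Set FourierTransform
open scoped ENNReal

namespace Vale.Agent.P122A

theorem ext_ten (φ ψ : ℝ → ℝ) (f g : ℝ → ℂ) (z : ℝ × ℝ × ℝ) :
    ext φ ψ (fun q => f q.1 * g q.2) z =
      E φ ((Icc (0 : ℝ) 1).indicator f) z.1 z.2.2 * E ψ ((Icc (0 : ℝ) 1).indicator g) z.2.1 z.2.2 := by
  have h1 : ∀ (χ : ℝ → ℝ) (k : ℝ → ℂ) (x t : ℝ), E χ ((Icc (0 : ℝ) 1).indicator k) x t =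
      ∫ ξ in Icc (0 : ℝ) 1, k ξ * ee (x * ξ + t * χ ξ) := fun χ k x t => by
    rw [E, ← integral_indicator measurableSet_Icc]
    refine integral_congr_ae (Filter.Eventually.of_forall fun ξ => ?_)
    by_cases h : ξ ∈ Icc (0 : ℝ) 1 <;> simp [h]
  rw [h1, h1, ← setIntegral_prod_mul, ext, sq1, Measure.volume_eq_prod]
  refine integral_congr_ae (Filter.Eventually.of_forall fun q => ?_)
  have h2 : z.1 * q.1 + z.2.1 * q.2 + z.2.2 * (φ q.1 + ψ q.2) =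
      (z.1 * q.1 + z.2.2 * φ q.1) + (z.2.1 * q.2 + z.2.2 * ψ q.2) := by ring
  simp only [h2, ee_add]
  ring

theorem lint_ind (p : ℝ) (hp : 0 < p) (k : ℝ → ℂ) :
    ∫⁻ ξ, ‖(Icc (0 : ℝ) 1).indicator k ξ‖ₑ ^ p = ∫⁻ ξ in Icc (0 : ℝ) 1, ‖k ξ‖ₑ ^ p := by
  rw [← lintegral_indicator measurableSet_Icc]
  refine lintegral_congr fun ξ => ?_
  by_cases h : ξ ∈ Icc (0 : ℝ) 1 <;> simp [h, hp]

theorem lint_ten (p : ℝ) (hp : 0 < p) {f g : ℝ → ℂ} (hf : Measurable f) (hg : Measurable g) :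
    ∫⁻ q in sq1, ‖f q.1 * g q.2‖ₑ ^ p =
      (∫⁻ ξ in Icc (0 : ℝ) 1, ‖f ξ‖ₑ ^ p) * ∫⁻ ξ in Icc (0 : ℝ) 1, ‖g ξ‖ₑ ^ p := by
  rw [sq1, Measure.volume_eq_prod, ← Measure.prod_restrict,
    ← lintegral_prod_mul (hf.enorm.pow_const p).aemeasurable (hg.enorm.pow_const p).aemeasurable]
  refine lintegral_congr fun q => ?_
  rw [enorm_mul, ENNReal.mul_rpow_of_nonneg _ _ hp.le]

theorem flat (hme : R_meas) (hmix : R_mix) (hten : R_ten) (p c : ℝ) (hp : 3 < p) (hc : 0 < c) :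
    ∃ C : ℝ≥0∞, C ≠ ⊤ ∧ ∀ (φ ψ : ℝ → ℝ) (f g : ℝ → ℂ), Cv c φ → Cv c ψ → Measurable f →
      Measurable g → ∫⁻ z, ‖ext φ ψ (fun q => f q.1 * g q.2) z‖ₑ ^ p ≤
        C * ∫⁻ q in sq1, ‖f q.1 * g q.2‖ₑ ^ p := by
  obtain ⟨C, hC, h⟩ := hmix p c hp hc
  have hp0 : 0 < p := by linarith
  refine ⟨C * C, ENNReal.mul_ne_top hC hC, fun φ ψ f g hφ hψ hf hg => ?_⟩
  have hf' := hf.indicator (measurableSet_Icc (a := (0 : ℝ)) (b := 1))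
  have hg' := hg.indicator (measurableSet_Icc (a := (0 : ℝ)) (b := 1))
  have h1 := h φ _ hφ hf' fun ξ hξ => indicator_of_notMem hξ _
  have h2 := h ψ _ hψ hg' fun ξ hξ => indicator_of_notMem hξ _
  rw [← mul_pow, lint_ind p hp0] at h1 h2
  have h3 := hten p _ _ _ _ hp0 (hme φ _ 0 hφ.1 hf').1.enorm (hme ψ _ 0 hψ.1 hg').1.enorm h1 h2
  rw [lint_ten p hp0 hf hg]
  refine le_trans (le_of_eq (lintegral_congr fun z => ?_)) (h3.trans (le_of_eq (by ring)))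
  rw [ext_ten, enorm_mul]

end Vale.Agent.P122A
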