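import Vale.Agent.P122A.Stm
import Vale.Agent.P122A.Defs2
import Vale.Agent.P122A.Defs4

/-! Statements of the steps, second part. -/

open MeasureTheory Set FourierTransform
open scoped ENNReal

namespace Vale.Agent.P122A

noncomputable def kk (ψ : ℝ → ℝ) (x t : ℝ) : ℂ := ∫ η in Icc (0 : ℝ) 1, ee (x * η + t * ψ η)

def D_first : Prop := ∀ (θ θ' θ'' : ℝ → ℝ) (a b l : ℝ), a ≤ b → 0 < l →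
  (∀ x, HasDerivAt θ (θ' x) x) → (∀ x, HasDerivAt θ' (θ'' x) x) → Continuous θ'' →
  (∀ x ∈ Icc a b, 0 ≤ θ'' x) → (∀ x ∈ Icc a b, l ≤ |θ' x|) → ‖∫ x in a..b, ee (θ x)‖ ≤ 1 / l

def D_second : Prop := ∀ (θ θ' θ'' : ℝ → ℝ) (κ : ℝ), 0 < κ →
  (∀ x, HasDerivAt θ (θ' x) x) → (∀ x, HasDerivAt θ' (θ'' x) x) → Continuous θ'' →
  (∀ x ∈ Icc (0 : ℝ) 1, κ ≤ θ'' x) → ‖∫ x in (0 : ℝ)..1, ee (θ x)‖ ≤ 4 / Real.sqrt κ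

def D_vdc : Prop := ∀ (c : ℝ) (ψ : ℝ → ℝ), 0 < c → C2 c ψ → ∃ C : ℝ, 0 < C ∧
  ∀ x t : ℝ, ‖kk ψ x t‖ ≤ C * (1 + |t|) ^ (-(1 / 2 : ℝ))

def D_l2 : Prop := ∀ (ψ : ℝ → ℝ) (G : ℝ → ℂ) (t : ℝ), Continuous ψ → Integrable G →
  ∫⁻ x, ‖∫ y, G y * kk ψ (x + y) t‖ₑ ^ 2 ≤ ∫⁻ y, ‖G y‖ₑ ^ 2

def D_lp : Prop := ∀ (p κ : ℝ) (k G : ℝ → ℂ) (Y : Set ℝ), 2 < p → 0 < κ → Measurable G →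
  MeasurableSet Y → (∀ y, y ∉ Y → G y = 0) → (∀ x, ‖k x‖ ≤ κ) →
  ∫⁻ x, ‖∫ y, G y * k (x + y)‖ₑ ^ 2 ≤ ∫⁻ y, ‖G y‖ₑ ^ 2 →
  ∫⁻ x, ‖∫ y, G y * k (x + y)‖ₑ ^ p ≤
    ENNReal.ofReal κ ^ (p - 2) * volume Y ^ (p / 2 - 1) * (∫⁻ y, ‖G y‖ₑ ^ 2) ^ (p / 2)

def D_mink : Prop := ∀ (r : ℝ) (h : ℝ → ℝ → ℝ≥0∞), 1 ≤ r → Measurable (Function.uncurry h) →
  ∫⁻ x, (∫⁻ y, h x y) ^ r ≤ (∫⁻ y, (∫⁻ x, h x y ^ r) ^ (1 / r)) ^ r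

def D_abs : Prop := ∀ (p : ℝ) (u : ℝ → ℝ → ℝ → ℝ≥0∞) (w n : ℝ → ℝ≥0∞), 2 < p →
  Measurable (fun z : ℝ × ℝ × ℝ => u z.1 z.2.1 z.2.2) → Measurable w →
  (∀ y, mix p (fun x t => u x t y) ≤ n y ^ 2) →
  ∫⁻ t, w t * ∫⁻ x, (∫⁻ y, u x t y ^ 2) ^ (p / 2) ≤
    (∫⁻ t, w t ^ 2) ^ (1 / 2 : ℝ) * (∫⁻ y, n y ^ (2 / p)) ^ (p / 2)

def D_rep : Prop := ∀ (φ ψ : ℝ → ℝ) (g : ℝ → ℝ → ℂ), Continuous φ → Continuous ψ →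
  Measurable (Function.uncurry g) →
  IntegrableOn (Function.uncurry g) (Icc (0 : ℝ) 1 ×ˢ (univ : Set ℝ)) →
  Measurable (fun z : ℝ × ℝ × ℝ =>
    E φ ((Icc (0 : ℝ) 1).indicator fun ξ => g ξ z.2.2) z.1 z.2.1) ∧
  (∀ x t, Integrable fun y => E φ ((Icc (0 : ℝ) 1).indicator fun ξ => g ξ y) x t) ∧
  ∀ z : ℝ × ℝ × ℝ, ext φ ψ (fun q => ∫ y, g q.1 y * ee (y * q.2)) z =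
    ∫ y, E φ ((Icc (0 : ℝ) 1).indicator fun ξ => g ξ y) z.1 z.2.2 * kk ψ (z.2.1 + y) z.2.2

def D_wt : Prop := ∀ p C : ℝ, 3 < p → 0 < C →
  Measurable (fun t : ℝ => ENNReal.ofReal (C * (1 + |t|) ^ (-(1 / 2 : ℝ))) ^ (p - 2)) ∧
  ∫⁻ t : ℝ, (ENNReal.ofReal (C * (1 + |t|) ^ (-(1 / 2 : ℝ))) ^ (p - 2)) ^ 2 ≠ ⊤

def D_fub : Prop := ∀ F : ℝ × ℝ × ℝ → ℝ≥0∞, Measurable F →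
  ∫⁻ z, F z = ∫⁻ t, ∫⁻ x, ∫⁻ y, F (x, y, t)

def D_me : Prop := ∀ (φ ψ : ℝ → ℝ) (F : ℝ × ℝ → ℂ), Continuous φ → Continuous ψ → Measurable F →
  Measurable (ext φ ψ F)

end Vale.Agent.P122A
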