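import Vale.Agent.P122A.Fin2
import Vale.Agent.P122A.Stm2

/-! The estimate for data with restricted frequency support in one variable. -/

open MeasureTheory Set FourierTransform
open scoped ENNReal

namespace Vale.Agent.P122A

theorem non (hv : D_vdc) (hl2 : D_l2) (hlp : D_lp) (ha : D_abs) (hr : D_rep) (hw : D_wt)
    (hf : D_fub) (hm : D_me) (p c : ℝ) (hp : 3 < p) (hc : 0 < c) (φ ψ : ℝ → ℝ) (hφ : Cu c φ)
    (hψ : C2 c ψ) : ∃ C : ℝ≥0∞, C ≠ ⊤ ∧ ∀ (g : ℝ → ℝ → ℂ) (Y : Set ℝ),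
      Measurable (Function.uncurry g) → MeasurableSet Y → (∀ ξ y, y ∉ Y → g ξ y = 0) →
      IntegrableOn (Function.uncurry g) (Icc (0 : ℝ) 1 ×ˢ (univ : Set ℝ)) →
      ∫⁻ z, ‖ext φ ψ (fun q => ∫ y, g q.1 y * ee (y * q.2)) z‖ₑ ^ p ≤
        C * volume Y ^ (p / 2 - 1) *
          (∫⁻ y, (∫⁻ ξ in Icc (0 : ℝ) 1, ‖g ξ y‖ₑ ^ p) ^ (2 / p)) ^ (p / 2) := by
  obtain ⟨C₁, hC₁, h1⟩ := y_mix p c hp hc
  obtain ⟨C₂, hC₂, h2⟩ := hv c ψ hc hψ
  obtain ⟨w1, w2⟩ := hw p C₂ hp hC₂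
  have hp0 : 0 < p := by linarith
  have cφ := hφ.diff.continuous
  have cψ := hψ.1.continuous
  refine ⟨(∫⁻ t : ℝ, (ENNReal.ofReal (C₂ * (1 + |t|) ^ (-(1 / 2 : ℝ))) ^ (p - 2)) ^ 2) ^
      (1 / 2 : ℝ) * C₁, ENNReal.mul_ne_top (ENNReal.rpow_ne_top_of_nonneg (by norm_num) w2) hC₁,
    fun g Y hg hY h0 hi => ?_⟩
  obtain ⟨r1, r2, r3⟩ := hr φ ψ g cφ cψ hg hi
  have mF : Measurable fun q : ℝ × ℝ => ∫ y, g q.1 y * ee (y * q.2) := by
    have a1 : Measurable fun w : (ℝ × ℝ) × ℝ => g w.1.1 w.2 * ee (w.2 * w.1.2) :=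
      (hg.comp (f := fun w : (ℝ × ℝ) × ℝ => (w.1.1, w.2)) (by fun_prop)).mul
        (cont_ee.measurable.comp (by fun_prop))
    exact (a1.stronglyMeasurable.integral_prod_right' (ν := volume)).measurable
  have k1 : ∀ y, mix p (fun x t => ‖E φ ((Icc (0 : ℝ) 1).indicator fun ξ => g ξ y) x t‖ₑ) ≤
      (C₁ * ∫⁻ ξ in Icc (0 : ℝ) 1, ‖g ξ y‖ₑ ^ p) ^ 2 := fun y => by
    have a := h1 φ _ hφ ((hg.comp (measurable_prodMk_right (y := y))).indicator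
      (measurableSet_Icc (a := (0 : ℝ)) (b := 1))) fun ξ hξ => indicator_of_notMem hξ _
    rw [← mul_pow, lint_ind p hp0] at a
    exact a
  have k2 := ha p (fun x t y => ‖E φ ((Icc (0 : ℝ) 1).indicator fun ξ => g ξ y) x t‖ₑ) _ _
    (by linarith) r1.enorm w1 k1
  have k3 : ∀ t x, ∫⁻ v, ‖ext φ ψ (fun q => ∫ y, g q.1 y * ee (y * q.2)) (x, v, t)‖ₑ ^ p ≤
      ENNReal.ofReal (C₂ * (1 + |t|) ^ (-(1 / 2 : ℝ))) ^ (p - 2) * volume Y ^ (p / 2 - 1) *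
        (∫⁻ y, ‖E φ ((Icc (0 : ℝ) 1).indicator fun ξ => g ξ y) x t‖ₑ ^ 2) ^ (p / 2) := by
    intro t x
    simp only [r3]
    refine hlp p _ (fun v => kk ψ v t) _ Y (by linarith) (by positivity)
      (r1.comp (f := fun y : ℝ => (x, t, y)) (by fun_prop)) hY (fun y hy => ?_) (fun v => h2 v t)
      (hl2 ψ _ t cψ (r2 x t))
    simp only [h0 _ y hy, E, indicator_zero, zero_mul, integral_zero]
  have m1 : ∀ t, Measurable fun x : ℝ =>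
      (∫⁻ y, ‖E φ ((Icc (0 : ℝ) 1).indicator fun ξ => g ξ y) x t‖ₑ ^ 2) ^ (p / 2) := fun t =>
    (((r1.comp (f := fun w : ℝ × ℝ => (w.1, t, w.2)) (by fun_prop)).enorm.pow_const 2
      ).lintegral_prod_right').pow_const _
  have m2 : Measurable fun t : ℝ => ∫⁻ x,
      (∫⁻ y, ‖E φ ((Icc (0 : ℝ) 1).indicator fun ξ => g ξ y) x t‖ₑ ^ 2) ^ (p / 2) :=
    ((((r1.comp (f := fun w : (ℝ × ℝ) × ℝ => (w.1.2, w.1.1, w.2)) (by fun_prop)).enorm.pow_const 2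
      ).lintegral_prod_right').pow_const (p / 2)).lintegral_prod_right'
  rw [hf _ ((hm φ ψ _ cφ cψ mF).enorm.pow_const p)]
  refine (lintegral_mono fun t => lintegral_mono fun x => k3 t x).trans ?_
  simp only [lintegral_const_mul _ (m1 _)]
  simp only [mul_right_comm _ (volume Y ^ (p / 2 - 1))]
  refine (le_of_eq (lintegral_mul_const _ (w1.mul m2))).trans ?_
  refine mul_le_mul_left (k2.trans (le_of_eq ?_)) _
  have m3 : Measurable fun y : ℝ => (∫⁻ ξ in Icc (0 : ℝ) 1, ‖g ξ y‖ₑ ^ p) ^ (2 / p) :=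
    ((hg.enorm.pow_const p).lintegral_prod_left').pow_const _
  have e1 : (C₁ ^ (2 / p)) ^ (p / 2) = C₁ := by
    rw [← ENNReal.rpow_mul, show 2 / p * (p / 2) = 1 by field_simp, ENNReal.rpow_one]
  simp only [ENNReal.mul_rpow_of_nonneg _ _ (show 0 ≤ 2 / p by positivity)]
  rw [lintegral_const_mul _ m3, ENNReal.mul_rpow_of_nonneg _ _ (show 0 ≤ p / 2 by positivity), e1,
    mul_assoc]

end Vale.Agent.P122A
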