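import Vale.Agent.P122A.Stm3

/-! The estimate for data with restricted frequency support, vector valued version. -/

open MeasureTheory Set FourierTransform
open scoped ENNReal

namespace Vale.Agent.P122A

theorem mix3 (hx : V_mix) (p c : ℝ) (hp : 3 < p) (hc : 0 < c) : ∃ C : ℝ≥0∞, C ≠ ⊤ ∧
    ∀ (φ : ℝ → ℝ) (g : ℝ → ℝ → ℂ), Cu c φ → Measurable (Function.uncurry g) →
      (∀ ξ, ξ ∉ Icc (0 : ℝ) 1 → ∀ y, g ξ y = 0) →
      mix p (fun x t => SS φ g x t ^ (1 / 2 : ℝ)) ≤ C ^ 2 * (∫⁻ ξ, NN g ξ ^ (p / 2)) ^ 2 := by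
  obtain ⟨C, hC, h⟩ := hx p c hp hc
  refine ⟨C, hC, fun φ f hφ hf h0 => ?_⟩
  rcases hφ with hφ | hφ
  · exact h φ f hφ hf h0
  · refine le_trans (le_of_eq ?_) (h _ f hφ hf h0)
    unfold mix
    rw [← lintegral_neg_eq_self]
    simp only [SS, E, neg_mul, mul_neg]

theorem non3 (hx : V_mix) (p c : ℝ) (hp : 3 < p) (hc : 0 < c) (φ ψ : ℝ → ℝ) (hφ : Cu c φ)
    (hψ : C2 c ψ) : ∃ C : ℝ≥0∞, C ≠ ⊤ ∧ ∀ (g : ℝ → ℝ → ℂ) (Y : Set ℝ),
      Measurable (Function.uncurry g) → MeasurableSet Y → (∀ ξ y, y ∉ Y → g ξ y = 0) →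
      IntegrableOn (Function.uncurry g) (Icc (0 : ℝ) 1 ×ˢ (univ : Set ℝ)) →
      ∫⁻ z, ‖ext φ ψ (fun q => ∫ y, g q.1 y * ee (y * q.2)) z‖ₑ ^ p ≤
        C * volume Y ^ (p / 2 - 1) *
          ∫⁻ ξ in Icc (0 : ℝ) 1, (∫⁻ y, ‖g ξ y‖ₑ ^ 2) ^ (p / 2) := by
  obtain ⟨C₁, hC₁, h1⟩ := mix3 hx p c hp hc
  obtain ⟨C₂, hC₂, h2⟩ := z_vdc c ψ hc hψ
  obtain ⟨w1, w2⟩ := d_wt p C₂ hp hC₂
  have hp0 : 0 < p := by linarith
  have cφ := hφ.diff.continuous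
  have cψ := hψ.1.continuous
  refine ⟨(∫⁻ t : ℝ, (ENNReal.ofReal (C₂ * (1 + |t|) ^ (-(1 / 2 : ℝ))) ^ (p - 2)) ^ 2) ^
      (1 / 2 : ℝ) * C₁, ENNReal.mul_ne_top (ENNReal.rpow_ne_top_of_nonneg (by norm_num) w2) hC₁,
    fun g Y hg hY h0 hi => ?_⟩
  obtain ⟨r1, r2, r3⟩ := d_rep φ ψ g cφ cψ hg hi
  have mF : Measurable fun q : ℝ × ℝ => ∫ y, g q.1 y * ee (y * q.2) := by
    have a1 : Measurable fun w : (ℝ × ℝ) × ℝ => g w.1.1 w.2 * ee (w.2 * w.1.2) :=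
      (hg.comp (f := fun w : (ℝ × ℝ) × ℝ => (w.1.1, w.2)) (by fun_prop)).mul
        (cont_ee.measurable.comp (by fun_prop))
    exact (a1.stronglyMeasurable.integral_prod_right' (ν := volume)).measurable
  have mg : Measurable (Function.uncurry fun ξ y =>
      (Icc (0 : ℝ) 1).indicator (fun ξ => g ξ y) ξ) := by
    have e0 : (Function.uncurry fun ξ y => (Icc (0 : ℝ) 1).indicator (fun ξ => g ξ y) ξ) =
        (Icc (0 : ℝ) 1 ×ˢ (univ : Set ℝ)).indicator (Function.uncurry g) := by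
      funext w
      by_cases hw : w.1 ∈ Icc (0 : ℝ) 1
      · rw [indicator_of_mem (show w ∈ Icc (0 : ℝ) 1 ×ˢ (univ : Set ℝ) from ⟨hw, mem_univ _⟩)]
        exact indicator_of_mem hw (fun ξ => g ξ w.2)
      · rw [indicator_of_notMem (show w ∉ Icc (0 : ℝ) 1 ×ˢ (univ : Set ℝ) from fun k => hw k.1)]
        exact indicator_of_notMem hw (fun ξ => g ξ w.2)
    rw [e0]
    exact hg.indicator (measurableSet_Icc.prod MeasurableSet.univ)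
  have k1 := h1 φ _ hφ mg fun ξ hξ y => indicator_of_notMem hξ _
  have e2 : ∫⁻ ξ, NN (fun ξ y => (Icc (0 : ℝ) 1).indicator (fun ξ => g ξ y) ξ) ξ ^ (p / 2) =
      ∫⁻ ξ in Icc (0 : ℝ) 1, (∫⁻ y, ‖g ξ y‖ₑ ^ 2) ^ (p / 2) := by
    rw [← lintegral_indicator measurableSet_Icc]
    refine lintegral_congr fun ξ => ?_
    by_cases hξ : ξ ∈ Icc (0 : ℝ) 1
    · simp only [NN, indicator_of_mem hξ]
    · simp only [NN, indicator_of_notMem hξ, enorm_zero, ne_eq, OfNat.ofNat_ne_zero,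
        not_false_eq_true, zero_pow, lintegral_zero,
        ENNReal.zero_rpow_of_pos (show 0 < p / 2 by positivity)]
  rw [e2, ← mul_pow] at k1
  have k0 : ∫⁻ t, (∫⁻ x, (∫⁻ y, ‖E φ ((Icc (0 : ℝ) 1).indicator fun ξ => g ξ y) x t‖ₑ ^ 2) ^
      (p / 2)) ^ 2 ≤ (C₁ * ∫⁻ ξ in Icc (0 : ℝ) 1, (∫⁻ y, ‖g ξ y‖ₑ ^ 2) ^ (p / 2)) ^ 2 := by
    refine le_trans (le_of_eq ?_) k1
    simp only [mix, SS, ← ENNReal.rpow_mul, show 1 / 2 * p = p / 2 by ring]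
  have k3 : ∀ t x, ∫⁻ v, ‖ext φ ψ (fun q => ∫ y, g q.1 y * ee (y * q.2)) (x, v, t)‖ₑ ^ p ≤
      ENNReal.ofReal (C₂ * (1 + |t|) ^ (-(1 / 2 : ℝ))) ^ (p - 2) * volume Y ^ (p / 2 - 1) *
        (∫⁻ y, ‖E φ ((Icc (0 : ℝ) 1).indicator fun ξ => g ξ y) x t‖ₑ ^ 2) ^ (p / 2) := by
    intro t x
    simp only [r3]
    refine d_lp p _ (fun v => kk ψ v t) _ Y (by linarith) (by positivity)
      (r1.comp (f := fun y : ℝ => (x, t, y)) (by fun_prop)) hY (fun y hy => ?_) (fun v => h2 v t)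
      (d_l2 ψ _ t cψ (r2 x t))
    simp only [h0 _ y hy, E, indicator_zero, zero_mul, integral_zero]
  have m1 : ∀ t, Measurable fun x : ℝ =>
      (∫⁻ y, ‖E φ ((Icc (0 : ℝ) 1).indicator fun ξ => g ξ y) x t‖ₑ ^ 2) ^ (p / 2) := fun t =>
    (((r1.comp (f := fun w : ℝ × ℝ => (w.1, t, w.2)) (by fun_prop)).enorm.pow_const 2
      ).lintegral_prod_right').pow_const _
  have m2 : Measurable fun t : ℝ => ∫⁻ x,
      (∫⁻ y, ‖E φ ((Icc (0 : ℝ) 1).indicator fun ξ => g ξ y) x t‖ₑ ^ 2) ^ (p / 2) :=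
    ((((r1.comp (f := fun w : (ℝ × ℝ) × ℝ => (w.1.2, w.1.1, w.2)) (by fun_prop)).enorm.pow_const 2
      ).lintegral_prod_right').pow_const (p / 2)).lintegral_prod_right'
  rw [d_fub.1 _ ((d_fub.2 φ ψ _ cφ cψ mF).enorm.pow_const p)]
  refine (lintegral_mono fun t => lintegral_mono fun x => k3 t x).trans ?_
  simp only [lintegral_const_mul _ (m1 _)]
  simp only [mul_right_comm _ (volume Y ^ (p / 2 - 1))]
  refine (le_of_eq (lintegral_mul_const _ (w1.mul m2))).trans ?_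
  refine mul_le_mul_left ?_ _
  have k4 := ENNReal.lintegral_mul_le_Lp_mul_Lq volume Real.HolderConjugate.two_two
    w1.aemeasurable m2.aemeasurable
  simp only [ENNReal.rpow_two] at k4
  refine k4.trans ?_
  rw [mul_assoc]
  refine mul_le_mul_right ((ENNReal.rpow_le_rpow k0 (by norm_num)).trans (le_of_eq ?_)) _
  rw [← ENNReal.rpow_two, ← ENNReal.rpow_mul]
  norm_num

end Vale.Agent.P122A
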