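import Vale.Agent.P122A.Non

/-! Summation over dyadic frequency blocks. -/

open MeasureTheory Set FourierTransform
open scoped ENNReal

namespace Vale.Agent.P122A

theorem geo_sum (p : ℝ) (hp : 1 < p) (ρ : ℝ≥0∞) (h0 : ρ ≠ 0) (h1 : ρ < 1)
    (u : ℝ × ℝ × ℝ → ℝ≥0∞) (v : ℕ → ℝ × ℝ × ℝ → ℝ≥0∞) (B : ℝ≥0∞) (hv : ∀ j, Measurable (v j))
    (hu : ∀ z, u z ≤ ∑' j, v j z) (hB : ∀ j : ℕ, ∫⁻ z, v j z ^ p ≤ B * (ρ ^ j) ^ p) :
    ∫⁻ z, u z ^ p ≤ (1 - ρ)⁻¹ ^ (p - 1) * (1 - ρ)⁻¹ * B := by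
  have hw : ∀ j : ℕ, ρ ^ j ≠ 0 ∧ ρ ^ j ≠ ⊤ := fun j =>
    ⟨pow_ne_zero _ h0, ENNReal.pow_ne_top h1.ne_top⟩
  have hW : (1 - ρ)⁻¹ ≠ ⊤ := ENNReal.inv_ne_top.2 (tsub_pos_of_lt h1).ne'
  have k1 : ∀ z, u z ^ p ≤ (1 - ρ)⁻¹ ^ (p - 1) * ∑' j, (ρ ^ j) ^ (1 - p) * v j z ^ p := fun z => by
    have a := r_hol p (fun j => v j z) (fun j => ρ ^ j) hp.le hw
    rw [ENNReal.tsum_geometric] at a
    exact (ENNReal.rpow_le_rpow (hu z) (by linarith)).trans a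
  refine (lintegral_mono k1).trans ?_
  rw [lintegral_const_mul' _ _ (ENNReal.rpow_ne_top_of_nonneg (by linarith) hW),
    lintegral_tsum fun j => (((hv j).pow_const p).const_mul _).aemeasurable, mul_assoc]
  refine mul_le_mul_right ?_ _
  rw [← ENNReal.tsum_geometric, ← ENNReal.tsum_mul_right]
  refine ENNReal.tsum_le_tsum fun j => ?_
  rw [lintegral_const_mul _ ((hv j).pow_const p)]
  refine (mul_le_mul_right (hB j) _).trans (le_of_eq ?_)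
  rw [mul_left_comm, ← ENNReal.rpow_add _ _ (hw j).1 (hw j).2, sub_add_cancel, ENNReal.rpow_one,
    mul_comm]

/-- Dyadic blocks. -/
def YY (j : ℕ) : Set ℝ := {y | (2 : ℝ) ^ j ≤ 1 + |y| ∧ 1 + |y| < 2 ^ (j + 1)}

theorem YY_meas (j : ℕ) : MeasurableSet (YY j) :=
  (measurableSet_le (f := fun _ : ℝ => (2 : ℝ) ^ j) (g := fun y => 1 + |y|) (by fun_prop)
    (by fun_prop)).inter (measurableSet_lt (f := fun y : ℝ => 1 + |y|)
      (g := fun _ => (2 : ℝ) ^ (j + 1)) (by fun_prop) (by fun_prop))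

theorem YY_disj : Pairwise (Function.onFun Disjoint YY) := by
  refine pairwise_disjoint_on YY |>.2 fun i j hij => Set.disjoint_left.2 fun y h1 h2 => ?_
  have h3 : (2 : ℝ) ^ (i + 1) ≤ 2 ^ j := pow_le_pow_right₀ one_le_two hij
  linarith [h1.2, h2.1]

theorem YY_univ : ⋃ j, YY j = univ := by
  refine eq_univ_of_forall fun y => mem_iUnion.2 ?_
  exact exists_nat_pow_near (le_add_of_nonneg_right (abs_nonneg y)) one_lt_two

theorem YY_vol (j : ℕ) : volume (YY j) ≤ (2 : ℝ≥0∞) ^ ((j : ℝ) + 2) := by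
  have h : YY j ⊆ Icc (-(2 : ℝ) ^ (j + 1)) (2 ^ (j + 1)) := fun y hy =>
    abs_le.1 (by linarith [hy.2])
  refine (measure_mono h).trans (le_of_eq ?_)
  rw [Real.volume_Icc, show ((j : ℝ) + 2) = ((j + 2 : ℕ) : ℝ) by push_cast; ring,
    ENNReal.rpow_natCast, show (2 : ℝ) ^ (j + 1) - -2 ^ (j + 1) = 2 ^ (j + 2) by ring,
    ENNReal.ofReal_pow zero_le_two, ENNReal.ofReal_ofNat]

theorem YY_wt {j : ℕ} {y s : ℝ} (hs : 0 ≤ s) (hy : y ∈ YY j) :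
    1 ≤ (2 : ℝ≥0∞) ^ (-((j : ℝ) * (2 * s))) * ENNReal.ofReal (1 + |y|) ^ (2 * s) := by
  have h1 : (2 : ℝ≥0∞) ^ (j : ℝ) ≤ ENNReal.ofReal (1 + |y|) := by
    rw [ENNReal.rpow_natCast, ← ENNReal.ofReal_ofNat, ← ENNReal.ofReal_pow zero_le_two]
    exact ENNReal.ofReal_le_ofReal hy.1
  have h2 := ENNReal.rpow_le_rpow h1 (show 0 ≤ 2 * s by positivity)
  refine le_trans (le_of_eq ?_) (mul_le_mul_right h2 _)
  rw [← ENNReal.rpow_mul, ← ENNReal.rpow_add _ _ two_ne_zero ENNReal.ofNat_ne_top, neg_add_cancel,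
    ENNReal.rpow_zero]

theorem sob (hv : D_vdc) (hl2 : D_l2) (hlp : D_lp) (ha : D_abs) (hr : D_rep) (hw : D_wt)
    (hf : D_fub) (hm : D_me) (p c s : ℝ) (hp : 3 < p) (hc : 0 < c) (hs : 1 / 2 - 1 / p < s)
    (φ ψ : ℝ → ℝ) (hφ : Cu c φ) (hψ : C2 c ψ) : ∃ C : ℝ≥0∞, C ≠ ⊤ ∧ ∀ g : ℝ → ℝ → ℂ,
      Measurable (Function.uncurry g) →
      IntegrableOn (Function.uncurry g) (Icc (0 : ℝ) 1 ×ˢ (univ : Set ℝ)) →
      ∫⁻ z, ‖ext φ ψ (fun q => ∫ y, g q.1 y * ee (y * q.2)) z‖ₑ ^ p ≤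
        C * (∫⁻ y, ENNReal.ofReal (1 + |y|) ^ (2 * s) *
          (∫⁻ ξ in Icc (0 : ℝ) 1, ‖g ξ y‖ₑ ^ p) ^ (2 / p)) ^ (p / 2) := by
  obtain ⟨C, hC, h⟩ := non hv hl2 hlp ha hr hw hf hm p c hp hc φ ψ hφ hψ
  obtain ⟨C₂, hC₂, h2⟩ := hv c ψ hc hψ
  have hp0 : 0 < p := by linarith
  have hs0 : 0 ≤ s := by
    have : 1 / p ≤ 1 / 2 := one_div_le_one_div_of_le two_pos (by linarith)
    linarith
  have cφ := hφ.diff.continuous
  have cψ := hψ.1.continuous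
  set ρ : ℝ≥0∞ := (2 : ℝ≥0∞) ^ (1 / 2 - 1 / p - s) with hρ
  have ρ0 : ρ ≠ 0 := (ENNReal.rpow_pos two_pos ENNReal.ofNat_ne_top).ne'
  have ρ1 : ρ < 1 := ENNReal.rpow_lt_one_of_one_lt_of_neg ENNReal.one_lt_two (by linarith)
  have hW : (1 - ρ)⁻¹ ≠ ⊤ := ENNReal.inv_ne_top.2 (tsub_pos_of_lt ρ1).ne'
  refine ⟨(1 - ρ)⁻¹ ^ (p - 1) * (1 - ρ)⁻¹ * (C * 2 ^ (p - 2)), ENNReal.mul_ne_top
    (ENNReal.mul_ne_top (ENNReal.rpow_ne_top_of_nonneg (by linarith) hW) hW)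
    (ENNReal.mul_ne_top hC (ENNReal.rpow_ne_top_of_nonneg (by linarith) ENNReal.ofNat_ne_top)),
    fun g hg hi => ?_⟩
  have e0 : ∀ j, (Function.uncurry fun ξ y => (YY j).indicator (g ξ) y) =
      (univ ×ˢ YY j).indicator (Function.uncurry g) := fun j => by
    funext w
    by_cases hw : w.2 ∈ YY j <;> simp [Function.uncurry, indicator, hw]
  have mg : ∀ j, Measurable (Function.uncurry fun ξ y => (YY j).indicator (g ξ) y) := fun j => by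
    rw [e0]; exact hg.indicator (MeasurableSet.univ.prod (YY_meas j))
  have ig : ∀ j, IntegrableOn (Function.uncurry fun ξ y => (YY j).indicator (g ξ) y)
      (Icc (0 : ℝ) 1 ×ˢ (univ : Set ℝ)) := fun j => by
    rw [e0]; exact hi.indicator (MeasurableSet.univ.prod (YY_meas j))
  obtain ⟨r1, r2, r3⟩ := hr φ ψ g cφ cψ hg hi
  rw [mul_assoc]
  refine geo_sum p (by linarith) ρ ρ0 ρ1 _
    (fun j z => ‖ext φ ψ (fun q => ∫ y, (YY j).indicator (g q.1) y * ee (y * q.2)) z‖ₑ) _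
    (fun j => (hm φ ψ _ cφ cψ ?_).enorm) (fun z => ?_) fun j => ?_
  · have a1 : Measurable fun w : (ℝ × ℝ) × ℝ => (YY j).indicator (g w.1.1) w.2 * ee (w.2 * w.1.2) :=
      ((mg j).comp (f := fun w : (ℝ × ℝ) × ℝ => (w.1.1, w.2)) (by fun_prop)).mul
        (cont_ee.measurable.comp (by fun_prop))
    exact (a1.stronglyMeasurable.integral_prod_right' (ν := volume)).measurable
  · have mk : Measurable fun y => kk ψ (z.2.1 + y) z.2.2 := by
      have a1 : Measurable fun w : ℝ × ℝ => ee ((z.2.1 + w.1) * w.2 + z.2.2 * ψ w.2) :=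
        cont_ee.measurable.comp (by fun_prop)
      exact (a1.stronglyMeasurable.integral_prod_right'
        (ν := volume.restrict (Icc (0 : ℝ) 1))).measurable
    have a2 := (r2 z.1 z.2.2).mul_bdd mk.aestronglyMeasurable
      (Filter.Eventually.of_forall fun y => h2 (z.2.1 + y) z.2.2)
    have a3 := hasSum_integral_iUnion YY_meas YY_disj (f := fun y =>
      E φ ((Icc (0 : ℝ) 1).indicator fun ξ => g ξ y) z.1 z.2.2 * kk ψ (z.2.1 + y) z.2.2)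
      a2.integrableOn
    rw [YY_univ, Measure.restrict_univ] at a3
    rw [r3, ← a3.tsum_eq]
    refine enorm_tsum_le_tsum_enorm.trans (le_of_eq (tsum_congr fun j => ?_))
    rw [(hr φ ψ _ cφ cψ (mg j) (ig j)).2.2 z, ← integral_indicator (YY_meas j)]
    congr 2
    funext y
    by_cases hy : y ∈ YY j
    · simp only [indicator_of_mem hy]
    · simp only [indicator_of_notMem hy, E, indicator_zero, zero_mul, integral_zero]
  · refine (h _ (YY j) (mg j) (YY_meas j) (fun ξ y hy => indicator_of_notMem hy _) (ig j)).trans ?_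
    have b1 : ∫⁻ y, (∫⁻ ξ in Icc (0 : ℝ) 1, ‖(YY j).indicator (g ξ) y‖ₑ ^ p) ^ (2 / p) ≤
        (2 : ℝ≥0∞) ^ (-((j : ℝ) * (2 * s))) * ∫⁻ y, ENNReal.ofReal (1 + |y|) ^ (2 * s) *
          (∫⁻ ξ in Icc (0 : ℝ) 1, ‖g ξ y‖ₑ ^ p) ^ (2 / p) := by
      rw [← lintegral_const_mul' _ _ (ENNReal.rpow_ne_top_of_ne_zero two_ne_zero
        ENNReal.ofNat_ne_top)]
      refine lintegral_mono fun y => ?_
      by_cases hy : y ∈ YY j
      · simp only [indicator_of_mem hy]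
        rw [← mul_assoc]
        exact le_mul_of_one_le_left zero_le (YY_wt hs0 hy)
      · simp only [indicator_of_notMem hy, enorm_zero, ENNReal.zero_rpow_of_pos hp0, lintegral_zero,
          ENNReal.zero_rpow_of_pos (show 0 < 2 / p by positivity)]
        exact zero_le
    have b2 := ENNReal.rpow_le_rpow b1 (show 0 ≤ p / 2 by positivity)
    have b3 := ENNReal.rpow_le_rpow (YY_vol j) (show 0 ≤ p / 2 - 1 by linarith)
    refine (mul_le_mul' (mul_le_mul_right b3 _) b2).trans (le_of_eq ?_)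
    have b4 : ((2 : ℝ≥0∞) ^ ((j : ℝ) + 2)) ^ (p / 2 - 1) *
        ((2 : ℝ≥0∞) ^ (-((j : ℝ) * (2 * s)))) ^ (p / 2) = 2 ^ (p - 2) * (ρ ^ j) ^ p := by
      rw [hρ, ← ENNReal.rpow_natCast, ← ENNReal.rpow_mul, ← ENNReal.rpow_mul, ← ENNReal.rpow_mul,
        ← ENNReal.rpow_mul, ← ENNReal.rpow_add _ _ two_ne_zero ENNReal.ofNat_ne_top,
        ← ENNReal.rpow_add _ _ two_ne_zero ENNReal.ofNat_ne_top]
      congr 1
      field_simp
      ring
    rw [ENNReal.mul_rpow_of_nonneg _ _ (show 0 ≤ p / 2 by positivity), ← mul_assoc,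
      mul_assoc C, b4]
    ring

end Vale.Agent.P122A
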