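import Vale.Agent.P122A.Defs
import Vale.Agent.P117.SBes

/-! Statements of the steps. -/

open MeasureTheory Set FourierTransform
open scoped ENNReal

namespace Vale.Agent.P122A

noncomputable def E (φ : ℝ → ℝ) (f : ℝ → ℂ) (x t : ℝ) : ℂ := ∫ ξ, f ξ * ee (x * ξ + t * φ ξ)

def Res (A : Set ℝ) (f : ℝ → ℂ) : Prop :=
  MeasurableSet A ∧ A ⊆ Icc 0 1 ∧ Measurable f ∧ (∀ ξ, ‖f ξ‖ ≤ 1) ∧ ∀ ξ, ξ ∉ A → f ξ = 0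

noncomputable def G (φ : ℝ → ℝ) (f : ℝ → ℂ) (δ x t : ℝ) : ℂ :=
  ∫ q in {q : ℝ × ℝ | δ < q.1 - q.2},
    f q.1 * f q.2 * ee (x * (q.1 + q.2) + t * (φ q.1 + φ q.2))

noncomputable def K (φ : ℝ → ℝ) (f : ℝ → ℂ) (δ u t : ℝ) : ℂ :=
  ∫ ξ in {ξ : ℝ | δ < 2 * ξ - u}, f ξ * f (u - ξ) * ee (t * (φ ξ + φ (u - ξ)))

noncomputable def wgt (c δ : ℝ) (A : Set ℝ) (u ξ : ℝ) : ℝ≥0∞ :=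
  {ξ : ℝ | ξ ∈ A ∧ u - ξ ∈ A ∧ δ < 2 * ξ - u}.indicator
    (fun ξ => ENNReal.ofReal (1 / (c * (2 * ξ - u)))) ξ

noncomputable def mix (p : ℝ) (u : ℝ → ℝ → ℝ≥0∞) : ℝ≥0∞ := ∫⁻ t, (∫⁻ x, u x t ^ p) ^ 2

theorem norm_ee (s : ℝ) : ‖ee s‖ = 1 := by
  have h : (2 * Real.pi * Complex.I * s : ℂ) = ((2 * Real.pi * s : ℝ) : ℂ) * Complex.I := by
    push_cast; ring
  rw [ee, h, Complex.norm_exp_ofReal_mul_I]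

theorem ee_add (s r : ℝ) : ee (s + r) = ee s * ee r := by
  rw [ee, ee, ee, ← Complex.exp_add]
  push_cast
  ring_nf

theorem cont_ee : Continuous ee := by
  unfold ee
  fun_prop

theorem bes (g : ℝ → ℂ) (hg : Integrable g) :
    ∫⁻ x, ‖∫ ξ, g ξ * ee (x * ξ)‖ₑ ^ 2 ≤ ∫⁻ ξ, ‖g ξ‖ₑ ^ 2 := by
  have h := P117.s_bes g hg
  simp only [P117.N, ENNReal.rpow_two] at h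
  refine le_trans (le_of_eq ?_) h
  rw [← lintegral_neg_eq_self]
  refine lintegral_congr fun x => ?_
  rw [Real.fourier_real_eq_integral_exp_smul]
  congr 2
  refine integral_congr_ae (Filter.Eventually.of_forall fun ξ => ?_)
  simp only [ee, smul_eq_mul]
  rw [mul_comm]
  congr 2
  push_cast
  ring

def R_osc : Prop := ∀ (S : Set ℝ) (v v' : ℝ → ℝ) (h : ℝ → ℂ), MeasurableSet S →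
  (∀ x ∈ S, HasDerivWithinAt v (v' x) S x) → InjOn v S → (∀ x ∈ S, v' x ≠ 0) →
  IntegrableOn h S →
  ∫⁻ t, ‖∫ ξ in S, h ξ * ee (t * v ξ)‖ₑ ^ 2 ≤ ∫⁻ ξ in S, ‖h ξ‖ₑ ^ 2 / ENNReal.ofReal |v' ξ|

def R_rep : Prop := ∀ (φ : ℝ → ℝ) (A : Set ℝ) (f : ℝ → ℂ) (δ t : ℝ), Differentiable ℝ φ →
  Res A f → Integrable (fun u => K φ f δ u t) ∧ ∀ x, G φ f δ x t = ∫ u, K φ f δ u t * ee (x * u)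

def R_meas : Prop := ∀ (φ : ℝ → ℝ) (f : ℝ → ℂ) (δ : ℝ), Differentiable ℝ φ → Measurable f →
  Measurable (fun z : ℝ × ℝ => E φ f z.1 z.2) ∧ Measurable (fun z : ℝ × ℝ => G φ f δ z.1 z.2) ∧
    Measurable (fun z : ℝ × ℝ => K φ f δ z.1 z.2)

def R_kt : Prop := ∀ (c δ : ℝ) (φ : ℝ → ℝ) (A : Set ℝ) (f : ℝ → ℂ) (u : ℝ), 0 < c → 0 < δ →
  Cv c φ → Res A f → ∫⁻ t, ‖K φ f δ u t‖ₑ ^ 2 ≤ ∫⁻ ξ, wgt c δ A u ξ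

def R_log : Prop := ∀ (c δ ε : ℝ) (A : Set ℝ), 0 < c → 0 < δ → 0 < ε → MeasurableSet A →
  A ⊆ Icc 0 1 → ∫⁻ u, ∫⁻ ξ, wgt c δ A u ξ ≤ ENNReal.ofReal (δ ^ (-ε) / (c * ε)) * volume A

def R_g2 : Prop := ∀ (c δ ε : ℝ) (φ : ℝ → ℝ) (A : Set ℝ) (f : ℝ → ℂ), 0 < c → 0 < δ → 0 < ε →
  Cv c φ → Res A f →
  ∫⁻ z : ℝ × ℝ, ‖G φ f δ z.1 z.2‖ₑ ^ 2 ≤ ENNReal.ofReal (δ ^ (-ε) / (c * ε)) * volume A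

def R_near : Prop := ∀ (δ : ℝ) (φ : ℝ → ℝ) (A : Set ℝ) (f : ℝ → ℂ) (x t : ℝ), 0 < δ →
  Differentiable ℝ φ → Res A f →
  ‖E φ f x t ^ 2 - 2 * G φ f δ x t‖ ≤ 2 * δ * (volume A).toReal

def R_l2 : Prop := ∀ (φ : ℝ → ℝ) (A : Set ℝ) (f : ℝ → ℂ) (t : ℝ), Differentiable ℝ φ →
  Res A f → volume A ≤ 1 ∧ (∀ x, ‖E φ f x t‖ ≤ (volume A).toReal) ∧
    ∫⁻ x, ‖E φ f x t‖ₑ ^ 2 ≤ volume A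

def R_dist : Prop := ∀ (c ε l : ℝ) (φ : ℝ → ℝ) (A : Set ℝ) (f : ℝ → ℂ), 0 < c → 0 < ε → 0 < l →
  Cv c φ → Res A f → volume {z : ℝ × ℝ | l < ‖E φ f z.1 z.2‖ ^ 2} ≤
    ENNReal.ofReal (16 * 4 ^ ε / (c * ε) * (volume A).toReal ^ (1 + ε) * l ^ (-(2 + ε)))

def R_cake : Prop := ∀ (μ : Measure (ℝ × ℝ)) (u : ℝ × ℝ → ℝ) (a r B : ℝ), Measurable u →
  (∀ z, 0 ≤ u z ∧ u z ≤ 1) → 0 < a → a < r → 0 ≤ B →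
  (∀ l : ℝ, 0 < l → μ {z | l < u z} ≤ ENNReal.ofReal (B * l ^ (-a))) →
  ∫⁻ z, ENNReal.ofReal (u z ^ r) ∂μ ≤ ENNReal.ofReal (r / (r - a) * B)

def R_cs : Prop := ∀ (p : ℝ) (u : ℝ → ℝ → ℝ≥0∞) (m : ℝ≥0∞), 1 < p →
  Measurable (fun z : ℝ × ℝ => u z.1 z.2) → (∀ t, ∫⁻ x, u x t ^ 2 ≤ m) →
  mix p u ≤ m * ∫⁻ z : ℝ × ℝ, u z.1 z.2 ^ (2 * p - 2)

def R_res : Prop := ∀ p c : ℝ, 3 < p → 0 < c → ∃ C : ℝ≥0∞, C ≠ ⊤ ∧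
  ∀ (φ : ℝ → ℝ) (A : Set ℝ) (f : ℝ → ℂ), Cv c φ → Res A f →
    mix p (fun x t => ‖E φ f x t‖ₑ) ≤ C * volume A ^ (2 + (p - 3) / 2)

def R_hol : Prop := ∀ (p : ℝ) (a w : ℕ → ℝ≥0∞), 1 ≤ p → (∀ j, w j ≠ 0 ∧ w j ≠ ⊤) →
  (∑' j, a j) ^ p ≤ (∑' j, w j) ^ (p - 1) * ∑' j, w j ^ (1 - p) * a j ^ p

def R_sum : Prop := ∀ p θ : ℝ, 1 ≤ p → 0 < θ → θ < 1 → ∃ C : ℝ≥0∞, C ≠ ⊤ ∧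
  ∀ (u : ℝ → ℝ → ℝ≥0∞) (v : ℕ → ℝ → ℝ → ℝ≥0∞) (B : ℝ≥0∞),
    (∀ j, Measurable (fun z : ℝ × ℝ => v j z.1 z.2)) → (∀ x t, u x t ≤ ∑' j, v j x t) →
    (∀ j, mix p (v j) ≤ B * ENNReal.ofReal θ ^ j) → mix p u ≤ C * B

def R_dec : Prop := ∀ (p : ℝ) (f : ℝ → ℂ), 1 ≤ p → Measurable f → (∀ ξ, ξ ∉ Icc (0 : ℝ) 1 → f ξ = 0) →
  ∫⁻ ξ, ‖f ξ‖ₑ ^ p ≤ 1 → ∃ (A : ℕ → Set ℝ) (g : ℕ → ℝ → ℂ), (∀ j, Res (A j) (g j)) ∧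
    (∀ j, volume (A j) ≤ (2 : ℝ≥0∞) ^ (p * (1 - (j : ℝ)))) ∧
    ∀ (φ : ℝ → ℝ) (x t : ℝ), Differentiable ℝ φ →
      ‖E φ f x t‖ₑ ≤ ∑' j : ℕ, (2 : ℝ≥0∞) ^ j * ‖E φ (g j) x t‖ₑ

def R_one : Prop := ∀ p c : ℝ, 3 < p → 0 < c → ∃ C : ℝ≥0∞, C ≠ ⊤ ∧
  ∀ (φ : ℝ → ℝ) (f : ℝ → ℂ), Cv c φ → Measurable f → (∀ ξ, ξ ∉ Icc (0 : ℝ) 1 → f ξ = 0) →
    ∫⁻ ξ, ‖f ξ‖ₑ ^ p ≤ 1 → mix p (fun x t => ‖E φ f x t‖ₑ) ≤ C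

def R_mix : Prop := ∀ p c : ℝ, 3 < p → 0 < c → ∃ C : ℝ≥0∞, C ≠ ⊤ ∧
  ∀ (φ : ℝ → ℝ) (f : ℝ → ℂ), Cv c φ → Measurable f → (∀ ξ, ξ ∉ Icc (0 : ℝ) 1 → f ξ = 0) →
    mix p (fun x t => ‖E φ f x t‖ₑ) ≤ C ^ 2 * (∫⁻ ξ, ‖f ξ‖ₑ ^ p) ^ 2

def R_ten : Prop := ∀ (p : ℝ) (u v : ℝ → ℝ → ℝ≥0∞) (a b : ℝ≥0∞), 0 < p →
  Measurable (fun z : ℝ × ℝ => u z.1 z.2) → Measurable (fun z : ℝ × ℝ => v z.1 z.2) →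
  mix p u ≤ a ^ 2 → mix p v ≤ b ^ 2 →
  ∫⁻ z : ℝ × ℝ × ℝ, (u z.1 z.2.2 * v z.2.1 z.2.2) ^ p ≤ a * b

end Vale.Agent.P122A
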