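import Vale.Agent.P122A.Fin4

/-! Statements of the steps, vector valued version. -/

open MeasureTheory Set FourierTransform
open scoped ENNReal

namespace Vale.Agent.P122A

noncomputable def SS (φ : ℝ → ℝ) (g : ℝ → ℝ → ℂ) (x t : ℝ) : ℝ≥0∞ :=
  ∫⁻ y, ‖E φ (fun ξ => g ξ y) x t‖ₑ ^ 2

noncomputable def NN (g : ℝ → ℝ → ℂ) (ξ : ℝ) : ℝ≥0∞ := ∫⁻ y, ‖g ξ y‖ₑ ^ 2

def ResV (A : Set ℝ) (g : ℝ → ℝ → ℂ) : Prop :=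
  MeasurableSet A ∧ A ⊆ Icc 0 1 ∧ Measurable (Function.uncurry g) ∧ (∀ ξ, NN g ξ ≤ 1) ∧
    ∀ ξ, ξ ∉ A → ∀ y, g ξ y = 0

def Ker (A : Set ℝ) (h : ℝ × ℝ → ℂ) : Prop :=
  MeasurableSet A ∧ A ⊆ Icc 0 1 ∧ Measurable h ∧ (∀ q, ‖h q‖ ≤ 1) ∧
    ∀ q : ℝ × ℝ, (q.1 ∉ A ∨ q.2 ∉ A) → h q = 0

noncomputable def BB (φ : ℝ → ℝ) (h : ℝ × ℝ → ℂ) (x t : ℝ) : ℂ :=
  ∫ q : ℝ × ℝ, h q * ee (x * (q.1 - q.2) + t * (φ q.1 - φ q.2))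

noncomputable def BP (φ : ℝ → ℝ) (h : ℝ × ℝ → ℂ) (δ x t : ℝ) : ℂ :=
  ∫ q in {q : ℝ × ℝ | δ < q.1 - q.2}, h q * ee (x * (q.1 - q.2) + t * (φ q.1 - φ q.2))

noncomputable def KK (φ : ℝ → ℝ) (h : ℝ × ℝ → ℂ) (u t : ℝ) : ℂ :=
  ∫ η, h (η + u, η) * ee (t * (φ (η + u) - φ η))

def V_sq : Prop := ∀ (φ : ℝ → ℝ) (A : Set ℝ) (g : ℝ → ℝ → ℂ), Differentiable ℝ φ → ResV A g →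
  ∃ h, Ker A h ∧ ∀ x t, SS φ g x t = ‖BB φ h x t‖ₑ

def V_meas : Prop := ∀ (φ : ℝ → ℝ) (h : ℝ × ℝ → ℂ) (g : ℝ → ℝ → ℂ) (δ : ℝ), Differentiable ℝ φ →
  Measurable h → Measurable (Function.uncurry g) →
  Measurable (fun z : ℝ × ℝ => BB φ h z.1 z.2) ∧ Measurable (fun z : ℝ × ℝ => BP φ h δ z.1 z.2) ∧
    Measurable (fun z : ℝ × ℝ => KK φ h z.1 z.2) ∧ Measurable (fun z : ℝ × ℝ => SS φ g z.1 z.2) ∧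
    Measurable (NN g)

def V_rep : Prop := ∀ (φ : ℝ → ℝ) (A : Set ℝ) (h : ℝ × ℝ → ℂ) (δ t : ℝ), Differentiable ℝ φ →
  Ker A h → Integrable (fun u => KK φ h u t) ∧
    ∀ x, BP φ h δ x t = ∫ u, (Ioi δ).indicator (fun u => KK φ h u t) u * ee (x * u)

def V_kt : Prop := ∀ (c u : ℝ) (φ : ℝ → ℝ) (A : Set ℝ) (h : ℝ × ℝ → ℂ), 0 < c → 0 < u →
  Cv c φ → Ker A h → ∫⁻ t, ‖KK φ h u t‖ₑ ^ 2 ≤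
    (Ioc (0 : ℝ) 1).indicator (fun u => ENNReal.ofReal (1 / (c * u))) u * volume A

def V_g2 : Prop := ∀ (c δ ε : ℝ) (φ : ℝ → ℝ) (A : Set ℝ) (h : ℝ × ℝ → ℂ), 0 < c → 0 < δ → 0 < ε →
  Cv c φ → Ker A h →
  ∫⁻ z : ℝ × ℝ, ‖BP φ h δ z.1 z.2‖ₑ ^ 2 ≤ ENNReal.ofReal (δ ^ (-ε) / (c * ε)) * volume A

def V_near : Prop := ∀ (δ : ℝ) (φ : ℝ → ℝ) (A : Set ℝ) (h : ℝ × ℝ → ℂ) (x t : ℝ), 0 < δ →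
  Differentiable ℝ φ → Ker A h → ‖BB φ h x t‖ ≤ 1 ∧
  ‖BB φ h x t - BP φ h δ x t - BP φ (fun q => h q.swap) δ (-x) (-t)‖ ≤ 2 * δ * (volume A).toReal

def V_dist : Prop := ∀ (c ε l : ℝ) (φ : ℝ → ℝ) (A : Set ℝ) (h : ℝ × ℝ → ℂ), 0 < c → 0 < ε →
  0 < l → Cv c φ → Ker A h → volume {z : ℝ × ℝ | l < ‖BB φ h z.1 z.2‖} ≤
    ENNReal.ofReal (32 * 4 ^ ε / (c * ε) * (volume A).toReal ^ (1 + ε) * l ^ (-(2 + ε)))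

def V_l2 : Prop := ∀ (φ : ℝ → ℝ) (A : Set ℝ) (g : ℝ → ℝ → ℂ) (t : ℝ), Differentiable ℝ φ →
  ResV A g → ∫⁻ x, SS φ g x t ≤ volume A

def V_res : Prop := ∀ p c : ℝ, 3 < p → 0 < c → ∃ C : ℝ≥0∞, C ≠ ⊤ ∧
  ∀ (φ : ℝ → ℝ) (A : Set ℝ) (g : ℝ → ℝ → ℂ), Cv c φ → ResV A g →
    mix p (fun x t => SS φ g x t ^ (1 / 2 : ℝ)) ≤ C * volume A ^ (2 + (p - 3) / 2)

def V_mk : Prop := ∀ (a : ℕ → ℝ → ℝ≥0∞), (∀ j, Measurable (a j)) →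
  (∫⁻ y, (∑' j, a j y) ^ 2) ^ (1 / 2 : ℝ) ≤ ∑' j, (∫⁻ y, a j y ^ 2) ^ (1 / 2 : ℝ)

def V_dec : Prop := ∀ (p : ℝ) (g : ℝ → ℝ → ℂ), 2 ≤ p → Measurable (Function.uncurry g) →
  (∀ ξ, ξ ∉ Icc (0 : ℝ) 1 → ∀ y, g ξ y = 0) → ∫⁻ ξ, NN g ξ ^ (p / 2) ≤ 1 →
  ∃ (A : ℕ → Set ℝ) (k : ℕ → ℝ → ℝ → ℂ), (∀ j, ResV (A j) (k j)) ∧
    (∀ j, volume (A j) ≤ (2 : ℝ≥0∞) ^ (p * (1 - (j : ℝ)))) ∧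
    ∀ (φ : ℝ → ℝ) (x t : ℝ), Differentiable ℝ φ → ∀ᵐ y : ℝ,
      ‖E φ (fun ξ => g ξ y) x t‖ₑ ≤ ∑' j : ℕ, (2 : ℝ≥0∞) ^ j * ‖E φ (fun ξ => k j ξ y) x t‖ₑ

def V_one : Prop := ∀ p c : ℝ, 3 < p → 0 < c → ∃ C : ℝ≥0∞, C ≠ ⊤ ∧
  ∀ (φ : ℝ → ℝ) (g : ℝ → ℝ → ℂ), Cv c φ → Measurable (Function.uncurry g) →
    (∀ ξ, ξ ∉ Icc (0 : ℝ) 1 → ∀ y, g ξ y = 0) → ∫⁻ ξ, NN g ξ ^ (p / 2) ≤ 1 →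
    mix p (fun x t => SS φ g x t ^ (1 / 2 : ℝ)) ≤ C

def V_mix : Prop := ∀ p c : ℝ, 3 < p → 0 < c → ∃ C : ℝ≥0∞, C ≠ ⊤ ∧
  ∀ (φ : ℝ → ℝ) (g : ℝ → ℝ → ℂ), Cv c φ → Measurable (Function.uncurry g) →
    (∀ ξ, ξ ∉ Icc (0 : ℝ) 1 → ∀ y, g ξ y = 0) →
    mix p (fun x t => SS φ g x t ^ (1 / 2 : ℝ)) ≤ C ^ 2 * (∫⁻ ξ, NN g ξ ^ (p / 2)) ^ 2

end Vale.Agent.P122A
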