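import Vale.Agent.P122A.Stm

/-! Summation of pieces with geometric decay in the mixed norm. -/

open MeasureTheory Set FourierTransform
open scoped ENNReal

namespace Vale.Agent.P122A

namespace Sum

theorem cw {w : ℝ≥0∞} (h0 : w ≠ 0) (h1 : w ≠ ⊤) (p : ℝ) :
    w ^ ((1 : ℝ) - 2) * (w ^ (1 - p)) ^ 2 * w ^ (2 * p) = w := by
  rw [sq, ← ENNReal.rpow_add _ _ h0 h1, ← ENNReal.rpow_add _ _ h0 h1,
    ← ENNReal.rpow_add _ _ h0 h1]
  have e : (1 : ℝ) - 2 + (1 - p + (1 - p)) + 2 * p = 1 := by ring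
  rw [e, ENNReal.rpow_one]

theorem ne_top {w : ℝ≥0∞} (h0 : w ≠ 0) (h1 : w ≠ ⊤) (s : ℝ) : w ^ s ≠ ⊤ := by
  intro h
  rcases ENNReal.rpow_eq_top_iff.1 h with h | h
  · exact h0 h.1
  · exact h1 h.1

end Sum

theorem r_sum : R_hol → R_sum := by
  intro hol p θ hp h0 h1
  have p0 : 0 < 2 * p := by linarith
  obtain ⟨ρ, hρ⟩ : ∃ ρ : ℝ≥0∞, ρ = ENNReal.ofReal θ ^ (1 / (2 * p)) := ⟨_, rfl⟩
  have r1 : ρ < 1 := by
    rw [hρ]
    exact ENNReal.rpow_lt_one (ENNReal.ofReal_lt_one.2 h1) (by positivity)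
  have r0 : ρ ≠ 0 := by
    rw [hρ]
    exact (ENNReal.rpow_pos (ENNReal.ofReal_pos.2 h0) ENNReal.ofReal_ne_top).ne'
  have hw : ∀ j : ℕ, ρ ^ j ≠ 0 ∧ ρ ^ j ≠ ⊤ := fun j =>
    ⟨pow_ne_zero j r0, ENNReal.pow_ne_top (ne_top_of_lt r1)⟩
  have hθ : ∀ j : ℕ, ENNReal.ofReal θ ^ j = (ρ ^ j) ^ (2 * p) := fun j => by
    rw [← ENNReal.rpow_natCast ρ, ← ENNReal.rpow_mul, mul_comm, ENNReal.rpow_mul, hρ,
      ← ENNReal.rpow_mul (ENNReal.ofReal θ), one_div_mul_cancel p0.ne', ENNReal.rpow_one,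
      ENNReal.rpow_natCast]
  obtain ⟨W, hW⟩ : ∃ W : ℝ≥0∞, W = ∑' j : ℕ, ρ ^ j := ⟨_, rfl⟩
  have W1 : W ≠ ⊤ := by
    rw [hW, ENNReal.tsum_geometric]
    exact ENNReal.inv_ne_top.2 (tsub_pos_of_lt r1).ne'
  have Wp : ∀ s : ℝ, 0 ≤ s → W ^ s ≠ ⊤ := fun s hs => ENNReal.rpow_ne_top_of_nonneg hs W1
  have c1 : (W ^ (p - 1)) ^ 2 * W ^ ((2 : ℝ) - 1) ≠ ⊤ :=
    ENNReal.mul_ne_top (ENNReal.pow_ne_top (Wp _ (by linarith))) (Wp _ (by norm_num))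
  refine ⟨(W ^ (p - 1)) ^ 2 * W ^ ((2 : ℝ) - 1) * W, ENNReal.mul_ne_top c1 W1, ?_⟩
  intro u v B hv hu hB
  have m1 : ∀ j t, Measurable fun x => v j x t ^ p := fun j t =>
    ((hv j).comp (measurable_id.prodMk measurable_const)).pow_const p
  have m2 : ∀ j, Measurable fun t => (∫⁻ x, v j x t ^ p) ^ 2 := fun j =>
    (((hv j).pow_const p).lintegral_prod_left').pow_const 2
  have a1 : ∀ t, ∫⁻ x, u x t ^ p ≤
      W ^ (p - 1) * ∑' j, (ρ ^ j) ^ (1 - p) * ∫⁻ x, v j x t ^ p := by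
    intro t
    have k : ∀ x, u x t ^ p ≤ W ^ (p - 1) * ∑' j, (ρ ^ j) ^ (1 - p) * v j x t ^ p := fun x => by
      rw [hW]
      exact (ENNReal.rpow_le_rpow (hu x t) (by linarith)).trans
        (hol p (fun j => v j x t) (fun j => ρ ^ j) hp hw)
    refine (lintegral_mono k).trans (le_of_eq ?_)
    rw [lintegral_const_mul' _ _ (Wp _ (by linarith)),
      lintegral_tsum fun j => ((m1 j t).const_mul _).aemeasurable]
    congr 1
    exact tsum_congr fun j => lintegral_const_mul _ (m1 j t)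
  have a2 : ∀ t, (∫⁻ x, u x t ^ p) ^ 2 ≤ (W ^ (p - 1)) ^ 2 * W ^ ((2 : ℝ) - 1) *
      ∑' j, (ρ ^ j) ^ ((1 : ℝ) - 2) * ((ρ ^ j) ^ (1 - p)) ^ 2 * (∫⁻ x, v j x t ^ p) ^ 2 := by
    intro t
    have k := hol 2 (fun j => (ρ ^ j) ^ (1 - p) * ∫⁻ x, v j x t ^ p) (fun j => ρ ^ j)
      (by norm_num) hw
    simp only [ENNReal.rpow_two, mul_pow, ← mul_assoc] at k
    rw [← hW] at k
    refine (pow_le_pow_left' (a1 t) 2).trans ?_
    rw [mul_pow, mul_assoc]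
    exact mul_le_mul_right k _
  refine (lintegral_mono a2).trans ?_
  rw [lintegral_const_mul' _ _ c1, lintegral_tsum fun j => ((m2 j).const_mul _).aemeasurable,
    mul_assoc _ W B]
  refine mul_le_mul_right ?_ _
  rw [hW, ← ENNReal.tsum_mul_right]
  refine ENNReal.tsum_le_tsum fun j => ?_
  rw [lintegral_const_mul _ (m2 j)]
  refine (mul_le_mul_right (hB j) _).trans (le_of_eq ?_)
  rw [hθ j, mul_comm B, ← mul_assoc, Sum.cw (hw j).1 (hw j).2]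

end Vale.Agent.P122A
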