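import Vale.Agent.P122A.Flat

/-! Superpositions of tensors. -/

open MeasureTheory Set FourierTransform
open scoped ENNReal

namespace Vale.Agent.P122A

theorem jensen {X : Type} [MeasurableSpace X] (ν : Measure X) {h : X → ℝ≥0∞} (hh : Measurable h)
    {p : ℝ} (hp : 1 < p) : (∫⁻ s, h s ∂ν) ^ p ≤ (∫⁻ s, h s ^ p ∂ν) * ν univ ^ (p - 1) := by
  have hc := Real.HolderConjugate.conjExponent hp
  have h1 := ENNReal.lintegral_mul_le_Lp_mul_Lq ν hc hh.aemeasurable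
    (g := fun _ => 1) aemeasurable_const
  simp only [Pi.mul_apply, mul_one, ENNReal.one_rpow, lintegral_const, one_mul] at h1
  have hp0 : 0 < p := by linarith
  refine (ENNReal.rpow_le_rpow h1 hp0.le).trans (le_of_eq ?_)
  rw [ENNReal.mul_rpow_of_nonneg _ _ hp0.le, ← ENNReal.rpow_mul, ← ENNReal.rpow_mul,
    one_div_mul_cancel hp0.ne', ENNReal.rpow_one]
  congr 2
  have h2 : p - 1 ≠ 0 := by linarith
  rw [Real.conjExponent]
  field_simp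

theorem meas_sq1 : MeasurableSet sq1 := measurableSet_Icc.prod measurableSet_Icc

theorem sup_est (p : ℝ) (hp : 1 < p) (C : ℝ≥0∞) (φ ψ : ℝ → ℝ) (hφ : Measurable φ)
    (hψ : Measurable ψ)
    (hfl : ∀ f g : ℝ → ℂ, Measurable f → Measurable g →
      ∫⁻ z, ‖ext φ ψ (fun q => f q.1 * g q.2) z‖ₑ ^ p ≤ C * ∫⁻ q in sq1, ‖f q.1 * g q.2‖ₑ ^ p)
    (ν : Measure ℝ) [IsFiniteMeasure ν] (f g : ℝ → ℝ → ℂ) (F₀ : ℝ × ℝ → ℂ)
    (hf : Measurable (Function.uncurry f)) (hg : Measurable (Function.uncurry g))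
    (h0 : IntegrableOn F₀ sq1) (hb : ∀ s, ∀ q ∈ sq1, ‖f s q.1 * g s q.2‖ ≤ ‖F₀ q‖) :
    ∫⁻ z, ‖ext φ ψ (fun q => ∫ s, f s q.1 * g s q.2 ∂ν) z‖ₑ ^ p ≤
      C * ν univ ^ p * ∫⁻ q in sq1, ‖F₀ q‖ₑ ^ p := by
  have hp0 : 0 < p := by linarith
  have hee := cont_ee.measurable
  have m0 : Measurable fun w : ((ℝ × ℝ × ℝ) × ℝ) × (ℝ × ℝ) => f w.1.2 w.2.1 * g w.1.2 w.2.2 *
      ee (w.1.1.1 * w.2.1 + w.1.1.2.1 * w.2.2 + w.1.1.2.2 * (φ w.2.1 + ψ w.2.2)) := by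
    have a1 : Measurable fun w : ((ℝ × ℝ × ℝ) × ℝ) × (ℝ × ℝ) => f w.1.2 w.2.1 :=
      hf.comp (f := fun w : ((ℝ × ℝ × ℝ) × ℝ) × (ℝ × ℝ) => (w.1.2, w.2.1)) (by fun_prop)
    have a2 : Measurable fun w : ((ℝ × ℝ × ℝ) × ℝ) × (ℝ × ℝ) => g w.1.2 w.2.2 :=
      hg.comp (f := fun w : ((ℝ × ℝ × ℝ) × ℝ) × (ℝ × ℝ) => (w.1.2, w.2.2)) (by fun_prop)
    exact (a1.mul a2).mul (hee.comp (by fun_prop))
  have m1 : Measurable fun w : (ℝ × ℝ × ℝ) × ℝ =>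
      ext φ ψ (fun q => f w.2 q.1 * g w.2 q.2) w.1 :=
    (m0.stronglyMeasurable.integral_prod_right' (ν := volume.restrict sq1)).measurable
  have e1 : ∀ z, ext φ ψ (fun q => ∫ s, f s q.1 * g s q.2 ∂ν) z =
      ∫ s, ext φ ψ (fun q => f s q.1 * g s q.2) z ∂ν := by
    intro z
    unfold ext
    simp only [← integral_mul_const]
    refine integral_integral_swap ?_
    have m2 : Measurable fun w : (ℝ × ℝ) × ℝ => f w.2 w.1.1 * g w.2 w.1.2 *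
        ee (z.1 * w.1.1 + z.2.1 * w.1.2 + z.2.2 * (φ w.1.1 + ψ w.1.2)) :=
      m0.comp (f := fun w : (ℝ × ℝ) × ℝ => ((z, w.2), w.1)) (by fun_prop)
    refine (h0.norm.mul_prod (integrable_const (μ := ν) (1 : ℝ))).mono' m2.aestronglyMeasurable ?_
    have k : ∀ᵐ w ∂((volume.restrict sq1).prod ν), w.1 ∈ sq1 :=
      Measure.quasiMeasurePreserving_fst.ae (ae_restrict_mem meas_sq1)
    filter_upwards [k] with w hw
    change ‖f w.2 w.1.1 * g w.2 w.1.2 * ee _‖ ≤ _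
    rw [norm_mul, norm_ee, mul_one, mul_one]
    exact hb _ _ hw
  have e2 : ∀ z, ‖ext φ ψ (fun q => ∫ s, f s q.1 * g s q.2 ∂ν) z‖ₑ ^ p ≤
      (∫⁻ s, ‖ext φ ψ (fun q => f s q.1 * g s q.2) z‖ₑ ^ p ∂ν) * ν univ ^ (p - 1) := by
    intro z
    rw [e1]
    exact (ENNReal.rpow_le_rpow (enorm_integral_le_lintegral_enorm _) hp0.le).trans
      (jensen ν (m1.comp measurable_prodMk_left).enorm hp)
  have hfin : ν univ ^ (p - 1) ≠ ⊤ :=
    ENNReal.rpow_ne_top_of_nonneg (by linarith) (measure_ne_top _ _)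
  refine (lintegral_mono e2).trans ?_
  rw [lintegral_mul_const' _ _ hfin,
    lintegral_lintegral_swap (m1.enorm.pow_const p).aemeasurable]
  have e3 : ∀ s, ∫⁻ z, ‖ext φ ψ (fun q => f s q.1 * g s q.2) z‖ₑ ^ p ≤
      C * ∫⁻ q in sq1, ‖F₀ q‖ₑ ^ p := fun s =>
    (hfl (f s) (g s) (hf.comp measurable_prodMk_left) (hg.comp measurable_prodMk_left)).trans
      (mul_le_mul_right (setLIntegral_mono' meas_sq1 fun q hq =>
        ENNReal.rpow_le_rpow (enorm_le_iff_norm_le.2 (hb s q hq)) hp0.le) _)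
  refine (mul_le_mul_left (lintegral_mono e3) _).trans (le_of_eq ?_)
  have e4 : ν univ ^ p = ν univ ^ (p - 1) * ν univ := by
    conv_lhs => rw [show p = (p - 1) + 1 by ring]
    rw [ENNReal.rpow_add_of_nonneg _ _ (by linarith) zero_le_one, ENNReal.rpow_one]
  rw [lintegral_const, e4]
  ring

end Vale.Agent.P122A
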