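import Vale.Agent.P122A.Stm3

/-! The square integral of the off-diagonal part, kernel version. -/

open MeasureTheory Set FourierTransform
open scoped ENNReal

namespace Vale.Agent.P122A

namespace VG2

theorem le (c δ ε u : ℝ) (hc : 0 < c) (hδ : 0 < δ) (hε : 0 < ε) (h3 : δ < u) :
    (Ioc (0 : ℝ) 1).indicator (fun u => ENNReal.ofReal (1 / (c * u))) u ≤ Log.g c δ ε u := by
  unfold Log.g
  refine indicator_le_indicator (ENNReal.ofReal_le_ofReal ?_)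
  have hw : 0 < u := hδ.trans h3
  have h6 : δ ^ ε ≤ u ^ ε := Real.rpow_le_rpow hδ.le h3.le hε.le
  have h7 : 0 < δ ^ ε := Real.rpow_pos_of_pos hδ _
  rw [Real.rpow_neg hδ.le, Real.rpow_sub hw, Real.rpow_one]
  have h8 : (δ ^ ε)⁻¹ / c * (u ^ ε / u) = (u ^ ε / δ ^ ε) / (c * u) := by
    field_simp
  rw [h8]
  exact div_le_div_of_nonneg_right ((one_le_div h7).2 h6) (mul_pos hc hw).le

end VG2

theorem v_g2 : V_meas → V_rep → V_kt → V_g2 := by
  intro hmeas hrep hkt c δ ε φ A h hc hδ hε hφ hA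
  obtain ⟨-, hG, hK, -⟩ := hmeas φ h (fun _ _ => 0) δ hφ.1 hA.2.2.1 measurable_const
  have mG : Measurable fun z : ℝ × ℝ => ‖BP φ h δ z.1 z.2‖ₑ ^ 2 := hG.enorm.pow_const 2
  have mK : Measurable fun z : ℝ × ℝ =>
      ‖(Ioi δ).indicator (fun u => KK φ h u z.2) z.1‖ₑ ^ 2 :=
    (Measurable.ite (measurable_fst measurableSet_Ioi) hK measurable_const).enorm.pow_const 2
  have h1 : ∀ t : ℝ, ∫⁻ x, ‖BP φ h δ x t‖ₑ ^ 2 ≤
      ∫⁻ u, ‖(Ioi δ).indicator (fun u => KK φ h u t) u‖ₑ ^ 2 := by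
    intro t
    obtain ⟨hi, he⟩ := hrep φ A h δ t hφ.1 hA
    simp_rw [he]
    exact bes _ (hi.indicator measurableSet_Ioi)
  calc ∫⁻ z : ℝ × ℝ, ‖BP φ h δ z.1 z.2‖ₑ ^ 2
      = ∫⁻ t, ∫⁻ x, ‖BP φ h δ x t‖ₑ ^ 2 := by
        rw [Measure.volume_eq_prod, lintegral_prod_symm _ mG.aemeasurable]
    _ ≤ ∫⁻ t, ∫⁻ u, ‖(Ioi δ).indicator (fun u => KK φ h u t) u‖ₑ ^ 2 := lintegral_mono h1
    _ = ∫⁻ u, ∫⁻ t, ‖(Ioi δ).indicator (fun u => KK φ h u t) u‖ₑ ^ 2 :=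
        (lintegral_lintegral_swap
          (f := fun u t => ‖(Ioi δ).indicator (fun u => KK φ h u t) u‖ₑ ^ 2) mK.aemeasurable).symm
    _ ≤ ∫⁻ u, Log.g c δ ε u * volume A := lintegral_mono fun u => by
        by_cases hu : u ∈ Ioi δ
        · simp only [indicator_of_mem hu]
          exact (hkt c u φ A h hc (hδ.trans hu) hφ hA).trans
            (mul_le_mul_left (VG2.le c δ ε u hc hδ hε hu) _)
        · simp [indicator_of_notMem hu]
    _ = _ := by rw [lintegral_mul_const _ (Log.g_meas c δ ε), Log.g_int c δ ε hc hδ hε]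

end Vale.Agent.P122A
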